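import Vale.Agent.P310y.Good
import Vale.Agent.P310y.XorGraph

set_option linter.unusedSectionVars false
set_option linter.unusedVariables false

namespace Vale.Agent.P310y

open Function Vale.Agent.P310h2

open scoped Classical

variable {k xe : ℕ} {F Hub Gad : Type} [AddCommGroup F] [Module (ZMod 2) F] [Fintype F] [Fintype Hub]
  [Fintype Gad]

theorem zmod2_eq : ∀ a b : ZMod 2, a + b = 0 → a = b := by decide

namespace GS

variable {S : GS k xe F Hub Gad}

theorem vecOf_eq_vc (c : GItem S) : S.xs.vecOf c = Nice.vc c := by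
  funext d
  simp only [XS.vecOf, Nice.vc]
  by_cases h : d ∈ S.gvars c
  · have h' : d ∈ S.xs.vars c := h
    rw [if_pos h, if_pos h']
  · have h' : d ∉ S.xs.vars c := h
    rw [if_neg h, if_neg h']

/-- The duplicator theorem for gadget systems. -/
theorem dup_main {Tru : Hub → (Fin k → F) → Prop} {Dl : Hub → Prop} {bs : Gad} {Hs : Hub}
    (hS : Nice S Tru) (hW : Tw S Tru Dl bs Hs) :
    WLEquiv (S.xs.graph false) (S.xs.graph true) (2 * k + xe) := by
  let p0 : Pos k xe := Pos.pl ⟨0, hS.pos⟩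
  apply XS.dup_equiv (Fam := {z | S.Good Tru bs Hs p0 z.1 z.2})
  refine ⟨?_, ?_, ?_⟩
  · intro c
    show S.Good Tru bs Hs p0 (S.xs.vecOf c) (S.gtw c)
    rw [vecOf_eq_vc]
    cases c with
    | e p b β h => exact Nice.good_e p0 hS p b β h bs Hs
    | h b => exact Nice.good_h p0 hS hW b
  · intro e ρ f σ T h1 h2 hT s1 s2
    exact Nice.closure p0 hS hW h1 h2 hT s1 s2
  · exact Nice.good_no p0 hW

/-- The injectivity of the numbering. -/
theorem xs_code_inj_old (S : GS k xe F Hub Gad) : Injective S.rawI := by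
  intro c c' e
  cases c <;> cases c' <;> simp_all [GS.rawI]

theorem xs_code_inj (S : GS k xe F Hub Gad) : Injective S.xs.code := by
  intro c c' e
  exact xs_code_inj_old S (S.cd_inj e)

/-- The indexing of a tuple by the positions. -/
noncomputable def pe (k xe : ℕ) : Pos k xe ≃ Fin (Fintype.card (Pos k xe)) :=
  Fintype.equivFin _

theorem two_le_card (hk : 0 < k) : 2 ≤ Fintype.card (Pos k xe) := by
  rw [Pos.card_eq hk]
  omega

/-- Tuples indexed by positions with equal colours. -/
def EqvP {b b' : Bool} (x : Pos k xe → S.xs.Core b) (y : Pos k xe → S.xs.Core b') : Prop :=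
  XS.Eqv (fun i => x ((pe k xe).symm i)) (fun i => y ((pe k xe).symm i))

theorem EqvP.symm {b b' : Bool} {x : Pos k xe → S.xs.Core b} {y : Pos k xe → S.xs.Core b'}
    (h : EqvP x y) : EqvP y x := XS.Eqv.symm h

theorem EqvP.item_eq (hk : 0 < k) {b b' : Bool} {x : Pos k xe → S.xs.Core b} {y : Pos k xe → S.xs.Core b'}
    (h : EqvP x y) (p : Pos k xe) : (y p).item = (x p).item := by
  have := XS.Eqv.item_eq (xs_code_inj S) (two_le_card hk) h (pe k xe p)
  simpa using this

theorem update_comp {b : Bool} (x : Pos k xe → S.xs.Core b) (p : Pos k xe) (c : S.xs.Core b) :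
    (fun i => update x p c ((pe k xe).symm i)) =
      update (fun i => x ((pe k xe).symm i)) (pe k xe p) c := by
  funext i
  by_cases e : i = pe k xe p
  · subst e
    simp
  · have e' : (pe k xe).symm i ≠ p := fun h => e (by rw [← h]; simp)
    simp [e, e']

theorem EqvP.place (hk : 0 < k) {b b' : Bool} {x : Pos k xe → S.xs.Core b} {y : Pos k xe → S.xs.Core b'}
    (h : EqvP x y) (p : Pos k xe) (c : S.xs.Core b) :
    ∃ c' : S.xs.Core b', c'.item = c.item ∧ EqvP (update x p c) (update y p c') ∧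
      ∀ q, S.xs.coreAdj c (x q) ↔ S.xs.coreAdj c' (y q) := by
  obtain ⟨c', h1, h2, h3⟩ := XS.Eqv.place (xs_code_inj S) (two_le_card hk) h (pe k xe p) c
  refine ⟨c', h1, ?_, ?_⟩
  · unfold EqvP
    rw [update_comp, update_comp]
    exact h2
  · intro q
    have := h3 (pe k xe q)
    simpa using this

/-- A partner of a tuple, when the graphs are equivalent. -/
theorem exists_partner (hk : 0 < k) (h : WLEquiv (S.xs.graph false) (S.xs.graph true) (2 * k + xe))
    (x : Pos k xe → S.xs.Core false) : ∃ y : Pos k xe → S.xs.Core true, EqvP x y := by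
  rw [← Pos.card_eq hk] at h
  obtain ⟨σ, hσ⟩ := exists_tuple_equiv h
  let X : Fin (Fintype.card (Pos k xe)) → S.xs.Vtx false := fun i => XS.mkV (x ((pe k xe).symm i))
  have hE := hσ X
  have h1 : ∀ i, ∃ c : S.xs.Core true, σ X i = XS.mkV c := by
    intro i
    obtain ⟨c, h2, _⟩ := XS.class_of_dg (xs_code_inj S) (x ((pe k xe).symm i)) (σ X i)
      (EqvAll.dg_eq (two_le_card hk) hE i)
    exact ⟨c, h2⟩
  choose c hc using h1
  refine ⟨fun p => c (pe k xe p), ?_⟩
  unfold EqvP XS.Eqv
  have e : (fun i => XS.mkV ((fun p => c (pe k xe p)) ((pe k xe).symm i))) = σ X := by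
    funext i
    simp [hc]
  rw [e]
  exact hE

/-! ### Sums over the variables of equations -/

omit [Module (ZMod 2) F] [Fintype F] [Fintype Hub] in
theorem sum_h (g : Gad) (f : GVar k xe F Hub Gad → ZMod 2) :
    ∑ d ∈ S.gvars (GItem.h g), f d = ∑ p, f (yv g p) := by
  apply Finset.sum_image
  intro p _ p' _ e
  exact (yv_inj e).2

omit [Module (ZMod 2) F] [Fintype F] [Fintype Hub] in
theorem sum_e (p : Pos k xe) (b : Gad) (β : F) (h : S.allow b p.1 β) (f : GVar k xe F Hub Gad → ZMod 2) :
    ∑ d ∈ S.gvars (GItem.e p b β h), f d =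
      f (yv b p) + ∑ H ∈ S.hubs b, f (xv p H (β + S.off b H p.1)) := by
  unfold gvars
  rw [Finset.sum_insert, Finset.sum_image]
  · intro H _ H' _ e
    exact (xv_inj e).2.1
  · intro h1
    obtain ⟨H, _, h2⟩ := Finset.mem_image.1 h1
    exact xv_ne_yv h2

/-- The sum of a tuple over the variables of a hub and a word. -/
noncomputable def Xs {b : Bool} (x : Pos k xe → S.xs.Core b) (H : Hub) (c : Fin k → F) : ZMod 2 :=
  ∑ p, (x p).a (xv p H (c p.1))

/-- The hub and the word are forced to agree in all matched pairs of tuples. -/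
def Agr (S : GS k xe F Hub Gad) (H : Hub) (c : Fin k → F) : Prop :=
  ∀ (x : Pos k xe → S.xs.Core false) (y : Pos k xe → S.xs.Core true), EqvP x y →
    (∀ p, xv p H (c p.1) ∈ S.gvars (x p).item) → Xs x H c = Xs y H c

/-- The parity of tokens is carried over. -/
theorem tokens (hk : 0 < k) {b1 b2 : Bool} {z : Pos k xe → S.xs.Core b1} {z' : Pos k xe → S.xs.Core b2}
    (hz : EqvP z z') (g : Gad) (hg : ∀ q, ∃ β h, (z q).item = GItem.e q g β h)
    (hA : ∑ q, (z q).a (yv g q) = S.xs.rhs b1 (GItem.h g)) :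
    ∑ q, (z' q).a (yv g q) = S.xs.rhs b2 (GItem.h g) := by
  -- the solution of the equation `h`
  let a : GVar k xe F Hub Gad → ZMod 2 := fun d =>
    match d with
    | Sum.inr (g', p) => if g' = g then (z p).a (yv g p) else 0
    | Sum.inl _ => 0
  have ha : ∀ p, a (yv g p) = (z p).a (yv g p) := fun p => if_pos rfl
  let w : S.xs.Core b1 :=
    { item := GItem.h g
      a := a
      sup := by
        intro d hd
        cases d with
        | inl d => rfl
        | inr d =>
          obtain ⟨g', p⟩ := d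
          show (if g' = g then _ else _) = _
          rw [if_neg]
          rintro rfl
          exact hd (mem_gvars_h.2 ⟨p, rfl⟩ : yv g' p ∈ S.gvars (GItem.h g'))
      eqn := by
        show ∑ d ∈ S.gvars (GItem.h g), a d = _
        rw [sum_h]
        simp only [ha]
        exact hA }
  obtain ⟨w', h1, _, h3⟩ := hz.place hk (Pos.pl ⟨0, hk⟩) w
  have hw'item : w'.item = GItem.h g := h1
  have key : ∀ q, w'.a (yv g q) = (z' q).a (yv g q) := by
    intro q
    obtain ⟨β, hb, hq⟩ := hg q
    have h4 : S.xs.coreAdj w (z q) := by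
      refine ⟨?_, ?_⟩
      · show GItem.h g ≠ _
        rw [hq]
        simp
      · intro d hd hd'
        have hd0 : d ∈ S.gvars (GItem.h g) := hd
        obtain ⟨p, rfl⟩ := mem_gvars_h.1 hd0
        have hd2 : yv g p ∈ S.gvars (GItem.e q g β hb) := by
          rw [← hq]
          exact hd'
        rcases mem_gvars_e.1 hd2 with h5 | ⟨H, _, h5⟩
        · obtain ⟨_, rfl⟩ := yv_inj h5
          exact ha _
        · exact (xv_ne_yv h5.symm).elim
    have h5 := ((h3 q).1 h4).2 (yv g q)
    apply h5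
    · rw [hw'item]
      exact (mem_gvars_h.2 ⟨q, rfl⟩ : yv g q ∈ S.gvars (GItem.h g))
    · rw [hz.item_eq hk q, hq]
      exact (mem_gvars_e.2 (Or.inl rfl) : yv g q ∈ S.gvars (GItem.e q g β hb))
  have e := w'.eqn
  rw [hw'item] at e
  have e2 : ∑ d ∈ S.gvars (GItem.h g), w'.a d = ∑ q, w'.a (yv g q) := sum_h g _
  have e3 : ∑ d ∈ S.gvars (GItem.h g), w'.a d = S.xs.rhs b2 (GItem.h g) := e
  rw [← e3, e2]
  exact (Finset.sum_congr rfl (fun q _ => key q)).symm

/-- The equation of a solution of an equation `e`. -/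
theorem eqn_e {b1 : Bool} (x : S.xs.Core b1) {p : Pos k xe} {g : Gad} {β : F} {h : S.allow g p.1 β}
    (hx : x.item = GItem.e p g β h) :
    x.a (yv g p) + ∑ H ∈ S.hubs g, x.a (xv p H (β + S.off g H p.1)) = 0 := by
  have e := x.eqn
  rw [hx] at e
  have e2 : ∑ d ∈ S.gvars (GItem.e p g β h), x.a d =
      x.a (yv g p) + ∑ H ∈ S.hubs g, x.a (xv p H (β + S.off g H p.1)) := sum_e p g β h _
  have e3 : ∑ d ∈ S.gvars (GItem.e p g β h), x.a d = S.xs.rhs b1 (GItem.e p g β h) := e
  rw [← e2, e3]
  cases b1 <;> rfl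

/-- A solution of an equation `e` with a value on one hub. -/
noncomputable def solE (p : Pos k xe) (g : Gad) (β : F) (h : S.allow g p.1 β) (H : Hub) (hH : H ∈ S.hubs g)
    (w : ZMod 2) : S.xs.Core false where
  item := GItem.e p g β h
  a := fun d => if d = xv p H (β + S.off g H p.1) ∨ d = yv g p then w else 0
  sup := by
    intro d hd
    rw [if_neg]
    rintro (rfl | rfl)
    · exact hd (mem_gvars_e.2 (Or.inr ⟨H, hH, rfl⟩) :
        xv p H (β + S.off g H p.1) ∈ S.gvars (GItem.e p g β h))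
    · exact hd (mem_gvars_e.2 (Or.inl rfl) : yv g p ∈ S.gvars (GItem.e p g β h))
  eqn := by
    show ∑ d ∈ S.gvars (GItem.e p g β h), _ = _
    rw [Finset.sum_eq_add_of_mem (xv p H (β + S.off g H p.1)) (yv g p)
      (mem_gvars_e.2 (Or.inr ⟨H, hH, rfl⟩)) (mem_gvars_e.2 (Or.inl rfl)) xv_ne_yv]
    · simp only [true_or, or_true, if_true]
      rw [zmod2_self']
      rfl
    · intro d _ hd
      rw [if_neg]
      rintro (h1 | h1)
      · exact hd.1 h1
      · exact hd.2 h1

/-- One switch of an equation, keeping the value on the hub. -/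
theorem switch1 (hk : 0 < k) (hpair : ∀ a b H1 H2, H1 ≠ H2 → H1 ∈ S.hubs a → H2 ∈ S.hubs a →
      H1 ∈ S.hubs b → H2 ∈ S.hubs b → a = b)
    {x : Pos k xe → S.xs.Core false} {y : Pos k xe → S.xs.Core true} (hxy : EqvP x y) (p : Pos k xe) {g : Gad}
    {β : F} (h : S.allow g p.1 β) {H : Hub} (hH : H ∈ S.hubs g)
    (hv : xv p H (β + S.off g H p.1) ∈ S.gvars (x p).item) :
    ∃ (c : S.xs.Core false) (c' : S.xs.Core true), c.item = GItem.e p g β h ∧
      EqvP (update x p c) (update y p c') ∧
      c.a (xv p H (β + S.off g H p.1)) = (x p).a (xv p H (β + S.off g H p.1)) ∧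
      c'.a (xv p H (β + S.off g H p.1)) = (y p).a (xv p H (β + S.off g H p.1)) := by
  by_cases e : (x p).item = GItem.e p g β h
  · refine ⟨x p, y p, e, ?_, rfl, rfl⟩
    rw [update_eq_self, update_eq_self]
    exact hxy
  · set V := xv p H (β + S.off g H p.1) with hV
    let c := solE p g β h H hH ((x p).a V)
    obtain ⟨c', h1, h2, h3⟩ := hxy.place hk p c
    have hcitem : c.item = GItem.e p g β h := rfl
    have hcV : c.a V = (x p).a V := by
      show (if V = V ∨ V = yv g p then _ else _) = _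
      rw [if_pos (Or.inl rfl)]
    refine ⟨c, c', rfl, h2, hcV, ?_⟩
    -- the common variables
    have hcommon : ∀ d, d ∈ S.gvars (GItem.e p g β h) → d ∈ S.gvars (x p).item → d = V := by
      intro d hd hd'
      cases hi : (x p).item with
      | h g' =>
        rw [hi] at hv
        obtain ⟨_, h4⟩ := mem_gvars_h.1 hv
        exact (xv_ne_yv h4).elim
      | e q g2 β2 hb2 =>
        rw [hi] at hv hd'
        rcases mem_gvars_e.1 hv with h4 | ⟨H4, m4, h4⟩
        · exact (xv_ne_yv h4).elim
        obtain ⟨rfl, rfl, h5⟩ := xv_inj h4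
        have same : g = g2 → False := by
          rintro rfl
          apply e
          rw [hi]
          have : β2 = β := by
            have := h5.symm
            exact add_right_cancel this
          subst this
          rfl
        rcases mem_gvars_e.1 hd with rfl | ⟨H6, m6, rfl⟩
        · rcases mem_gvars_e.1 hd' with h7 | ⟨H7, _, h7⟩
          · exact (same (yv_inj h7).1).elim
          · exact (xv_ne_yv h7.symm).elim
        · rcases mem_gvars_e.1 hd' with h7 | ⟨H7, m7, h7⟩
          · exact (xv_ne_yv h7).elim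
          · obtain ⟨_, rfl, _⟩ := xv_inj h7
            by_cases e7 : H6 = H
            · rw [e7]
            · exact (same (hpair _ _ _ _ e7 m6 hH m7 m4)).elim
    have hadj : S.xs.coreAdj c (x p) := by
      refine ⟨fun e' => e e'.symm, ?_⟩
      intro d hd hd'
      rw [hcommon d hd hd']
      exact hcV
    have hadj' := (h3 p).1 hadj
    apply hadj'.2 V
    · rw [h1]
      exact (mem_gvars_e.2 (Or.inr ⟨H, hH, rfl⟩) : V ∈ S.gvars (GItem.e p g β h))
    · rw [hxy.item_eq hk p]
      exact hv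

/-- All positions can be switched to the equations of one gadget, keeping the values on one hub. -/
theorem switch_all (hk : 0 < k) (hpair : ∀ a b H1 H2, H1 ≠ H2 → H1 ∈ S.hubs a → H2 ∈ S.hubs a →
      H1 ∈ S.hubs b → H2 ∈ S.hubs b → a = b)
    {x : Pos k xe → S.xs.Core false} {y : Pos k xe → S.xs.Core true} (hxy : EqvP x y) {g : Gad}
    {c0 : Fin k → F} (h : ∀ i, S.allow g i (c0 i)) {H : Hub} (hH : H ∈ S.hubs g)
    (hv : ∀ p, xv p H (S.wd g H c0 p.1) ∈ S.gvars (x p).item) (Q : Finset (Pos k xe)) :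
    ∃ (z : Pos k xe → S.xs.Core false) (z' : Pos k xe → S.xs.Core true), EqvP z z' ∧
      (∀ p ∈ Q, (z p).item = GItem.e p g (c0 p.1) (h p.1)) ∧
      (∀ p, xv p H (S.wd g H c0 p.1) ∈ S.gvars (z p).item) ∧
      (∀ p, (z p).a (xv p H (S.wd g H c0 p.1)) = (x p).a (xv p H (S.wd g H c0 p.1))) ∧
      (∀ p, (z' p).a (xv p H (S.wd g H c0 p.1)) = (y p).a (xv p H (S.wd g H c0 p.1))) := by
  induction Q using Finset.induction_on with
  | empty =>
    exact ⟨x, y, hxy, fun p hp => (Finset.notMem_empty p hp).elim, hv, fun _ => rfl, fun _ => rfl⟩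
  | insert p Q _ ih =>
    obtain ⟨z, z', hz, h1, h2, h3, h4⟩ := ih
    obtain ⟨c, c', e1, e2, e3, e4⟩ := switch1 hk hpair hz p (h p.1) hH (h2 p)
    refine ⟨update z p c, update z' p c', e2, ?_, ?_, ?_, ?_⟩
    · intro q hq
      by_cases e : q = p
      · subst e
        rw [update_self]
        exact e1
      · rw [update_of_ne e]
        exact h1 q ((Finset.mem_insert.1 hq).resolve_left e)
    · intro q
      by_cases e : q = p
      · subst e
        rw [update_self, e1]
        exact mem_gvars_e.2 (Or.inr ⟨H, hH, rfl⟩)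
      · rw [update_of_ne e]
        exact h2 q
    · intro q
      by_cases e : q = p
      · subst e
        rw [update_self]
        exact e3.trans (h3 q)
      · rw [update_of_ne e]
        exact h3 q
    · intro q
      by_cases e : q = p
      · subst e
        rw [update_self]
        exact e4.trans (h4 q)
      · rw [update_of_ne e]
        exact h4 q

/-- The gadget step of the spoiler. -/
theorem agr_step (hk : 0 < k) (hpair : ∀ a b H1 H2, H1 ≠ H2 → H1 ∈ S.hubs a → H2 ∈ S.hubs a →
      H1 ∈ S.hubs b → H2 ∈ S.hubs b → a = b)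
    {g : Gad} (hg : g ≠ S.twist) {c0 : Fin k → F} (h : ∀ i, S.allow g i (c0 i)) {H : Hub}
    (hH : H ∈ S.hubs g) (hoth : ∀ H' ∈ S.hubs g, H' ≠ H → Agr S H' (S.wd g H' c0)) :
    Agr S H (S.wd g H c0) := by
  intro x y hxy hv
  obtain ⟨z, z', hz, h1, h2, h3, h4⟩ := switch_all hk hpair hxy h hH hv Finset.univ
  have h1' : ∀ p, (z p).item = GItem.e p g (c0 p.1) (h p.1) := fun p => h1 p (Finset.mem_univ p)
  have h1'' : ∀ p, (z' p).item = GItem.e p g (c0 p.1) (h p.1) := fun p => by
    rw [hz.item_eq hk p, h1' p]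
  -- the sums agree
  have eX : Xs x H (S.wd g H c0) = Xs z H (S.wd g H c0) :=
    (Finset.sum_congr rfl (fun p _ => h3 p)).symm
  have eY : Xs y H (S.wd g H c0) = Xs z' H (S.wd g H c0) :=
    (Finset.sum_congr rfl (fun p _ => h4 p)).symm
  rw [eX, eY]
  -- other hubs
  have hoth' : ∀ H' ∈ S.hubs g, H' ≠ H → Xs z H' (S.wd g H' c0) = Xs z' H' (S.wd g H' c0) := by
    intro H' m' ne'
    apply hoth H' m' ne' z z' hz
    intro p
    rw [h1' p]
    exact mem_gvars_e.2 (Or.inr ⟨H', m', rfl⟩)
  -- tokens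
  have hrhs0 : ∀ b : Bool, S.xs.rhs b (GItem.h g) = 0 := by
    intro b
    cases b
    · rfl
    · show (if g = S.twist then (1 : ZMod 2) else 0) = 0
      rw [if_neg hg]
  have hA : ∑ q, (z q).a (yv g q) = ∑ q, (z' q).a (yv g q) := by
    rcases zmod2_cases' (∑ q, (z q).a (yv g q)) with e1 | e1
    · have := tokens hk hz g (fun q => ⟨_, _, h1' q⟩) (by rw [e1, hrhs0])
      rw [e1, this, hrhs0]
    · rcases zmod2_cases' (∑ q, (z' q).a (yv g q)) with e2 | e2
      · have := tokens hk hz.symm g (fun q => ⟨_, _, h1'' q⟩) (by rw [e2, hrhs0])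
        rw [hrhs0] at this
        rw [e1] at this
        exact (one_ne_zero this).elim
      · rw [e1, e2]
  -- the equations
  have sumz : ∀ {b1 : Bool} (w : Pos k xe → S.xs.Core b1),
      (∀ p, (w p).item = GItem.e p g (c0 p.1) (h p.1)) →
      ∑ q, (w q).a (yv g q) + ∑ H' ∈ S.hubs g, Xs w H' (S.wd g H' c0) = 0 := by
    intro b1 w hw
    have e1 : ∑ H' ∈ S.hubs g, Xs w H' (S.wd g H' c0) =
        ∑ p, ∑ H' ∈ S.hubs g, (w p).a (xv p H' (c0 p.1 + S.off g H' p.1)) := by
      unfold Xs
      rw [Finset.sum_comm]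
      rfl
    rw [e1, ← Finset.sum_add_distrib]
    apply Finset.sum_eq_zero
    intro p _
    exact eqn_e (w p) (hw p)
  have e5 := sumz z h1'
  have e6 := sumz z' h1''
  rw [← Finset.add_sum_erase _ _ hH] at e5 e6
  have e7 : ∑ H' ∈ (S.hubs g).erase H, Xs z H' (S.wd g H' c0) =
      ∑ H' ∈ (S.hubs g).erase H, Xs z' H' (S.wd g H' c0) :=
    Finset.sum_congr rfl (fun H' hH' =>
      hoth' H' (Finset.mem_of_mem_erase hH') (Finset.ne_of_mem_erase hH'))
  rw [e7, hA] at e5
  have e8 := e5.trans e6.symm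
  exact add_right_cancel (add_left_cancel e8)

/-- The twist: the hub of the twisted gadget does not agree, when the graphs are equivalent. -/
theorem agr_twist (hk : 0 < k) (h : WLEquiv (S.xs.graph false) (S.xs.graph true) (2 * k + xe)) {Hs : Hub}
    (hM : S.IsMono S.twist Hs) {c0 : Fin k → F} (hc : ∀ i, S.allow S.twist i (c0 i)) :
    ¬ Agr S Hs (S.wd S.twist Hs c0) := by
  intro hA
  let z : Pos k xe → S.xs.Core false := fun p =>
    { item := GItem.e p S.twist (c0 p.1) (hc p.1)
      a := 0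
      sup := fun _ _ => rfl
      eqn := by simp [XS.rhs] }
  obtain ⟨z', hz⟩ := exists_partner hk h z
  have hzitem : ∀ p, (z p).item = GItem.e p S.twist (c0 p.1) (hc p.1) := fun _ => rfl
  have hzitem' : ∀ p, (z' p).item = GItem.e p S.twist (c0 p.1) (hc p.1) := fun p => by
    rw [hz.item_eq hk p, hzitem]
  have h1 := tokens hk hz S.twist (fun q => ⟨_, _, hzitem q⟩) (by simp [z, XS.rhs])
  have h2 : S.xs.rhs true (GItem.h S.twist) = 1 := by
    show (if S.twist = S.twist then (1 : ZMod 2) else 0) = 1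
    rw [if_pos rfl]
  rw [h2] at h1
  have h3 : Xs z Hs (S.wd S.twist Hs c0) = 0 := by
    apply Finset.sum_eq_zero
    intro p _
    rfl
  have h4 := hA z z' hz (fun p => by
    rw [hzitem]
    exact mem_gvars_e.2 (Or.inr ⟨Hs, hM.mem, rfl⟩))
  rw [h3] at h4
  have h5 : ∑ q, (z' q).a (yv S.twist q) = Xs z' Hs (S.wd S.twist Hs c0) := by
    apply Finset.sum_congr rfl
    intro p _
    have e1 := eqn_e (z' p) (hzitem' p)
    rw [hM, Finset.sum_singleton] at e1
    exact zmod2_eq _ _ e1
  rw [h5, ← h4] at h1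
  exact zero_ne_one h1

end GS

end Vale.Agent.P310y
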