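import Vale.Agent.P310y.Prog
import Vale.Agent.P310y.SpoilG

set_option linter.unusedSectionVars false
set_option linter.unusedVariables false

namespace Vale.Agent.P310y

open Function Vale.Agent.P310h2

open scoped Classical

variable {k xe q n : ℕ} {F : Type}

theorem idx_inj {r r' : Fin (n + 1)} {s s' : Bool} (h : idx r s = idx r' s') : r = r' ∧ s = s' := by
  have h1 := congrArg Fin.val h
  simp only [idx] at h1
  cases s <;> cases s' <;> simp at h1 <;> first
    | omega
    | exact ⟨Fin.ext (by omega), rfl⟩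

theorem idx_ne (r : Fin (n + 1)) (s : Bool) (i : Fin (2 * n + 3)) (hi : i.val = 0) : idx r s ≠ i := by
  intro e
  have h1 := congrArg Fin.val e
  simp only [idx] at h1
  omega

theorem fin3_a : ∀ j1 j2 τ τ' : Fin 3, j1 ≠ j2 → j2 - τ = j1 - τ + 1 → j2 - τ' = j1 - τ' + 1 := by
  decide

theorem fin3_b : ∀ j τ τ' : Fin 3, j - τ = j - τ' → τ = τ' := by
  decide

namespace Prog

variable (P : Prog k xe q n F)

theorem arc00 {l l' : Lam q n k xe} (h1 : P.tA l = P.tA l') (h2 : P.tC l = P.tC l') : l = l' := by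
  cases l <;> cases l' <;> simp [tA, tC] at h1 h2 ⊢ <;> try omega

theorem arc01 {l l' : Lam q n k xe} (h1 : P.tA l = P.tC l') (h2 : P.tC l = P.tB l') : False := by
  cases l <;> cases l' <;> simp [tA, tB, tC] at h1 h2 <;> first
    | omega
    | (simp only [Fin.ext_iff, Fin.val_succ, Fin.val_castSucc] at h1 h2; omega)
    | exact idx_ne _ _ _ rfl h1.2.symm

theorem arc02 {l l' : Lam q n k xe} (h1 : P.tA l = P.tB l') (h2 : P.tC l = P.tA l') : False := by
  cases l <;> cases l' <;> simp [tA, tB, tC] at h1 h2 <;> first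
    | omega
    | (simp only [Fin.ext_iff, Fin.val_succ, Fin.val_castSucc] at h1 h2; omega)

theorem arc11 {l l' : Lam q n k xe} (h1 : P.tC l = P.tC l') (h2 : P.tB l = P.tB l') : l = l' := by
  cases l <;> cases l' <;> simp [tB, tC] at h1 h2 ⊢ <;> first
    | omega
    | exact idx_inj h1.2
    | (simp only [Fin.ext_iff, Fin.val_last, Fin.val_castSucc] at h1 h2; omega)

theorem arc12 {l l' : Lam q n k xe} (h1 : P.tC l = P.tB l') (h2 : P.tB l = P.tA l') : False := by
  cases l <;> cases l' <;> simp [tA, tB, tC] at h1 h2 <;> first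
    | omega
    | (simp only [Fin.ext_iff, Fin.val_succ, Fin.val_castSucc] at h1 h2; omega)

theorem arc22 {l l' : Lam q n k xe} (h1 : P.tB l = P.tB l') (h2 : P.tA l = P.tA l') : l = l' := by
  cases l <;> cases l' <;> simp [tA, tB] at h1 h2 ⊢ <;> try omega

/-- The tags of consecutive slots determine the kind and the slot. -/
theorem arc_inj {l l' : Lam q n k xe} {d d' : Fin 3} (h1 : P.slotTag l d = P.slotTag l' d')
    (h2 : P.slotTag l (d + 1) = P.slotTag l' (d' + 1)) : l = l' ∧ d = d' := by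
  fin_cases d <;> fin_cases d'
  · exact ⟨P.arc00 h1 h2, rfl⟩
  · exact (P.arc01 h1 h2).elim
  · exact (P.arc02 h1 h2).elim
  · exact (P.arc01 h1.symm h2.symm).elim
  · exact ⟨P.arc11 h1 h2, rfl⟩
  · exact (P.arc12 h1 h2).elim
  · exact (P.arc02 h1.symm h2.symm).elim
  · exact (P.arc12 h1.symm h2.symm).elim
  · exact ⟨P.arc22 h1 h2, rfl⟩

variable [AddCommGroup F] [Module (ZMod 2) F] [Fintype F]

theorem mem_hubs_tri {l : Lam q n k xe} {τ : Fin 3} {H : Fin 3 × Tag q n k xe} :
    H ∈ P.gs.hubs (.tri l τ) ↔ H.2 = P.slotTag l (H.1 - τ) := by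
  show H ∈ Finset.univ.image _ ↔ _
  rw [Finset.mem_image]
  constructor
  · rintro ⟨j, _, rfl⟩
    rfl
  · intro h
    exact ⟨H.1, Finset.mem_univ _, by rw [← h]⟩

theorem triple_tri (l : Lam q n k xe) (τ : Fin 3) :
    P.gs.Triple (.tri l τ) (fun j => (j, P.slotTag l (j - τ))) := by
  refine ⟨fun _ => rfl, ?_⟩
  ext x
  rw [mem_hubs_tri]
  simp only [Finset.mem_image, Finset.mem_univ, true_and]
  constructor
  · intro h
    exact ⟨x.1, by rw [← h]⟩
  · rintro ⟨j, rfl⟩
    rfl

theorem fin3_pair : ∀ a b c d e : Fin 3, a - c = d → b - c = e → a ≠ b →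
    (e = d + 1) ∨ (d = e + 1) := by decide

/-- Two gadgets with two common hubs are the same. -/
theorem gs_pair (a b : Gad q n k xe) (H1 H2 : Fin 3 × Tag q n k xe) (hne : H1 ≠ H2)
    (h1a : H1 ∈ P.gs.hubs a) (h2a : H2 ∈ P.gs.hubs a) (h1b : H1 ∈ P.gs.hubs b)
    (h2b : H2 ∈ P.gs.hubs b) : a = b := by
  have hs : ∀ g : Gad q n k xe, (∀ l τ, g ≠ .tri l τ) → H1 ∈ P.gs.hubs g → H2 ∈ P.gs.hubs g → False := by
    intro g hg m1 m2
    cases g with
    | tri l τ => exact hg l τ rfl
    | mono τ =>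
      have e1 : H1 = (τ, Tag.base) := Finset.mem_singleton.1 m1
      have e2 : H2 = (τ, Tag.base) := Finset.mem_singleton.1 m2
      exact hne (e1.trans e2.symm)
    | tw =>
      have e1 : H1 = (0, Tag.dly ⟨0, by omega⟩) := Finset.mem_singleton.1 m1
      have e2 : H2 = (0, Tag.dly ⟨0, by omega⟩) := Finset.mem_singleton.1 m2
      exact hne (e1.trans e2.symm)
  cases a with
  | mono τ => exact (hs _ (by simp) h1a h2a).elim
  | tw => exact (hs _ (by simp) h1a h2a).elim
  | tri l τ =>
    cases b with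
    | mono τ => exact (hs _ (by simp) h1b h2b).elim
    | tw => exact (hs _ (by simp) h1b h2b).elim
    | tri l' τ' =>
      rw [mem_hubs_tri] at h1a h2a h1b h2b
      obtain ⟨j1, t1⟩ := H1
      obtain ⟨j2, t2⟩ := H2
      simp only at h1a h2a h1b h2b
      have hj : j1 ≠ j2 := by
        rintro rfl
        apply hne
        rw [h1a, h2a]
      have e1 := h1a.symm.trans h1b
      have e2 := h2a.symm.trans h2b
      rcases fin3_pair j1 j2 τ _ _ rfl rfl hj with h3 | h3
      · have h4 : j2 - τ' = (j1 - τ') + 1 := fin3_a j1 j2 τ τ' hj h3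
        rw [h3] at e2
        rw [h4] at e2
        obtain ⟨rfl, h5⟩ := P.arc_inj e1 e2
        rw [fin3_b _ _ _ h5]
      · have h4 : j1 - τ' = (j2 - τ') + 1 := fin3_a j2 j1 τ τ' hj.symm h3
        rw [h3] at e1
        rw [h4] at e1
        obtain ⟨rfl, h5⟩ := P.arc_inj e2 e1
        rw [fin3_b _ _ _ h5]

/-- The true facts of a program. -/
def Tru (H : Fin 3 × Tag q n k xe) (c : Fin k → F) : Prop :=
  match H.2 with
  | .orig t => P.Acc t c
  | .cp t _ => P.Acc t c
  | .use r s => P.Acc (P.src r s) c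
  | .prv r => (∀ i, P.guard r i (c i)) ∧ P.Acc (P.ch1 r) (fun i => c i + P.δ1 r i) ∧
      P.Acc (P.ch2 r) (fun i => c i + P.δ2 r i)
  | .base => c = P.cB
  | .dly j => j.val = 0 ∧ H.1 = 0 ∧ c = P.c0

/-- The delayed hubs. -/
def Dl (H : Fin 3 × Tag q n k xe) : Prop :=
  ∃ j : Fin (6 * k + 3 * xe + 12), H.2 = Tag.dly j ∧ ¬ (j.val = 0 ∧ H.1 = 0)

theorem triple_not_mono {b : Gad q n k xe} {h : Fin 3 → Fin 3 × Tag q n k xe} {M : Fin 3 × Tag q n k xe}
    (hT : P.gs.Triple b h) (hM : P.gs.IsMono b M) : False := by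
  have h0 := hM.eq (hT.mem 0)
  have h1 := hM.eq (hT.mem 1)
  have := hT.inj (h0.trans h1.symm)
  simp at this

theorem tri_not_mono {l : Lam q n k xe} {τ : Fin 3} {M : Fin 3 × Tag q n k xe}
    (hM : P.gs.IsMono (.tri l τ) M) : False := P.triple_not_mono (P.triple_tri l τ) hM

theorem mono_of_singleton {A : Type} {x y : A} (h : ({x} : Finset A) = {y}) : x = y := by
  have : x ∈ ({y} : Finset A) := by
    rw [← h]
    exact Finset.mem_singleton_self x
  exact Finset.mem_singleton.1 this

theorem src_false (r : Fin n) : P.src r.castSucc false = P.ch1 r := by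
  simp [src]

theorem src_true (r : Fin n) : P.src r.castSucc true = P.ch2 r := by
  simp [src]

theorem src_last (s : Bool) : P.src (Fin.last n) s = P.s0 := by
  simp [src]

theorem slotTag_base {l : Lam q n k xe} {d : Fin 3} (h : P.slotTag l d = Tag.base) : l = Lam.bas := by
  fin_cases d <;> cases l <;> simp_all [slotTag, tA, tB, tC]

theorem slotTag_dly {l : Lam q n k xe} {d : Fin 3} {m : Fin (6 * k + 3 * xe + 12)}
    (h : P.slotTag l d = Tag.dly m) :
    (∃ j : Fin (6 * k + 3 * xe + 11), l = Lam.del j ∧ ((d = 0 ∧ m.val = j.val) ∨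
      ((d = 1 ∨ d = 2) ∧ m.val = j.val + 1))) ∨ (l = Lam.las ∧ d = 0 ∧ m.val = 6 * k + 3 * xe + 11) := by
  fin_cases d <;> cases l <;> simp_all [slotTag, tA, tB, tC]
  all_goals (subst_vars; simp)

theorem slotOff_bas (d : Fin 3) (i : Fin k) : P.slotOff Lam.bas d i = 0 := by
  fin_cases d <;> rfl

theorem slotOff_del (j : Fin (6 * k + 3 * xe + 11)) (d : Fin 3) (i : Fin k) :
    P.slotOff (Lam.del j) d i = 0 := by
  fin_cases d <;> rfl

/-- Sem for a kind, in terms of the three slots. -/
theorem sem_of (l : Lam q n k xe) (c0 : Fin k → F)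
    (h1 : ∀ j j' j'', P.Tru (j', P.tC l) (fun i => c0 i + P.oC l i) →
      P.Tru (j'', P.tB l) (fun i => c0 i + P.oB l i) → P.Tru (j, P.tA l) (fun i => c0 i + (0 : Fin k → F) i))
    (h2 : ∀ j j' j'', P.Tru (j', P.tB l) (fun i => c0 i + P.oB l i) →
      P.Tru (j'', P.tA l) (fun i => c0 i + (0 : Fin k → F) i) → P.Tru (j, P.tC l) (fun i => c0 i + P.oC l i))
    (h3 : ∀ j j' j'', P.Tru (j', P.tA l) (fun i => c0 i + (0 : Fin k → F) i) →
      P.Tru (j'', P.tC l) (fun i => c0 i + P.oC l i) → P.Tru (j, P.tB l) (fun i => c0 i + P.oB l i))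
    (d : Fin 3) (j j' j'' : Fin 3) :
    P.Tru (j', P.slotTag l (d + 1)) (fun i => c0 i + P.slotOff l (d + 1) i) →
      P.Tru (j'', P.slotTag l (d + 2)) (fun i => c0 i + P.slotOff l (d + 2) i) →
      P.Tru (j, P.slotTag l d) (fun i => c0 i + P.slotOff l d i) := by
  fin_cases d
  · exact h1 j j' j''
  · exact h2 j j' j''
  · exact h3 j j' j''

theorem sem_kind (hne : ¬ P.Acc P.s0 P.c0) (l : Lam q n k xe) (c0 : Fin k → F)
    (hleg : ∀ i, P.lamAllow l i (c0 i)) (d : Fin 3) (j j' j'' : Fin 3) :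
    P.Tru (j', P.slotTag l (d + 1)) (fun i => c0 i + P.slotOff l (d + 1) i) →
      P.Tru (j'', P.slotTag l (d + 2)) (fun i => c0 i + P.slotOff l (d + 2) i) →
      P.Tru (j, P.slotTag l d) (fun i => c0 i + P.slotOff l d i) := by
  have e0 : (fun i => c0 i + (0 : Fin k → F) i) = c0 := by
    funext i
    simp
  cases l with
  | orR r =>
    apply P.sem_of
    · intro j j' j'' t1 t2
      show P.Acc (P.par r) (fun i => c0 i + (0 : Fin k → F) i)
      obtain ⟨g1, g2, g3⟩ := t1
      exact Prog.Acc.step r _ g1 g2 g3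
    · intro j j' j'' t1 t2
      exact t1
    · intro j j' j'' t1 t2
      exact t2
  | andR r =>
    apply P.sem_of
    · intro j j' j'' t1 t2
      have t1' : P.Acc (P.src r.castSucc true) (fun i => c0 i + P.δ2 r i) := t1
      have t2' : P.Acc (P.src r.castSucc false) (fun i => c0 i + P.δ1 r i) := t2
      rw [P.src_true] at t1'
      rw [P.src_false] at t2'
      show (∀ i, P.guard r i (c0 i + (0 : Fin k → F) i)) ∧ _ ∧ _
      simp only [Pi.zero_apply, add_zero]
      exact ⟨hleg, t2', t1'⟩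
    · intro j j' j'' t1 t2
      have t2' : (∀ i, P.guard r i (c0 i + (0 : Fin k → F) i)) ∧
          P.Acc (P.ch1 r) (fun i => c0 i + (0 : Fin k → F) i + P.δ1 r i) ∧
          P.Acc (P.ch2 r) (fun i => c0 i + (0 : Fin k → F) i + P.δ2 r i) := t2
      simp only [Pi.zero_apply, add_zero] at t2'
      show P.Acc (P.src r.castSucc true) (fun i => c0 i + P.δ2 r i)
      rw [P.src_true]
      exact t2'.2.2
    · intro j j' j'' t1 t2
      have t1' : (∀ i, P.guard r i (c0 i + (0 : Fin k → F) i)) ∧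
          P.Acc (P.ch1 r) (fun i => c0 i + (0 : Fin k → F) i + P.δ1 r i) ∧
          P.Acc (P.ch2 r) (fun i => c0 i + (0 : Fin k → F) i + P.δ2 r i) := t1
      simp only [Pi.zero_apply, add_zero] at t1'
      show P.Acc (P.src r.castSucc false) (fun i => c0 i + P.δ1 r i)
      rw [P.src_false]
      exact t1'.2.1
  | cz t =>
    apply P.sem_of
    · intro j j' j'' t1 t2
      exact t1
    · intro j j' j'' t1 t2
      exact t1
    · intro j j' j'' t1 t2
      exact t1
  | cs t i =>
    apply P.sem_of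
    · intro j j' j'' t1 t2
      exact t1
    · intro j j' j'' t1 t2
      exact t1
    · intro j j' j'' t1 t2
      exact t1
  | us r s =>
    apply P.sem_of
    · intro j j' j'' t1 t2
      exact t1
    · intro j j' j'' t1 t2
      exact t1
    · intro j j' j'' t1 t2
      exact t1
  | bas =>
    have hc : c0 = P.cB := funext hleg
    subst hc
    apply P.sem_of
    · intro j j' j'' t1 t2
      show P.Acc P.acc (fun i => P.cB i + (0 : Fin k → F) i)
      rw [e0]
      exact Prog.Acc.base
    · intro j j' j'' t1 t2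
      exact e0
    · intro j j' j'' t1 t2
      exact e0
  | del m =>
    apply P.sem_of
    · intro j j' j'' t1 t2
      have : (m.succ).val = 0 := t1.1
      simp at this
    · intro j j' j'' t1 t2
      have : (m.succ).val = 0 := t1.1
      simp at this
    · intro j j' j'' t1 t2
      have : (m.succ).val = 0 := t2.1
      simp at this
  | las =>
    have hc : c0 = P.c0 := funext hleg
    subst hc
    have hF : ∀ s j (w : Fin k → F), w = P.c0 → ¬ P.Tru (j, Tag.use (Fin.last n) s) w := by
      intro s j w hw t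
      have t' : P.Acc (P.src (Fin.last n) s) w := t
      rw [P.src_last, hw] at t'
      exact hne t'
    apply P.sem_of
    · intro j j' j'' t1 t2
      exact (hF true j' _ e0 t1).elim
    · intro j j' j'' t1 t2
      exact (hF false j' _ e0 t1).elim
    · intro j j' j'' t1 t2
      have : (Fin.last (6 * k + 3 * xe + 11)).val = 0 := t1.1
      simp at this

theorem fin3_shift : ∀ j τ : Fin 3, j + 1 - τ = (j - τ) + 1 ∧ j + 2 - τ = (j - τ) + 2 := by decide

/-- The program without acceptance of the start gives a nice gadget system. -/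
theorem gs_nice (hk : 0 < k) (hne : ¬ P.Acc P.s0 P.c0) : Nice P.gs P.Tru where
  pos := hk
  tri_or_mono := by
    intro b
    cases b with
    | tri l τ => exact Or.inl ⟨_, P.triple_tri l τ⟩
    | mono τ => exact Or.inr ⟨_, rfl⟩
    | tw => exact Or.inr ⟨_, rfl⟩
  pair := P.gs_pair
  mono_allow := by
    intro b M i β hM hb
    cases b with
    | tri l τ => exact (P.tri_not_mono hM).elim
    | mono τ => exact hb
    | tw => exact hb
  mono_single := by
    intro B M b i β hM hMb hb
    cases B with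
    | tri l τ => exact (P.tri_not_mono hM).elim
    | mono τ =>
      have e : (τ, Tag.base) = M := mono_of_singleton hM
      subst e
      cases b with
      | tri l τ' =>
        have h1 := P.mem_hubs_tri.1 hMb
        have h2 := P.slotTag_base h1.symm
        subst h2
        have h3 : β = P.cB i := hb
        show β + P.slotOff Lam.bas (τ - τ') i = P.cB i
        rw [P.slotOff_bas, add_zero, h3]
      | mono τ' =>
        have h3 : β = 0 := hb
        show β + P.cB i = P.cB i
        rw [h3, zero_add]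
      | tw =>
        have h1 : (τ, Tag.base) = ((0 : Fin 3), Tag.dly (⟨0, by omega⟩ : Fin (6 * k + 3 * xe + 12))) :=
          Finset.mem_singleton.1 hMb
        simp at h1
    | tw =>
      have e : ((0 : Fin 3), Tag.dly (⟨0, by omega⟩ : Fin (6 * k + 3 * xe + 12))) = M := mono_of_singleton hM
      subst e
      cases b with
      | tri l τ' =>
        have h1 := P.mem_hubs_tri.1 hMb
        rcases P.slotTag_dly h1.symm with ⟨j, rfl, _⟩ | ⟨rfl, _, h2⟩
        · have h3 : β = P.c0 i := hb
          show β + P.slotOff (Lam.del j) ((0 : Fin 3) - τ') i = P.c0 i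
          rw [P.slotOff_del, add_zero, h3]
        · simp at h2
      | mono τ' =>
        have h1 : ((0 : Fin 3), Tag.dly (⟨0, by omega⟩ : Fin (6 * k + 3 * xe + 12))) = (τ', Tag.base) :=
          Finset.mem_singleton.1 hMb
        simp at h1
      | tw =>
        have h3 : β = 0 := hb
        show β + P.c0 i = P.c0 i
        rw [h3, zero_add]
  mono_true := by
    intro B M hM
    cases B with
    | tri l τ => exact (P.tri_not_mono hM).elim
    | mono τ =>
      have e : (τ, Tag.base) = M := mono_of_singleton hM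
      subst e
      exact (rfl : P.cB = P.cB)
    | tw =>
      have e : ((0 : Fin 3), Tag.dly (⟨0, by omega⟩ : Fin (6 * k + 3 * xe + 12))) = M := mono_of_singleton hM
      subst e
      exact ⟨rfl, rfl, rfl⟩
  sem := by
    intro a h c0 j hT hleg t1 t2
    cases a with
    | mono τ => exact (P.triple_not_mono hT rfl).elim
    | tw => exact (P.triple_not_mono hT rfl).elim
    | tri l τ =>
      have e := (P.triple_tri l τ).unique hT
      subst e
      have hs := fin3_shift j τ
      have t1' : P.Tru (j + 1, P.slotTag l (j + 1 - τ)) (fun i => c0 i + P.slotOff l (j + 1 - τ) i) := t1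
      have t2' : P.Tru (j + 2, P.slotTag l (j + 2 - τ)) (fun i => c0 i + P.slotOff l (j + 2 - τ) i) := t2
      rw [hs.1] at t1'
      rw [hs.2] at t2'
      exact P.sem_kind hne l c0 hleg (j - τ) j (j + 1) (j + 2) t1' t2'

theorem hs_support {Hub Gad' : Type} [Fintype Hub] [Fintype Gad'] (S : GS k xe F Hub Gad')
    (X T : Finset Gad') (H : Hub) (hT : ∀ b, H ∈ S.hubs b ↔ b ∈ T) :
    S.hs X H = ∑ b ∈ T, GS.ind b X := by
  rw [GS.hs_eq]
  have e : ∀ b, GS.ind b X * (if H ∈ S.hubs b then (1 : ZMod 2) else 0) =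
      if b ∈ T then GS.ind b X else 0 := by
    intro b
    by_cases h : b ∈ T
    · rw [if_pos ((hT b).2 h), if_pos h, mul_one]
    · rw [if_neg (fun h' => h ((hT b).1 h')), if_neg h, mul_zero]
  simp only [e]
  rw [Finset.sum_ite_mem, Finset.univ_inter]

theorem fin3_sub : ∀ τ : Fin 3, τ - τ = 0 ∧ τ - (τ + 1) = 2 ∧ τ - (τ - 1) = 1 := by decide

theorem fin3_sub2 : ∀ τ τ' : Fin 3, (τ - τ' = 0 → τ' = τ) ∧ (τ - τ' = 1 → τ' = τ - 1) ∧
    (τ - τ' = 2 → τ' = τ + 1) := by decide

/-- Which gadgets contain a hub of the delay line of index `0`. -/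
theorem mem_dly_zero (τ : Fin 3) (hτ : τ ≠ 0) (b : Gad q n k xe) :
    (τ, Tag.dly (⟨0, by omega⟩ : Fin (6 * k + 3 * xe + 12))) ∈ P.gs.hubs b ↔
      b ∈ ({.tri (.del ⟨0, by omega⟩) τ} : Finset (Gad q n k xe)) := by
  rw [Finset.mem_singleton]
  constructor
  · intro h
    cases b with
    | tri l τ' =>
      have h1 := P.mem_hubs_tri.1 h
      rcases P.slotTag_dly h1.symm with ⟨j, rfl, ⟨h2, h3⟩ | ⟨_, h3⟩⟩ | ⟨rfl, _, h3⟩
      · have e1 := (fin3_sub2 τ τ').1 h2
        subst e1
        have : j = ⟨0, by omega⟩ := Fin.ext (by simpa using h3.symm)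
        rw [this]
      · simp at h3
      · simp at h3
    | mono τ' =>
      have h1 : (τ, Tag.dly (⟨0, by omega⟩ : Fin (6 * k + 3 * xe + 12))) = (τ', Tag.base) :=
        Finset.mem_singleton.1 h
      simp at h1
    | tw =>
      have h1 : (τ, Tag.dly (⟨0, by omega⟩ : Fin (6 * k + 3 * xe + 12))) =
          ((0 : Fin 3), Tag.dly (⟨0, by omega⟩ : Fin (6 * k + 3 * xe + 12))) :=
        Finset.mem_singleton.1 h
      simp at h1
      exact (hτ h1).elim
  · rintro rfl
    apply P.mem_hubs_tri.2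
    show _ = P.slotTag _ (τ - τ)
    rw [(fin3_sub τ).1]
    rfl

/-- Which gadgets contain a hub of the delay line of index `m + 1`. -/
theorem mem_dly_succ (m : ℕ) (hm : m + 1 < 6 * k + 3 * xe + 11) (τ : Fin 3) (b : Gad q n k xe) :
    (τ, Tag.dly (⟨m + 1, by omega⟩ : Fin (6 * k + 3 * xe + 12))) ∈ P.gs.hubs b ↔
      b ∈ ({.tri (.del ⟨m + 1, hm⟩) τ, .tri (.del ⟨m, by omega⟩) (τ + 1),
        .tri (.del ⟨m, by omega⟩) (τ - 1)} : Finset (Gad q n k xe)) := by
  simp only [Finset.mem_insert, Finset.mem_singleton]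
  constructor
  · intro h
    cases b with
    | tri l τ' =>
      have h1 := P.mem_hubs_tri.1 h
      have hs := fin3_sub2 τ τ'
      rcases P.slotTag_dly h1.symm with ⟨j, rfl, ⟨h2, h3⟩ | ⟨h2, h3⟩⟩ | ⟨rfl, _, h3⟩
      · left
        rw [hs.1 h2]
        have : j = ⟨m + 1, hm⟩ := Fin.ext (by simpa using h3.symm)
        rw [this]
      · have : j = ⟨m, by omega⟩ := Fin.ext (by simpa using h3.symm)
        rw [this]
        rcases h2 with h2 | h2
        · right; right
          rw [hs.2.1 h2]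
        · right; left
          rw [hs.2.2 h2]
      · simp at h3
        omega
    | mono τ' =>
      have h1 : (τ, Tag.dly (⟨m + 1, by omega⟩ : Fin (6 * k + 3 * xe + 12))) = (τ', Tag.base) :=
        Finset.mem_singleton.1 h
      simp at h1
    | tw =>
      have h1 : (τ, Tag.dly (⟨m + 1, by omega⟩ : Fin (6 * k + 3 * xe + 12))) =
          ((0 : Fin 3), Tag.dly (⟨0, by omega⟩ : Fin (6 * k + 3 * xe + 12))) :=
        Finset.mem_singleton.1 h
      simp at h1
  · have hs := fin3_sub τ
    rintro (rfl | rfl | rfl)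
    · apply P.mem_hubs_tri.2
      show _ = P.slotTag _ (τ - τ)
      rw [hs.1]
      rfl
    · apply P.mem_hubs_tri.2
      show _ = P.slotTag _ (τ - (τ + 1))
      rw [hs.2.1]
      rfl
    · apply P.mem_hubs_tri.2
      show _ = P.slotTag _ (τ - (τ - 1))
      rw [hs.2.2]
      rfl

/-- The recursion on the delay line. -/
theorem rec3 (a b : Fin 3 → ZMod 2) (h : ∀ τ, a τ + b (τ + 1) + b (τ - 1) = 0) :
    a 0 = b 1 + b 2 ∧ a 1 = b 2 + b 0 ∧ a 2 = b 0 + b 1 := by
  have h0 : a 0 + b 1 + b 2 = 0 := h 0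
  have h1 : a 1 + b 2 + b 0 = 0 := h 1
  have h2 : a 2 + b 0 + b 1 = 0 := h 2
  have key : ∀ x y z : ZMod 2, x + y + z = 0 → x = y + z := by decide
  exact ⟨key _ _ _ h0, key _ _ _ h1, key _ _ _ h2⟩

/-- The delay line costs many gadgets. -/
theorem gs_key (X : Finset (Gad q n k xe)) (R : Fin 3 × Tag q n k xe → ZMod 2)
    (hc : X.card ≤ 3 * (2 * k + xe + 3)) (hR : ∀ H, Prog.Dl H → R H = 0) (hX : ∀ H, R H = P.gs.hs X H) :
    (Gad.tri (Lam.del ⟨0, by omega⟩) 0 : Gad q n k xe) ∉ X := by
  intro hbs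
  let χ : (m : ℕ) → m < 6 * k + 3 * xe + 11 → Fin 3 → ZMod 2 := fun m hm τ => GS.ind (Gad.tri (Lam.del ⟨m, hm⟩) τ) X
  have h00 : χ 0 (by omega) 0 = 1 := by
    show GS.ind _ X = 1
    unfold GS.ind
    rw [if_pos hbs]
  have h0 : ∀ τ : Fin 3, τ ≠ 0 → χ 0 (by omega) τ = 0 := by
    intro τ hτ
    have h1 := hX (τ, Tag.dly ⟨0, by omega⟩)
    rw [hR _ ⟨_, rfl, fun h => hτ h.2⟩, hs_support P.gs X _ _ (P.mem_dly_zero τ hτ),
      Finset.sum_singleton] at h1
    exact h1.symm
  have hrec : ∀ (m : ℕ) (hm : m + 1 < 6 * k + 3 * xe + 11) (τ : Fin 3),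
      χ (m + 1) hm τ + χ m (by omega) (τ + 1) + χ m (by omega) (τ - 1) = 0 := by
    intro m hm τ
    have h1 := hX (τ, Tag.dly ⟨m + 1, by omega⟩)
    rw [hR _ ⟨_, rfl, fun h => by simpa using h.1⟩, hs_support P.gs X _ _ (P.mem_dly_succ m hm τ)] at h1
    rw [Finset.sum_insert, Finset.sum_insert, Finset.sum_singleton, ← add_assoc] at h1
    · exact h1.symm
    · rw [Finset.mem_singleton]
      intro e
      injection e with _ e2
      revert e2
      generalize τ = t
      revert t
      decide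
    · simp only [Finset.mem_insert, Finset.mem_singleton, not_or]
      constructor
      · intro e
        injection e with e1 _
        injection e1 with e3
        have := congrArg Fin.val e3
        simp at this
      · intro e
        injection e with e1 _
        injection e1 with e3
        have := congrArg Fin.val e3
        simp at this
  have hall : ∀ (m : ℕ) (hm : m + 1 < 6 * k + 3 * xe + 11), χ (m + 1) hm 0 = 0 ∧ χ (m + 1) hm 1 = 1 ∧
      χ (m + 1) hm 2 = 1 := by
    intro m
    induction m with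
    | zero =>
      intro hm
      obtain ⟨a0, a1, a2⟩ := rec3 (χ 1 hm) (χ 0 (by omega)) (hrec 0 hm)
      rw [h0 1 (by decide), h0 2 (by decide)] at a0
      rw [h0 2 (by decide), h00] at a1
      rw [h00, h0 1 (by decide)] at a2
      refine ⟨?_, ?_, ?_⟩
      · rw [a0]
        rfl
      · rw [a1]
        rfl
      · rw [a2]
        rfl
    | succ m ih =>
      intro hm
      obtain ⟨b0, b1, b2⟩ := ih (by omega)
      obtain ⟨a0, a1, a2⟩ := rec3 (χ (m + 1 + 1) hm) (χ (m + 1) (by omega)) (hrec (m + 1) hm)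
      rw [b1, b2] at a0
      rw [b2, b0] at a1
      rw [b0, b1] at a2
      refine ⟨?_, ?_, ?_⟩
      · rw [a0]
        rfl
      · rw [a1]
        rfl
      · rw [a2]
        rfl
  -- counting
  let f : Fin (6 * k + 3 * xe + 10) → Gad q n k xe := fun m => Gad.tri (Lam.del ⟨m.val + 1, by omega⟩) 1
  have hf : Function.Injective f := by
    intro m m' e
    injection e with e1 _
    injection e1 with e3
    have := congrArg Fin.val e3
    simp at this
    exact Fin.ext this
  have hsub : Finset.univ.image f ⊆ X := by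
    intro b hb
    obtain ⟨m, _, rfl⟩ := Finset.mem_image.1 hb
    have h1 := (hall m.val (by omega)).2.1
    by_contra h2
    have h3 : χ (m.val + 1) (by omega) 1 = 0 := by
      show GS.ind _ X = 0
      unfold GS.ind
      rw [if_neg h2]
    rw [h3] at h1
    exact zero_ne_one h1
  have h1 := Finset.card_le_card hsub
  rw [Finset.card_image_of_injective _ hf] at h1
  simp at h1
  omega

/-- The twist and the delay line of a program. -/
theorem gs_tw : Tw P.gs P.Tru Prog.Dl (Gad.tri (Lam.del ⟨0, by omega⟩) 0)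
    (0, Tag.dly ⟨0, by omega⟩) where
  star := by
    intro b h
    cases b with
    | tri l τ =>
      right
      have h1 := P.mem_hubs_tri.1 h
      rcases P.slotTag_dly h1.symm with ⟨j, rfl, ⟨h2, h3⟩ | ⟨_, h3⟩⟩ | ⟨rfl, _, h3⟩
      · have e1 := (fin3_sub2 0 τ).1 h2
        subst e1
        have : j = ⟨0, by omega⟩ := Fin.ext (by simpa using h3.symm)
        rw [this]
      · simp at h3
      · simp at h3
    | mono τ =>
      have h1 : ((0 : Fin 3), Tag.dly (⟨0, by omega⟩ : Fin (6 * k + 3 * xe + 12))) = (τ, Tag.base) :=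
        Finset.mem_singleton.1 h
      simp at h1
    | tw => exact Or.inl rfl
  twist_star := Finset.mem_singleton_self _
  bs_star := by
    apply P.mem_hubs_tri.2
    rfl
  ne := by
    show Gad.tw ≠ _
    simp
  key := by
    intro X R hc hR hX
    exact P.gs_key X R hc hR hX
  tru_dl := by
    rintro ⟨τ, t⟩ c h ⟨j, hj, hn⟩
    simp only at hj hn
    subst hj
    obtain ⟨h1, h2, _⟩ := (h : j.val = 0 ∧ τ = 0 ∧ c = P.c0)
    exact hn ⟨h1, h2⟩

/-- All hubs with a tag agree on a word. -/
def Ag (t : Tag q n k xe) (c : Fin k → F) : Prop := ∀ τ : Fin 3, GS.Agr P.gs (τ, t) c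

theorem fin3_cases : ∀ d : Fin 3, d = 0 ∨ d = 1 ∨ d = 2 := by decide

/-- One gadget of three hubs. -/
theorem agr_rule (hk : 0 < k) (l : Lam q n k xe) (c : Fin k → F) (hleg : ∀ i, P.lamAllow l i (c i))
    (hb : P.Ag (P.tB l) (fun i => c i + P.oB l i)) (hc : P.Ag (P.tC l) (fun i => c i + P.oC l i)) :
    P.Ag (P.tA l) c := by
  intro τ
  have hg : (Gad.tri l τ : Gad q n k xe) ≠ P.gs.twist := by
    show Gad.tri l τ ≠ Gad.tw
    simp
  have hH : (τ, P.tA l) ∈ P.gs.hubs (Gad.tri l τ) := by
    apply P.mem_hubs_tri.2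
    show _ = P.slotTag l (τ - τ)
    rw [(fin3_sub τ).1]
    rfl
  have h1 := GS.agr_step hk P.gs_pair hg (c0 := c) hleg hH (by
    rintro ⟨j, t⟩ hm hne
    have h2 := P.mem_hubs_tri.1 hm
    simp only at h2
    subst h2
    show GS.Agr P.gs (j, P.slotTag l (j - τ)) (fun i => c i + P.slotOff l (j - τ) i)
    rcases fin3_cases (j - τ) with e | e | e
    · exfalso
      apply hne
      have e1 := (fin3_sub2 j τ).1 e
      subst e1
      rw [e]
      rfl
    · rw [e]
      exact hc j
    · rw [e]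
      exact hb j)
  have e : P.gs.wd (Gad.tri l τ) (τ, P.tA l) c = c := by
    funext i
    show c i + P.slotOff l (τ - τ) i = c i
    rw [(fin3_sub τ).1]
    show c i + 0 = c i
    rw [add_zero]
  rw [e] at h1
  exact h1

/-- A gadget of three hubs without offsets. -/
theorem agr_rule0 (hk : 0 < k) (l : Lam q n k xe) (c : Fin k → F) (hleg : ∀ i, P.lamAllow l i (c i))
    (hB : P.oB l = 0) (hC : P.oC l = 0) (hb : P.Ag (P.tB l) c) (hc : P.Ag (P.tC l) c) :
    P.Ag (P.tA l) c := by
  have e : ∀ w : Fin k → F, w = 0 → (fun i => c i + w i) = c := by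
    rintro w rfl
    funext i
    simp
  apply P.agr_rule hk l c hleg
  · rw [e _ hB]
    exact hb
  · rw [e _ hC]
    exact hc

/-- The base. -/
theorem ag_base (hk : 0 < k) : P.Ag Tag.base P.cB := by
  intro τ
  have hg : (Gad.mono τ : Gad q n k xe) ≠ P.gs.twist := by
    show Gad.mono τ ≠ Gad.tw
    simp
  have hH : (τ, Tag.base) ∈ P.gs.hubs (Gad.mono τ : Gad q n k xe) := Finset.mem_singleton_self _
  have h1 := GS.agr_step hk P.gs_pair hg (c0 := 0) (fun i => rfl) hH (by
    intro H' hm hne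
    exact (hne (Finset.mem_singleton.1 hm)).elim)
  have e : P.gs.wd (Gad.mono τ) (τ, Tag.base) 0 = P.cB := by
    funext i
    show (0 : Fin k → F) i + P.cB i = P.cB i
    simp
  rw [e] at h1
  exact h1

/-- From a state to its copies. -/
theorem ag_cp (hk : 0 < k) {t : Fin q} {c : Fin k → F} (h : P.Ag (Tag.orig t) c) :
    ∀ (m : ℕ) (hm : m < 2 * n + 3), P.Ag (Tag.cp t ⟨m, hm⟩) c := by
  intro m
  induction m with
  | zero =>
    intro hm
    exact P.agr_rule0 hk (Lam.cz t) c (fun _ => trivial) rfl rfl h h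
  | succ m ih =>
    intro hm
    have h1 := ih (by omega)
    exact P.agr_rule0 hk (Lam.cs t ⟨m, by omega⟩) c (fun _ => trivial) rfl rfl h1 h1

/-- The children of rules. -/
theorem ag_use (hk : 0 < k) {r : Fin (n + 1)} {s : Bool} {c : Fin k → F}
    (h : P.Ag (Tag.orig (P.src r s)) c) : P.Ag (Tag.use r s) c :=
  P.agr_rule0 hk (Lam.us r s) c (fun _ => trivial) rfl rfl h (P.ag_cp hk h _ _)

/-- Accepted words agree. -/
theorem ag_of_acc (hk : 0 < k) {t : Fin q} {c : Fin k → F} (h : P.Acc t c) :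
    P.Ag (Tag.orig t) c := by
  induction h with
  | base =>
    exact P.agr_rule0 hk Lam.bas P.cB (fun _ => rfl) rfl rfl (P.ag_base hk) (P.ag_base hk)
  | step r c hg _ _ ih1 ih2 =>
    have h1 : P.Ag (Tag.use r.castSucc false) (fun i => c i + P.δ1 r i) :=
      P.ag_use hk (by rw [P.src_false]; exact ih1)
    have h2 : P.Ag (Tag.use r.castSucc true) (fun i => c i + P.δ2 r i) :=
      P.ag_use hk (by rw [P.src_true]; exact ih2)
    have h3 : P.Ag (Tag.prv r) c := P.agr_rule hk (Lam.andR r) c hg h1 h2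
    exact P.agr_rule0 hk (Lam.orR r) c (fun _ => trivial) rfl rfl h3 h3

/-- Along the delay line. -/
theorem ag_dly (hk : 0 < k) (h : P.Acc P.s0 P.c0) :
    ∀ (m j : ℕ) (hj : j < 6 * k + 3 * xe + 12), j + m = 6 * k + 3 * xe + 11 → P.Ag (Tag.dly ⟨j, hj⟩) P.c0 := by
  intro m
  induction m with
  | zero =>
    intro j hj e
    have h0 := P.ag_of_acc hk h
    have h1 : ∀ s, P.Ag (Tag.use (Fin.last n) s) (fun i => P.c0 i + (0 : Fin k → F) i) := by
      intro s
      have : (fun i => P.c0 i + (0 : Fin k → F) i) = P.c0 := by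
        funext i
        simp
      rw [this]
      exact P.ag_use hk (by rw [P.src_last]; exact h0)
    have h2 := P.agr_rule hk Lam.las P.c0 (fun _ => rfl) (h1 false) (h1 true)
    have e2 : (⟨j, hj⟩ : Fin (6 * k + 3 * xe + 12)) = Fin.last _ := Fin.ext (by simpa using e)
    rw [e2]
    exact h2
  | succ m ih =>
    intro j hj e
    have h1 := ih (j + 1) (by omega) (by omega)
    exact P.agr_rule0 hk (Lam.del ⟨j, by omega⟩) P.c0 (fun _ => rfl) rfl rfl h1 h1

/-- The main theorem: a program accepts if and only if its graphs are not equivalent. -/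
theorem main (hk : 0 < k) :
    P.Acc P.s0 P.c0 ↔ ¬ WLEquiv (P.gs.xs.graph false) (P.gs.xs.graph true) (2 * k + xe) := by
  constructor
  · intro h hW
    have h1 := P.ag_dly hk h (6 * k + 3 * xe + 11) 0 (by omega) (by omega) 0
    have h2 := GS.agr_twist hk hW (Hs := (0, Tag.dly ⟨0, by omega⟩)) rfl (c0 := 0) (fun _ => rfl)
    apply h2
    have e : P.gs.wd P.gs.twist (0, Tag.dly ⟨0, by omega⟩) 0 = P.c0 := by
      funext i
      show (0 : Fin k → F) i + P.c0 i = P.c0 i
      simp
    rw [e]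
    exact h1
  · intro h
    by_contra hne
    exact h (GS.dup_main (P.gs_nice hk hne) P.gs_tw)

end Prog

end Vale.Agent.P310y
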