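import Vale.Agent.P310h2.Defs

/-!
# Definitions for the reduction from alternating word programs to Weisfeiler-Leman equivalence

Part 1: a linear system over the two element field, and the two uncoloured graphs attached to it,
  whose vertices are the solutions of single equations, adjacent when consistent.
Part 2: a gadget system, and the linear system attached to it.
-/

namespace Vale.Agent.P310y

open Function

open scoped Classical

/-! ### Part 1 : the graphs of a linear system -/

/-- A linear system over the two element field: for each equation `c` its variables `vars c` and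
its right side in the twisted system, `tw c`, with a numbering `code` of the equations. -/
structure XS (V I : Type) where
  vars : I → Finset V
  tw : I → ZMod 2
  code : I → ℕ
  gap : ℕ

namespace XS

variable {V I : Type} (S : XS V I)

/-- The right side of an equation: `0` for the homogeneous system (`b = false`), `tw` for the
twisted system (`b = true`). -/
def rhs (b : Bool) (c : I) : ZMod 2 := if b then S.tw c else 0

/-- A solution of one equation: the equation, and values of the variables, zero outside the
equation. -/
@[ext] structure Core (b : Bool) where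
  item : I
  a : V → ZMod 2
  sup : ∀ d, d ∉ S.vars item → a d = 0
  eqn : ∑ d ∈ S.vars item, a d = S.rhs b item

/-- Two solutions are adjacent when they belong to different equations and agree on all common
variables. -/
def coreAdj {b : Bool} (x y : S.Core b) : Prop :=
  x.item ≠ y.item ∧ ∀ d, d ∈ S.vars x.item → d ∈ S.vars y.item → x.a d = y.a d

variable [Fintype I]

/-- A bound for the number of solutions. -/
def bnd : ℕ := ∑ c, 2 ^ (S.vars c).card

/-- The number of pendant vertices of each solution of the equation `c`: it makes the degree reveal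
the equation. -/
def weight (c : I) : ℕ := (max (S.bnd + 2) S.gap) * (S.code c + 1)

/-- The vertices: a solution with a number `i ≤ weight`; `i = 0` is the solution itself, `i > 0` is
one of its pendant vertices. -/
def Vtx (b : Bool) : Type := {v : S.Core b × ℕ // v.2 ≤ S.weight v.1.item}

/-- The graphs: solutions adjacent by `coreAdj`, and the pendant vertices. -/
def graph (b : Bool) : SimpleGraph (S.Vtx b) where
  Adj v w :=
    (v.1.2 = 0 ∧ w.1.2 = 0 ∧ S.coreAdj v.1.1 w.1.1) ∨
      (v.1.1 = w.1.1 ∧ ((v.1.2 = 0 ∧ w.1.2 ≠ 0) ∨ (v.1.2 ≠ 0 ∧ w.1.2 = 0)))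
  symm := ⟨by
    intro v w h
    rcases h with ⟨h1, h2, h3, h4⟩ | ⟨h1, h2⟩
    · refine Or.inl ⟨h2, h1, fun e => h3 e.symm, fun d hd hd' => (h4 d hd' hd).symm⟩
    · refine Or.inr ⟨h1.symm, ?_⟩
      rcases h2 with h2 | h2
      · exact Or.inr ⟨h2.2, h2.1⟩
      · exact Or.inl ⟨h2.2, h2.1⟩⟩
  loopless := ⟨by
    intro v h
    rcases h with ⟨_, _, h3, _⟩ | ⟨_, h2⟩
    · exact h3 rfl
    · rcases h2 with h2 | h2
      · exact h2.2 h2.1
      · exact h2.1 h2.2⟩

end XS

variable {V I : Type}

instance instFiniteCore [Finite V] [Finite I] (S : XS V I) (b : Bool) : Finite (S.Core b) :=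
  Finite.of_injective (fun x : S.Core b => (x.item, x.a))
    (by
      intro x y h
      simp only [Prod.mk.injEq] at h
      exact XS.Core.ext h.1 h.2)

instance instFiniteVtx [Finite V] [Fintype I] (S : XS V I) (b : Bool) : Finite (S.Vtx b) :=
  Finite.of_injective
    (fun v : S.Vtx b =>
      (⟨v.1.1, ⟨v.1.2, Nat.lt_succ_of_le v.2⟩⟩ : Σ x : S.Core b, Fin (S.weight x.item + 1)))
    (by
      rintro ⟨⟨x, i⟩, hi⟩ ⟨⟨y, j⟩, hj⟩ h
      simp only [Sigma.mk.injEq] at h
      obtain ⟨rfl, h2⟩ := h
      have : i = j := by simpa using h2
      subst this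
      rfl)

noncomputable instance instFintypeVtx [Finite V] [Fintype I] (S : XS V I) (b : Bool) :
    Fintype (S.Vtx b) := Fintype.ofFinite _

/-! ### Part 2 : gadget systems -/

/-- The positions: each digit of a word has two positions, and the digit `0` has `xe` further
positions. -/
structure Pos (k xe : ℕ) where
  dig : Fin k
  idx : Fin (2 + xe)
  ok : idx.val < 2 ∨ dig.val = 0

namespace Pos

variable {k xe : ℕ}

theorem ext' {p q : Pos k xe} (h1 : p.dig = q.dig) (h2 : p.idx = q.idx) : p = q := by
  cases p
  cases q
  simp_all

instance instFinite : Finite (Pos k xe) :=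
  Finite.of_injective (fun p : Pos k xe => (p.dig, p.idx))
    (by
      intro p q h
      simp only [Prod.mk.injEq] at h
      exact ext' h.1 h.2)

noncomputable instance instFintype : Fintype (Pos k xe) := Fintype.ofFinite _

/-- The first position of a digit. -/
def pl (i : Fin k) : Pos k xe := ⟨i, ⟨0, by omega⟩, Or.inl (by simp)⟩

/-- The second position of a digit. -/
def ph (i : Fin k) : Pos k xe := ⟨i, ⟨1, by omega⟩, Or.inl (by simp)⟩

@[simp] theorem pl_fst (i : Fin k) : (pl i : Pos k xe).1 = i := rfl

@[simp] theorem ph_fst (i : Fin k) : (ph i : Pos k xe).1 = i := rfl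

theorem ph_ne_pl (i i' : Fin k) : (ph i : Pos k xe) ≠ pl i' := by
  intro h
  have := congrArg (fun p : Pos k xe => p.idx.val) h
  simp [ph, pl] at this

/-- The positions of `k > 0` digits are counted: two for each digit, and `xe` more. -/
theorem card_eq (hk : 0 < k) : Fintype.card (Pos k xe) = 2 * k + xe := by
  let g : Pos k xe → (Fin k × Bool) ⊕ Fin xe := fun p =>
    if h : p.idx.val < 2 then Sum.inl (p.dig, decide (p.idx.val = 1))
    else Sum.inr ⟨p.idx.val - 2, by have := p.idx.isLt; omega⟩
  let f : (Fin k × Bool) ⊕ Fin xe → Pos k xe := fun z =>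
    match z with
    | Sum.inl (i, b) => if b then ph i else pl i
    | Sum.inr j => ⟨⟨0, hk⟩, ⟨j.val + 2, by have := j.isLt; omega⟩, Or.inr rfl⟩
  have hfg : ∀ p, f (g p) = p := by
    intro p
    obtain ⟨i, ⟨a, ha⟩, hok⟩ := p
    by_cases h : a < 2
    · have hg : g ⟨i, ⟨a, ha⟩, hok⟩ = Sum.inl (i, decide (a = 1)) := dif_pos h
      rw [hg]
      show (if decide (a = 1) = true then ph i else pl i) = _
      by_cases h1 : a = 1
      · subst h1
        simp [ph]
      · have h0 : a = 0 := by omega
        subst h0
        simp [pl]
    · have hg : g ⟨i, ⟨a, ha⟩, hok⟩ = Sum.inr ⟨a - 2, by omega⟩ := dif_neg h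
      rw [hg]
      have h0 : i = ⟨0, hk⟩ := by
        rcases hok with h1 | h1
        · exact absurd h1 h
        · exact Fin.ext h1
      subst h0
      apply ext'
      · rfl
      · apply Fin.ext
        show a - 2 + 2 = a
        omega
  have hgf : ∀ z, g (f z) = z := by
    intro z
    rcases z with ⟨i, b⟩ | j
    · cases b
      · simp [f, g, pl]
      · simp [f, g, ph]
    · have h1 : ¬ (j.val + 2 < 2) := by omega
      simp only [f, g, h1, dif_neg, not_false_eq_true]
      simp
  have e : Pos k xe ≃ (Fin k × Bool) ⊕ Fin xe := ⟨g, f, hfg, hgf⟩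
  rw [Fintype.card_congr e]
  simp [mul_comm]

end Pos

/-- A gadget system over words of `k` letters from `F`: hubs with a type in `Fin 3`, gadgets with
their set of hubs, for each gadget the offset of each hub, and for each digit the allowed
letters; `twist` is the twisted gadget. -/
structure GS (k xe : ℕ) (F Hub Gad : Type) where
  ty : Hub → Fin 3
  hubs : Gad → Finset Hub
  off : Gad → Hub → Fin k → F
  allow : Gad → Fin k → F → Prop
  twist : Gad
  cd : (Pos k xe × Gad × F) ⊕ Gad → ℕ
  cd_inj : Function.Injective cd
  gap : ℕ

/-- The variables of the linear system: `xv p H α`, for a position `p`, a hub `H`, a letter `α`,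
and `yv b p`, the token of a gadget `b` at a position `p`. -/
abbrev GVar (k xe : ℕ) (F Hub Gad : Type) : Type := (Pos k xe × Hub × F) ⊕ (Gad × Pos k xe)

/-- The variable of a hub with a letter at a position. -/
def xv {k xe : ℕ} {F Hub Gad : Type} (p : Pos k xe) (H : Hub) (α : F) : GVar k xe F Hub Gad :=
  Sum.inl (p, H, α)

/-- The token of a gadget at a position. -/
def yv {k xe : ℕ} {F Hub Gad : Type} (b : Gad) (p : Pos k xe) : GVar k xe F Hub Gad :=
  Sum.inr (b, p)

/-- The equations: `e p b β` for an allowed letter `β` of gadget `b` at position `p`, and `h b`. -/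
inductive GItem {k xe : ℕ} {F Hub Gad : Type} (S : GS k xe F Hub Gad) : Type
  | e (p : Pos k xe) (b : Gad) (β : F) (h : S.allow b p.1 β) : GItem S
  | h (b : Gad) : GItem S

variable {k xe : ℕ} {F Hub Gad : Type}

instance instFiniteGItem [Finite F] [Finite Hub] [Finite Gad] (S : GS k xe F Hub Gad) :
    Finite (GItem S) :=
  Finite.of_injective
    (fun c : GItem S => match c with
      | .e p b β _ => (Sum.inl (p, b, β) : (Pos k xe × Gad × F) ⊕ Gad)
      | .h b => Sum.inr b)
    (by
      intro c c' h
      cases c <;> cases c' <;> simp_all)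

noncomputable instance instFintypeGItem [Finite F] [Finite Hub] [Finite Gad] (S : GS k xe F Hub Gad) :
    Fintype (GItem S) := Fintype.ofFinite _

namespace GS

variable [AddCommGroup F] [Fintype Gad] (S : GS k xe F Hub Gad)

/-- The variables of an equation: `e p b β` says that the token of `b` at `p` is the sum of the
variables `xv p H (β + off b H p.1)` over the hubs `H` of `b`; `h b` says that the sum of the tokens
of `b` over all positions is `0`, or `1` for the twisted gadget in the twisted system. -/
noncomputable def gvars : GItem S → Finset (GVar k xe F Hub Gad)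
  | .e p b β _ => insert (yv b p) ((S.hubs b).image fun H => xv p H (β + S.off b H p.1))
  | .h b => Finset.univ.image fun p => yv b p

/-- The right side in the twisted system. -/
noncomputable def gtw : GItem S → ZMod 2
  | .e _ _ _ _ => 0
  | .h b => if b = S.twist then 1 else 0

variable [Finite F] [Finite Hub]

/-- The raw data of an equation. -/
def rawI : GItem S → (Pos k xe × Gad × F) ⊕ Gad
  | .e p b β _ => Sum.inl (p, b, β)
  | .h b => Sum.inr b

/-- The linear system of a gadget system. -/
noncomputable def xs : XS (GVar k xe F Hub Gad) (GItem S) where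
  vars := S.gvars
  tw := S.gtw
  code c := S.cd (S.rawI c)
  gap := S.gap

end GS

end Vale.Agent.P310y
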