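import Vale.Agent.P310y.Defs

set_option linter.unusedSectionVars false
set_option linter.unusedVariables false

namespace Vale.Agent.P310y

open Function

open scoped Classical

variable {k xe : ℕ} {F Hub Gad : Type} [AddCommGroup F] [Module (ZMod 2) F]

theorem F_self (c : F) : c + c = 0 := by
  have h := two_smul (ZMod 2) c
  rw [show (2 : ZMod 2) = 0 from rfl, zero_smul] at h
  exact h.symm

theorem zmod2_self' (a : ZMod 2) : a + a = 0 := by
  revert a; decide

theorem zmod2_cases' (a : ZMod 2) : a = 0 ∨ a = 1 := by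
  revert a; decide

theorem zmod2_ne0' {a : ZMod 2} (h : a ≠ 0) : a = 1 := by
  revert a; decide

/-- The states: a value for each hub, and for each type a word. -/
abbrev State (k : ℕ) (F Hub : Type) : Type := (Hub → ZMod 2) × (Fin 3 → Fin k → F)

theorem state_self (s : State k F Hub) : s + s = 0 := by
  apply Prod.ext
  · funext H
    exact zmod2_self' _
  · funext t i
    exact F_self _

/-- Three different elements of `Fin 3`. -/
theorem fin3_sum {A : Type} [AddCommGroup A] (P : Fin 3 → A) {j j' j'' : Fin 3} (h1 : j ≠ j')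
    (h2 : j ≠ j'') (h3 : j' ≠ j'') : P j + P j' + P j'' = P 0 + P 1 + P 2 := by
  fin_cases j <;> fin_cases j' <;> fin_cases j'' <;> simp_all <;> abel

theorem fin3_third (j j' : Fin 3) (h : j ≠ j') : ∃ j'', j ≠ j'' ∧ j' ≠ j'' := by
  revert j j'
  decide

theorem sem3 (T : Fin 3 → Prop) (hs : ∀ j, T (j + 1) → T (j + 2) → T j) {j j' j'' : Fin 3}
    (h1 : j ≠ j') (h2 : j ≠ j'') (h3 : j' ≠ j'') (ht : T j) (ht' : T j') : T j'' := by
  have key : ∀ j j' j'' : Fin 3, j ≠ j' → j ≠ j'' → j' ≠ j'' →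
      (j'' + 1 = j ∧ j'' + 2 = j') ∨ (j'' + 1 = j' ∧ j'' + 2 = j) := by decide
  apply hs
  · rcases key j j' j'' h1 h2 h3 with h | h
    · rw [h.1]
      exact ht
    · rw [h.1]
      exact ht'
  · rcases key j j' j'' h1 h2 h3 with h | h
    · rw [h.2]
      exact ht'
    · rw [h.2]
      exact ht

theorem f31 : ∀ j : Fin 3, j + 1 ≠ j := by decide
theorem f32 : ∀ j : Fin 3, j + 2 ≠ j := by decide
theorem f33 : ∀ j : Fin 3, j + 1 ≠ j + 2 := by decide
theorem f34 : ∀ j j' : Fin 3, j' ≠ j + 1 → j' ≠ j + 2 → j' = j := by decide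

namespace GS

variable (S : GS k xe F Hub Gad)

/-- The word part of a state that is the word `c` on the hub `H`. -/
noncomputable def kp (H : Hub) (c : Fin k → F) : Fin 3 → Fin k → F :=
  fun t i => if S.ty H ≠ t then c i else 0

/-- The state that is the word `c` on the hub `H`. -/
noncomputable def phi (H : Hub) (c : Fin k → F) : State k F Hub :=
  (fun H' => if H' = H then 1 else 0, S.kp H c)

/-- The state of a gadget. -/
noncomputable def gam (b : Gad) : State k F Hub := ∑ H ∈ S.hubs b, S.phi H (S.off b H)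

/-- The word of a hub in an instance with the letters `c0`. -/
def wd (a : Gad) (H : Hub) (c0 : Fin k → F) : Fin k → F := fun i => c0 i + S.off a H i

/-- The state of a hub in an instance. -/
noncomputable def pin (a : Gad) (H : Hub) (c0 : Fin k → F) : State k F Hub :=
  S.phi H (S.wd a H c0)

/-- A gadget with three hubs, one of each type. -/
structure Triple (a : Gad) (h : Fin 3 → Hub) : Prop where
  ty_h : ∀ j, S.ty (h j) = j
  hubs_eq : S.hubs a = Finset.univ.image h

/-- A gadget with a single hub. -/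
def IsMono (b : Gad) (M : Hub) : Prop := S.hubs b = {M}

variable {S}

theorem phi_fst (H : Hub) (c : Fin k → F) (H' : Hub) :
    (S.phi H c).1 H' = if H' = H then 1 else 0 := rfl

theorem phi_snd (H : Hub) (c : Fin k → F) (t : Fin 3) (i : Fin k) :
    (S.phi H c).2 t i = if S.ty H ≠ t then c i else 0 := rfl

theorem phi_self (H : Hub) (c : Fin k → F) : (S.phi H c).1 H = 1 := by
  simp [phi_fst]

theorem phi_ne {H H' : Hub} (c : Fin k → F) (h : H' ≠ H) : (S.phi H c).1 H' = 0 := by
  simp [phi_fst, h]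

theorem gam_fst (b : Gad) (H' : Hub) : (S.gam b).1 H' = if H' ∈ S.hubs b then 1 else 0 := by
  unfold gam
  rw [Prod.fst_sum, Finset.sum_apply]
  simp only [phi_fst]
  rw [Finset.sum_ite_eq]

theorem gam_snd (b : Gad) (t : Fin 3) (i : Fin k) :
    (S.gam b).2 t i = ∑ H ∈ S.hubs b, if S.ty H ≠ t then S.off b H i else 0 := by
  unfold gam
  rw [Prod.snd_sum, Finset.sum_apply, Finset.sum_apply]
  rfl

theorem gam_in {b : Gad} {H : Hub} (h : H ∈ S.hubs b) : (S.gam b).1 H = 1 := by
  rw [gam_fst, if_pos h]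

theorem gam_out {b : Gad} {H : Hub} (h : H ∉ S.hubs b) : (S.gam b).1 H = 0 := by
  rw [gam_fst, if_neg h]

theorem kp_add (H : Hub) (c d : Fin k → F) :
    S.kp H (fun i => c i + d i) = S.kp H c + S.kp H d := by
  funext t i
  simp only [kp, Pi.add_apply]
  split_ifs <;> simp

namespace Triple

variable {a : Gad} {h : Fin 3 → Hub}

theorem inj (hT : S.Triple a h) : Injective h := by
  intro j j' e
  rw [← hT.ty_h j, ← hT.ty_h j', e]

theorem mem (hT : S.Triple a h) (j : Fin 3) : h j ∈ S.hubs a := by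
  rw [hT.hubs_eq]
  exact Finset.mem_image_of_mem h (Finset.mem_univ j)

theorem exists_of_mem (hT : S.Triple a h) {H : Hub} (hH : H ∈ S.hubs a) : ∃ j, H = h j := by
  rw [hT.hubs_eq] at hH
  obtain ⟨j, _, rfl⟩ := Finset.mem_image.1 hH
  exact ⟨j, rfl⟩

theorem sum_hubs (hT : S.Triple a h) {A : Type} [AddCommGroup A] (f : Hub → A) :
    ∑ H ∈ S.hubs a, f H = f (h 0) + f (h 1) + f (h 2) := by
  rw [hT.hubs_eq, Finset.sum_image (fun _ _ _ _ e => hT.inj e), Fin.sum_univ_three]

theorem unique (hT : S.Triple a h) {h' : Fin 3 → Hub} (hT' : S.Triple a h') : h' = h := by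
  funext j
  obtain ⟨j', e⟩ := hT.exists_of_mem (hT'.mem j)
  have h1 := hT'.ty_h j
  rw [e, hT.ty_h] at h1
  rw [e, h1]

theorem kp_zero (hT : S.Triple a h) (c : Fin k → F) :
    S.kp (h 0) c + S.kp (h 1) c + S.kp (h 2) c = 0 := by
  funext t i
  simp only [kp, Pi.add_apply, hT.ty_h, Pi.zero_apply]
  fin_cases t <;> simp [F_self]

/-- The identity of instances. -/
theorem gam_eq (hT : S.Triple a h) (c0 : Fin k → F) :
    S.gam a = S.pin a (h 0) c0 + S.pin a (h 1) c0 + S.pin a (h 2) c0 := by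
  have e := hT.sum_hubs (fun H => S.phi H (S.off a H))
  unfold gam
  rw [e]
  apply Prod.ext
  · rfl
  · have h1 : ∀ j, (S.pin a (h j) c0).2 = S.kp (h j) c0 + S.kp (h j) (S.off a (h j)) :=
      fun j => S.kp_add (h j) c0 (S.off a (h j))
    show S.kp (h 0) (S.off a (h 0)) + S.kp (h 1) (S.off a (h 1)) + S.kp (h 2) (S.off a (h 2)) =
      (S.pin a (h 0) c0).2 + (S.pin a (h 1) c0).2 + (S.pin a (h 2) c0).2
    rw [h1, h1, h1]
    have := hT.kp_zero c0
    linear_combination (norm := abel) -this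

theorem gam_eq3 (hT : S.Triple a h) (c0 : Fin k → F) {j j' j'' : Fin 3} (h1 : j ≠ j')
    (h2 : j ≠ j'') (h3 : j' ≠ j'') :
    S.gam a = S.pin a (h j) c0 + S.pin a (h j') c0 + S.pin a (h j'') c0 := by
  rw [hT.gam_eq c0]
  exact (fin3_sum (fun j => S.pin a (h j) c0) h1 h2 h3).symm

theorem balance (hT : S.Triple a h) (β : F) (t : Fin 3) :
    ∑ H ∈ S.hubs a, (if S.ty H ≠ t then β else 0) = 0 := by
  rw [hT.sum_hubs]
  simp only [hT.ty_h]
  fin_cases t <;> simp [F_self]

end Triple

theorem IsMono.mem {b : Gad} {M : Hub} (h : S.IsMono b M) : M ∈ S.hubs b := by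
  rw [h]
  exact Finset.mem_singleton_self M

theorem IsMono.eq {b : Gad} {M H : Hub} (h : S.IsMono b M) (hH : H ∈ S.hubs b) : H = M := by
  rw [h] at hH
  exact Finset.mem_singleton.1 hH

theorem IsMono.gam_eq {b : Gad} {M : Hub} (h : S.IsMono b M) : S.gam b = S.phi M (S.off b M) := by
  unfold gam
  rw [h, Finset.sum_singleton]

/-- The two words in a sum of two hubs are determined. -/
theorem kp_inj2 {H1 H2 : Hub} (hty : S.ty H1 ≠ S.ty H2) {c1 c2 d1 d2 : Fin k → F}
    (h : S.kp H1 c1 + S.kp H2 c2 = S.kp H1 d1 + S.kp H2 d2) : c1 = d1 ∧ c2 = d2 := by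
  constructor
  · funext i
    have h1 := congrFun (congrFun h (S.ty H2)) i
    simpa [kp, hty] using h1
  · funext i
    have h1 := congrFun (congrFun h (S.ty H1)) i
    simpa [kp, hty.symm] using h1

theorem kp_inj1 {H : Hub} {c d : Fin k → F} (h : S.kp H c = S.kp H d) : c = d := by
  funext i
  have e : S.ty H ≠ S.ty H + 1 := by
    generalize S.ty H = t
    revert t
    decide
  have h1 := congrFun (congrFun h (S.ty H + 1)) i
  simpa [kp, e] using h1

/-- The local condition at a position with gadget `b` and letter `β` at digit `i`. -/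
def LA (S : GS k xe F Hub Gad) (b : Gad) (β : F) (i : Fin k) (s : State k F Hub) : Prop :=
  (∀ H, s.1 H ≠ 0 → H ∈ S.hubs b) ∧
    ∀ t, s.2 t i = ∑ H ∈ S.hubs b, if S.ty H ≠ t then s.1 H • (β + S.off b H i) else 0

theorem LA.add {b : Gad} {β : F} {i : Fin k} {s s' : State k F Hub} (h : S.LA b β i s)
    (h' : S.LA b β i s') : S.LA b β i (s + s') := by
  constructor
  · intro H hH
    by_cases h1 : s.1 H = 0
    · apply h'.1 H
      intro h2
      apply hH
      simp [h1, h2]
    · exact h.1 H h1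
  · intro t
    have e : ∀ H, (if S.ty H ≠ t then (s + s').1 H • (β + S.off b H i) else 0) =
        (if S.ty H ≠ t then s.1 H • (β + S.off b H i) else 0) +
        (if S.ty H ≠ t then s'.1 H • (β + S.off b H i) else 0) := by
      intro H
      split_ifs
      · rw [← add_smul]
        rfl
      · simp
    simp only [e]
    rw [Finset.sum_add_distrib, ← h.2 t, ← h'.2 t]
    rfl

theorem LA_zero (b : Gad) (β : F) (i : Fin k) : S.LA b β i (0 : State k F Hub) := by
  constructor
  · intro H hH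
    exact (hH rfl).elim
  · intro t
    simp

theorem LA_phi {b : Gad} {β : F} {i : Fin k} {H : Hub} {c : Fin k → F} (hH : H ∈ S.hubs b)
    (hc : c i = β + S.off b H i) : S.LA b β i (S.phi H c) := by
  constructor
  · intro H' hH'
    by_cases e : H' = H
    · rw [e]
      exact hH
    · exact (hH' (phi_ne c e)).elim
  · intro t
    rw [Finset.sum_eq_single H]
    · rw [phi_snd, phi_self, one_smul, hc]
    · intro H' _ hne
      simp [phi_ne c hne]
    · intro h
      exact (h hH).elim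

theorem LA_phi_info {b : Gad} {β : F} {i : Fin k} {H : Hub} {c : Fin k → F}
    (h : S.LA b β i (S.phi H c)) : H ∈ S.hubs b ∧ c i = β + S.off b H i := by
  have hH : H ∈ S.hubs b := h.1 H (by simp [phi_self])
  refine ⟨hH, ?_⟩
  have e : S.ty H ≠ S.ty H + 1 := by
    generalize S.ty H = t
    revert t
    decide
  have h2 := h.2 (S.ty H + 1)
  rw [Finset.sum_eq_single H] at h2
  · simpa [phi_snd, phi_self, e] using h2
  · intro H' _ hne
    simp [phi_ne c hne]
  · intro h3
    exact (h3 hH).elim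

/-- A choice of an equation at each position, with possibly one more equation. -/
structure Data (S : GS k xe F Hub Gad) where
  bp : Pos k xe → Gad
  βp : Pos k xe → F
  ok : ∀ p, S.allow (bp p) p.1 (βp p)
  extra : Option (GItem S)

namespace Data

variable (D : Data S)

/-- A good position: the further equation is not at this position. -/
def Gd (p : Pos k xe) : Prop := ∀ b β h, D.extra ≠ some (GItem.e p b β h)

/-- Each digit has a good position. -/
theorem exists_good (i : Fin k) : ∃ p : Pos k xe, p.1 = i ∧ D.Gd p := by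
  by_cases h : D.Gd (Pos.pl i)
  · exact ⟨_, rfl, h⟩
  · refine ⟨Pos.ph i, rfl, ?_⟩
    intro b β hb e
    apply h
    intro b' β' hb' e'
    rw [e] at e'
    injection e' with e''
    injection e'' with e3
    exact Pos.ph_ne_pl i i e3

/-- The local condition at all good positions. -/
def Local (s : State k F Hub) : Prop := ∀ p, D.Gd p → S.LA (D.bp p) (D.βp p) p.1 s

variable {D}

theorem Local.add {s s' : State k F Hub} (h : D.Local s) (h' : D.Local s') : D.Local (s + s') :=
  fun p hp => (h p hp).add (h' p hp)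

theorem Local.hub {s : State k F Hub} (h : D.Local s) {p : Pos k xe} (hp : D.Gd p) {H : Hub}
    (hH : s.1 H ≠ 0) : H ∈ S.hubs (D.bp p) := (h p hp).1 H hH

/-- A local state is determined by its values at hubs. -/
theorem Local.ext {s s' : State k F Hub} (h : D.Local s) (h' : D.Local s') (e : s.1 = s'.1) :
    s = s' := by
  apply Prod.ext e
  funext t i
  obtain ⟨p, rfl, hp⟩ := D.exists_good i
  rw [(h p hp).2 t, (h' p hp).2 t, e]

theorem local_zero : D.Local (0 : State k F Hub) := fun _ _ => LA_zero _ _ _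

theorem Local.eq_zero {s : State k F Hub} (h : D.Local s) (e : s.1 = 0) : s = 0 :=
  h.ext local_zero e

end Data

end GS

/-- What the abstract proof needs of a gadget system, with the set `Tru` of true facts. -/
structure Nice (S : GS k xe F Hub Gad) (Tru : Hub → (Fin k → F) → Prop) : Prop where
  pos : 0 < k
  tri_or_mono : ∀ b, (∃ h, S.Triple b h) ∨ ∃ M, S.IsMono b M
  pair : ∀ a b H1 H2, H1 ≠ H2 → H1 ∈ S.hubs a → H2 ∈ S.hubs a → H1 ∈ S.hubs b → H2 ∈ S.hubs b → a = b
  mono_allow : ∀ b M i β, S.IsMono b M → S.allow b i β → β = 0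
  mono_single : ∀ B M b i β, S.IsMono B M → M ∈ S.hubs b → S.allow b i β →
    β + S.off b M i = S.off B M i
  mono_true : ∀ B M, S.IsMono B M → Tru M (S.off B M)
  sem : ∀ a h c0 j, S.Triple a h → (∀ i, S.allow a i (c0 i)) → Tru (h (j + 1)) (S.wd a (h (j + 1)) c0) →
    Tru (h (j + 2)) (S.wd a (h (j + 2)) c0) → Tru (h j) (S.wd a (h j) c0)

variable {S : GS k xe F Hub Gad} {Tru : Hub → (Fin k → F) → Prop}

open GS

/-- The states of true facts. -/
def GS.TrPos (S : GS k xe F Hub Gad) (Tru : Hub → (Fin k → F) → Prop) (s : State k F Hub) : Prop :=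
  s = 0 ∨ (∃ a, s = S.gam a) ∨ (∃ H c, Tru H c ∧ s = S.phi H c) ∨
    ∃ a h H c, S.Triple a h ∧ H ∈ S.hubs a ∧ Tru H c ∧ s = S.gam a + S.phi H c

theorem Nice.LA_gam (hS : Nice S Tru) {b : Gad} {β : F} {i : Fin k} (hb : S.allow b i β) :
    S.LA b β i (S.gam b) := by
  constructor
  · intro H hH
    by_contra h
    exact hH (gam_out h)
  · intro t
    rw [gam_snd]
    have hbal : ∑ H ∈ S.hubs b, (if S.ty H ≠ t then β else 0) = 0 := by
      rcases hS.tri_or_mono b with ⟨h, hT⟩ | ⟨M, hM⟩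
      · exact hT.balance β t
      · rw [hM, Finset.sum_singleton, hS.mono_allow b M i β hM hb]
        simp
    have e : ∀ H ∈ S.hubs b, (if S.ty H ≠ t then (S.gam b).1 H • (β + S.off b H i) else 0) =
        (if S.ty H ≠ t then β else 0) + (if S.ty H ≠ t then S.off b H i else 0) := by
      intro H hH
      rw [gam_in hH, one_smul]
      split_ifs <;> simp
    rw [Finset.sum_congr rfl e, Finset.sum_add_distrib, hbal, zero_add]

namespace Nice

variable (hS : Nice S Tru) {D : Data S}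
include hS

/-- Two different hubs of a triple with nonzero value force the gadget. -/
theorem unif_of_two {s : State k F Hub} (hL : D.Local s) {a : Gad} {H1 H2 : Hub} (hne : H1 ≠ H2)
    (h1 : H1 ∈ S.hubs a) (h2 : H2 ∈ S.hubs a) (v1 : s.1 H1 ≠ 0) (v2 : s.1 H2 ≠ 0) {p : Pos k xe}
    (hp : D.Gd p) : D.bp p = a :=
  hS.pair _ _ H1 H2 hne (hL.hub hp v1) (hL.hub hp v2) h1 h2

theorem local_gam_of_unif {a : Gad} (hu : ∀ p, D.Gd p → D.bp p = a) : D.Local (S.gam a) := by
  intro p hp
  have h := hS.LA_gam (D.ok p)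
  rw [hu p hp] at h ⊢
  exact h

/-- A local state with the hubs of a triple. -/
theorem local_three {s : State k F Hub} (hL : D.Local s) {a : Gad} {h : Fin 3 → Hub}
    (hT : S.Triple a h) (e : s.1 = (S.gam a).1) : (∀ p, D.Gd p → D.bp p = a) ∧ s = S.gam a := by
  have hu : ∀ p, D.Gd p → D.bp p = a := by
    intro p hp
    have h01 : h 0 ≠ h 1 := fun e' => by
      have := hT.inj e'
      simp at this
    apply hS.unif_of_two hL h01 (hT.mem 0) (hT.mem 1) _ _ hp
    · rw [e, gam_in (hT.mem 0)]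
      exact one_ne_zero
    · rw [e, gam_in (hT.mem 1)]
      exact one_ne_zero
  exact ⟨hu, hL.ext (hS.local_gam_of_unif hu) e⟩

theorem good_zero : ∃ p : Pos k xe, D.Gd p := by
  obtain ⟨p, _, hp⟩ := D.exists_good ⟨0, hS.pos⟩
  exact ⟨p, hp⟩

/-- A local state with a single hub. -/
theorem local_one {s : State k F Hub} (hL : D.Local s) {H : Hub} {c' : Fin k → F}
    (e : s.1 = (S.phi H c').1) :
    ∃ c, s = S.phi H c ∧ ∀ p, D.Gd p → H ∈ S.hubs (D.bp p) ∧ c p.1 = D.βp p + S.off (D.bp p) H p.1 := by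
  have et : S.ty H ≠ S.ty H + 1 := by
    generalize S.ty H = t
    revert t
    decide
  have hv : s.1 H = 1 := by rw [e, phi_self]
  have hinfo : ∀ p, D.Gd p → H ∈ S.hubs (D.bp p) ∧
      s.2 (S.ty H + 1) p.1 = D.βp p + S.off (D.bp p) H p.1 := by
    intro p hp
    have hH : H ∈ S.hubs (D.bp p) := hL.hub hp (by rw [hv]; exact one_ne_zero)
    refine ⟨hH, ?_⟩
    rw [(hL p hp).2]
    rw [Finset.sum_eq_single H]
    · rw [if_pos et, hv, one_smul]
    · intro H' _ hne
      have : s.1 H' = 0 := by rw [e, phi_ne _ hne]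
      simp [this]
    · intro h3
      exact (h3 hH).elim
  refine ⟨s.2 (S.ty H + 1), ?_, hinfo⟩
  apply hL.ext
  · intro p hp
    exact LA_phi (hinfo p hp).1 (hinfo p hp).2
  · exact e

/-- A local state with two hubs of a triple. -/
theorem local_two {s : State k F Hub} (hL : D.Local s) {a : Gad} {h : Fin 3 → Hub}
    (hT : S.Triple a h) {j : Fin 3} {c' : Fin k → F} (e : s.1 = (S.gam a + S.phi (h j) c').1) :
    ∃ c0, (∀ i, S.allow a i (c0 i)) ∧ (∀ p, D.Gd p → D.bp p = a ∧ D.βp p = c0 p.1) ∧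
      s = S.gam a + S.pin a (h j) c0 := by
  have hne1 : j + 1 ≠ j := f31 j
  have hne2 : j + 2 ≠ j := f32 j
  have hne3 : j + 1 ≠ j + 2 := f33 j
  have val : ∀ j', j' ≠ j → s.1 (h j') = 1 := by
    intro j' hj'
    rw [e]
    show (S.gam a).1 (h j') + (S.phi (h j) c').1 (h j') = 1
    rw [gam_in (hT.mem j'), phi_ne _ (fun e' => hj' (hT.inj e')), add_zero]
  have val0 : s.1 (h j) = 0 := by
    rw [e]
    show (S.gam a).1 (h j) + (S.phi (h j) c').1 (h j) = 0
    rw [gam_in (hT.mem j), phi_self]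
    rfl
  have hu : ∀ p, D.Gd p → D.bp p = a := by
    intro p hp
    apply hS.unif_of_two hL (fun e' => hne3 (hT.inj e')) (hT.mem (j + 1)) (hT.mem (j + 2))
      _ _ hp
    · rw [val _ hne1]
      exact one_ne_zero
    · rw [val _ hne2]
      exact one_ne_zero
  -- the letter
  let c0 : Fin k → F := fun i => s.2 (j + 1) i + S.off a (h (j + 2)) i
  have hβ : ∀ p, D.Gd p → D.βp p = c0 p.1 := by
    intro p hp
    have h1 := (hL p hp).2 (j + 1)
    rw [hu p hp, hT.sum_hubs] at h1
    have key : ∀ j' : Fin 3, j' ≠ j + 1 → j' ≠ j + 2 →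
        (if S.ty (h j') ≠ j + 1 then s.1 (h j') • (D.βp p + S.off a (h j') p.1) else 0) = 0 := by
      intro j' h2 h3
      have : j' = j := f34 j j' h2 h3
      rw [this, val0]
      simp
    have key2 : (if S.ty (h (j + 1)) ≠ j + 1 then
        s.1 (h (j + 1)) • (D.βp p + S.off a (h (j + 1)) p.1) else 0) = 0 := by
      rw [hT.ty_h]
      simp
    have key3 : (if S.ty (h (j + 2)) ≠ j + 1 then
        s.1 (h (j + 2)) • (D.βp p + S.off a (h (j + 2)) p.1) else 0) =
        D.βp p + S.off a (h (j + 2)) p.1 := by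
      rw [hT.ty_h, if_pos hne3.symm, val _ hne2, one_smul]
    have key4 : s.2 (j + 1) p.1 = D.βp p + S.off a (h (j + 2)) p.1 := by
      rw [h1]
      have := fin3_sum (fun j' => (if S.ty (h j') ≠ j + 1 then
        s.1 (h j') • (D.βp p + S.off a (h j') p.1) else 0)) hne3 hne1 hne2
      beta_reduce at this
      rw [← this, key2, key3, key j hne1.symm hne2.symm]
      abel
    show D.βp p = s.2 (j + 1) p.1 + S.off a (h (j + 2)) p.1
    rw [key4, add_assoc, F_self, add_zero]
  have hallow : ∀ i, S.allow a i (c0 i) := by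
    intro i
    obtain ⟨p, rfl, hp⟩ := D.exists_good i
    have := D.ok p
    rwa [hu p hp, hβ p hp] at this
  refine ⟨c0, hallow, fun p hp => ⟨hu p hp, hβ p hp⟩, ?_⟩
  apply hL.ext
  · apply Data.Local.add (hS.local_gam_of_unif hu)
    intro p hp
    rw [hu p hp, hβ p hp]
    exact LA_phi (hT.mem j) rfl
  · exact e

/-- A hub forced by two hubs of a triple. -/
theorem out_tri {s : State k F Hub} (hL : D.Local s) {a : Gad} {h : Fin 3 → Hub}
    (hT : S.Triple a h) {j1 j2 : Fin 3} (hj : j1 ≠ j2) (v1 : s.1 (h j1) ≠ 0) (v2 : s.1 (h j2) ≠ 0)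
    {H : Hub} (v : s.1 H ≠ 0) : H ∈ S.hubs a := by
  obtain ⟨p, hp⟩ := hS.good_zero (D := D)
  have := hS.unif_of_two hL (fun e => hj (hT.inj e)) (hT.mem j1) (hT.mem j2) v1 v2 hp
  rw [← this]
  exact hL.hub hp v

theorem two_outside {a b : Gad} {h : Fin 3 → Hub} (hT : S.Triple b h) (hne : a ≠ b) :
    ∃ j1 j2, j1 ≠ j2 ∧ h j1 ∉ S.hubs a ∧ h j2 ∉ S.hubs a := by
  have key : ∀ j1 j2 : Fin 3, j1 ≠ j2 → ¬ (h j1 ∈ S.hubs a ∧ h j2 ∈ S.hubs a) := by
    intro j1 j2 hj e
    exact hne (hS.pair a b _ _ (fun e' => hj (hT.inj e')) e.1 e.2 (hT.mem j1) (hT.mem j2))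
  by_cases e0 : h 0 ∈ S.hubs a
  · have e1 : h 1 ∉ S.hubs a := fun e1 => key 0 1 (by decide) ⟨e0, e1⟩
    have e2 : h 2 ∉ S.hubs a := fun e2 => key 0 2 (by decide) ⟨e0, e2⟩
    exact ⟨1, 2, by decide, e1, e2⟩
  · by_cases e1 : h 1 ∈ S.hubs a
    · have e2 : h 2 ∉ S.hubs a := fun e2 => key 1 2 (by decide) ⟨e1, e2⟩
      exact ⟨0, 2, by decide, e0, e2⟩
    · exact ⟨0, 1, by decide, e0, e1⟩

/-- Two different triples do not fit in a local state. -/
theorem no_tri_tri {s : State k F Hub} (hL : D.Local s) {a b : Gad} {h h' : Fin 3 → Hub}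
    (hTa : S.Triple a h) (hTb : S.Triple b h') (hne : a ≠ b) {j : Fin 3}
    (hb : ∀ H, H ∉ S.hubs a → H ∈ S.hubs b → s.1 H ≠ 0)
    (ha : ∀ j0, j0 ≠ j → h j0 ∉ S.hubs b → s.1 (h j0) ≠ 0) : False := by
  obtain ⟨j1, j2, hj, e1, e2⟩ := hS.two_outside hTb hne
  by_cases e3 : h (j + 1) ∈ S.hubs b
  · have e4 : h (j + 2) ∉ S.hubs b := fun e4 =>
      hne (hS.pair a b _ _ (fun e' => f33 j (hTa.inj e')) (hTa.mem _) (hTa.mem _) e3 e4)
    exact e4 (hS.out_tri hL hTb hj (hb _ e1 (hTb.mem j1)) (hb _ e2 (hTb.mem j2))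
      (ha _ (f32 j) e4))
  · exact e3 (hS.out_tri hL hTb hj (hb _ e1 (hTb.mem j1)) (hb _ e2 (hTb.mem j2))
      (ha _ (f31 j) e3))

/-- The mono gadget is the only word on its hub. -/
theorem single {B : Gad} {M : Hub} (hM : S.IsMono B M) {c : Fin k → F}
    (hL : D.Local (S.phi M c)) : c = S.off B M := by
  funext i
  obtain ⟨p, rfl, hp⟩ := D.exists_good i
  obtain ⟨h1, h2⟩ := LA_phi_info (hL p hp)
  rw [h2]
  exact hS.mono_single B M _ _ _ hM h1 (D.ok p)

/-- The instance words of a uniform instance containing the hub of a mono gadget. -/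
theorem single_pin {B a : Gad} {M : Hub} (hM : S.IsMono B M) (hMa : M ∈ S.hubs a) {c0 : Fin k → F}
    (hleg : ∀ i, S.allow a i (c0 i)) : S.wd a M c0 = S.off B M := by
  funext i
  exact hS.mono_single B M a i (c0 i) hM hMa (hleg i)

/-- Sem for any arrangement. -/
theorem sem' {a : Gad} {h : Fin 3 → Hub} (hT : S.Triple a h) {c0 : Fin k → F}
    (hleg : ∀ i, S.allow a i (c0 i)) {j j' j'' : Fin 3} (h1 : j ≠ j') (h2 : j ≠ j'') (h3 : j' ≠ j'')
    (ht : Tru (h j) (S.wd a (h j) c0)) (ht' : Tru (h j') (S.wd a (h j') c0)) :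
    Tru (h j'') (S.wd a (h j'') c0) :=
  sem3 (fun j => Tru (h j) (S.wd a (h j) c0)) (fun j t1 t2 => hS.sem a h c0 j hT hleg t1 t2)
    h1 h2 h3 ht ht'

omit hS in
theorem fst_two_third {a : Gad} {h : Fin 3 → Hub} (hT : S.Triple a h) {j1 j2 j3 : Fin 3}
    (h1 : j1 ≠ j2) (h2 : j1 ≠ j3) (h3 : j2 ≠ j3) (c1 c2 c3 : Fin k → F) :
    (S.phi (h j1) c1 + S.phi (h j2) c2).1 = (S.gam a + S.phi (h j3) c3).1 := by
  rw [hT.gam_eq3 0 h1 h2 h3]
  funext H
  show (S.phi (h j1) c1).1 H + (S.phi (h j2) c2).1 H =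
    (S.phi (h j1) _).1 H + (S.phi (h j2) _).1 H + (S.phi (h j3) _).1 H + (S.phi (h j3) c3).1 H
  simp only [phi_fst]
  rw [add_assoc _ (if H = h j3 then (1 : ZMod 2) else 0), zmod2_self', add_zero]

/-- A local state with two hubs. -/
theorem two_struct {s : State k F Hub} (hL : D.Local s) {H1 H2 : Hub} (hne : H1 ≠ H2)
    {c1 c2 : Fin k → F} (e : s.1 = (S.phi H1 c1 + S.phi H2 c2).1) :
    ∃ a h j1 j2 j3 c0, S.Triple a h ∧ H1 = h j1 ∧ H2 = h j2 ∧ j1 ≠ j2 ∧ j1 ≠ j3 ∧ j2 ≠ j3 ∧
      (∀ i, S.allow a i (c0 i)) ∧ (∀ p, D.Gd p → D.bp p = a ∧ D.βp p = c0 p.1) ∧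
      s = S.gam a + S.pin a (h j3) c0 := by
  obtain ⟨p, hp⟩ := hS.good_zero (D := D)
  have v1 : s.1 H1 ≠ 0 := by
    rw [e]
    show (S.phi H1 c1).1 H1 + (S.phi H2 c2).1 H1 ≠ 0
    rw [phi_self, phi_ne _ hne, add_zero]
    exact one_ne_zero
  have v2 : s.1 H2 ≠ 0 := by
    rw [e]
    show (S.phi H1 c1).1 H2 + (S.phi H2 c2).1 H2 ≠ 0
    rw [phi_self, phi_ne _ hne.symm, zero_add]
    exact one_ne_zero
  have m1 := hL.hub hp v1
  have m2 := hL.hub hp v2
  rcases hS.tri_or_mono (D.bp p) with ⟨h, hT⟩ | ⟨M, hM⟩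
  · obtain ⟨j1, rfl⟩ := hT.exists_of_mem m1
    obtain ⟨j2, rfl⟩ := hT.exists_of_mem m2
    have hj : j1 ≠ j2 := fun e' => hne (by rw [e'])
    obtain ⟨j3, h13, h23⟩ := fin3_third j1 j2 hj
    have e2 := fst_two_third hT hj h13 h23 c1 c2 0
    obtain ⟨c0, hleg, hu, hs⟩ := hS.local_two hL hT (j := j3) (c' := 0) (e.trans e2)
    exact ⟨_, h, j1, j2, j3, c0, hT, rfl, rfl, hj, h13, h23, hleg, hu, hs⟩
  · exact (hne ((hM.eq m1).trans (hM.eq m2).symm)).elim

/-- Two true words in one local state. -/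
theorem pair_true {H1 H2 : Hub} (hne : H1 ≠ H2) {c1 c2 : Fin k → F}
    (hL : D.Local (S.phi H1 c1 + S.phi H2 c2)) (t1 : Tru H1 c1) (t2 : Tru H2 c2) :
    S.TrPos Tru (S.phi H1 c1 + S.phi H2 c2) := by
  obtain ⟨a, h, j1, j2, j3, c0, hT, rfl, rfl, hj, h13, h23, hleg, hu, hs⟩ :=
    hS.two_struct hL hne rfl
  have e1 : S.pin a (h j1) c0 + S.pin a (h j2) c0 = S.gam a + S.pin a (h j3) c0 := by
    rw [hT.gam_eq3 c0 hj h13 h23]
    linear_combination (norm := abel) -(state_self (S.pin a (h j3) c0))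
  rw [← e1] at hs
  have e2 := congrArg Prod.snd hs
  have hty : S.ty (h j1) ≠ S.ty (h j2) := by
    rw [hT.ty_h, hT.ty_h]
    exact hj
  obtain ⟨w1, w2⟩ := kp_inj2 hty e2
  rw [w1] at t1
  rw [w2] at t2
  refine Or.inr (Or.inr (Or.inr ⟨a, h, h j3, S.wd a (h j3) c0, hT, hT.mem j3,
    hS.sem' hT hleg hj h13 h23 t1 t2, ?_⟩))
  rw [hs, e1]
  rfl

end Nice

namespace GS

/-- The states of true facts, local at `D`, with their structure. -/
def LT (Tru : Hub → (Fin k → F) → Prop) (D : Data S) (s : State k F Hub) : Prop :=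
  s = 0 ∨ (∃ a h, S.Triple a h ∧ s = S.gam a ∧ ∀ p, D.Gd p → D.bp p = a) ∨
    (∃ H c, Tru H c ∧ s = S.phi H c) ∨
    ∃ a h c0 j, S.Triple a h ∧ (∀ i, S.allow a i (c0 i)) ∧
      (∀ p, D.Gd p → D.bp p = a ∧ D.βp p = c0 p.1) ∧ Tru (h j) (S.wd a (h j) c0) ∧
      s = S.gam a + S.pin a (h j) c0

end GS

namespace Nice

variable (hS : Nice S Tru) {D : Data S}
include hS

theorem toLT {s : State k F Hub} (hL : D.Local s) (ht : S.TrPos Tru s) : S.LT Tru D s := by
  rcases ht with rfl | ⟨a, rfl⟩ | ⟨H, c, t, rfl⟩ | ⟨a, h, H, c, hT, hH, t, rfl⟩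
  · exact Or.inl rfl
  · rcases hS.tri_or_mono a with ⟨h, hT⟩ | ⟨M, hM⟩
    · exact Or.inr (Or.inl ⟨a, h, hT, rfl, (hS.local_three hL hT rfl).1⟩)
    · rw [hM.gam_eq]
      exact Or.inr (Or.inr (Or.inl ⟨M, _, hS.mono_true a M hM, rfl⟩))
  · exact Or.inr (Or.inr (Or.inl ⟨H, c, t, rfl⟩))
  · obtain ⟨j, rfl⟩ := hT.exists_of_mem hH
    obtain ⟨c0, hleg, hu, hs⟩ := hS.local_two hL hT rfl
    have e1 : S.phi (h j) c = S.pin a (h j) c0 := by
      have h1 : S.gam a + S.phi (h j) c + S.gam a = S.gam a + S.pin a (h j) c0 + S.gam a := by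
        rw [hs]
      linear_combination (norm := abel) h1
    have e2 : c = S.wd a (h j) c0 := kp_inj1 (congrArg Prod.snd e1)
    rw [e2] at t
    exact Or.inr (Or.inr (Or.inr ⟨a, h, c0, j, hT, hleg, hu, t, by rw [hs]⟩))

/-- The words of a local hub in a uniform instance. -/
theorem word_of_unif {a : Gad} {c0 c : Fin k → F} {H : Hub}
    (hu : ∀ p, D.Gd p → D.bp p = a ∧ D.βp p = c0 p.1) (hL : D.Local (S.phi H c)) :
    c = S.wd a H c0 := by
  funext i
  obtain ⟨p, rfl, hp⟩ := D.exists_good i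
  obtain ⟨_, h2⟩ := LA_phi_info (hL p hp)
  rw [h2, (hu p hp).1, (hu p hp).2]
  rfl

omit hS in
theorem tr_gam (a : Gad) : S.TrPos Tru (S.gam a) := Or.inr (Or.inl ⟨a, rfl⟩)

omit hS in
theorem tr_zero : S.TrPos Tru (0 : State k F Hub) := Or.inl rfl

omit hS in
theorem tr_phi {H : Hub} {c : Fin k → F} (t : Tru H c) : S.TrPos Tru (S.phi H c) :=
  Or.inr (Or.inr (Or.inl ⟨H, c, t, rfl⟩))

omit hS in
theorem tr_gam_phi {a : Gad} {h : Fin 3 → Hub} (hT : S.Triple a h) {H : Hub} (hH : H ∈ S.hubs a)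
    {c : Fin k → F} (t : Tru H c) : S.TrPos Tru (S.gam a + S.phi H c) :=
  Or.inr (Or.inr (Or.inr ⟨a, h, H, c, hT, hH, t, rfl⟩))

/-- The subgroup property of the states local at one choice, case by case. -/
theorem step_bb {a a' : Gad} (hu : ∀ p, D.Gd p → D.bp p = a) (hu' : ∀ p, D.Gd p → D.bp p = a') :
    S.TrPos Tru (S.gam a + S.gam a') := by
  obtain ⟨p, hp⟩ := hS.good_zero (D := D)
  have e : a = a' := (hu p hp).symm.trans (hu' p hp)
  rw [e, state_self]
  exact tr_zero

theorem step_bc {a : Gad} {h : Fin 3 → Hub} (hT : S.Triple a h) (hu : ∀ p, D.Gd p → D.bp p = a)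
    {H : Hub} {c : Fin k → F} (t : Tru H c) (hL : D.Local (S.phi H c)) :
    S.TrPos Tru (S.gam a + S.phi H c) := by
  obtain ⟨p, hp⟩ := hS.good_zero (D := D)
  have := (LA_phi_info (hL p hp)).1
  rw [hu p hp] at this
  exact tr_gam_phi hT this t

theorem step_bd {a a' : Gad} {h : Fin 3 → Hub} {c0 : Fin k → F} {j : Fin 3}
    (hu : ∀ p, D.Gd p → D.bp p = a) (hu' : ∀ p, D.Gd p → D.bp p = a' ∧ D.βp p = c0 p.1)
    (t : Tru (h j) (S.wd a' (h j) c0)) :
    S.TrPos Tru (S.gam a + (S.gam a' + S.pin a' (h j) c0)) := by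
  obtain ⟨p, hp⟩ := hS.good_zero (D := D)
  have e : a = a' := (hu p hp).symm.trans (hu' p hp).1
  subst e
  rw [← add_assoc, state_self, zero_add]
  exact tr_phi t

theorem step_cc {H1 H2 : Hub} {c1 c2 : Fin k → F} (t1 : Tru H1 c1) (t2 : Tru H2 c2)
    (L1 : D.Local (S.phi H1 c1)) (L2 : D.Local (S.phi H2 c2)) :
    S.TrPos Tru (S.phi H1 c1 + S.phi H2 c2) := by
  by_cases e : H1 = H2
  · subst e
    have : S.phi H1 c1 = S.phi H1 c2 := L1.ext L2 rfl
    rw [this, state_self]
    exact tr_zero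
  · exact hS.pair_true e (L1.add L2) t1 t2

theorem step_cd {H : Hub} {c : Fin k → F} (t : Tru H c) (L : D.Local (S.phi H c)) {a : Gad}
    {h : Fin 3 → Hub} {c0 : Fin k → F} {j : Fin 3} (hT : S.Triple a h)
    (hleg : ∀ i, S.allow a i (c0 i)) (hu : ∀ p, D.Gd p → D.bp p = a ∧ D.βp p = c0 p.1)
    (t' : Tru (h j) (S.wd a (h j) c0)) :
    S.TrPos Tru (S.phi H c + (S.gam a + S.pin a (h j) c0)) := by
  obtain ⟨p, hp⟩ := hS.good_zero (D := D)
  have h1 := (LA_phi_info (L p hp)).1
  rw [(hu p hp).1] at h1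
  obtain ⟨j', rfl⟩ := hT.exists_of_mem h1
  have e := hS.word_of_unif hu L
  subst e
  by_cases hj : j' = j
  · subst hj
    have : S.pin a (h j') c0 = S.phi (h j') (S.wd a (h j') c0) := rfl
    rw [← this]
    have e3 : S.pin a (h j') c0 + (S.gam a + S.pin a (h j') c0) = S.gam a := by
      linear_combination (norm := abel) state_self (S.pin a (h j') c0)
    rw [e3]
    exact tr_gam a
  · obtain ⟨j'', h1', h2'⟩ := fin3_third j' j hj
    have e3 : S.phi (h j') (S.wd a (h j') c0) + (S.gam a + S.pin a (h j) c0) =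
        S.phi (h j'') (S.wd a (h j'') c0) := by
      have e4 := hT.gam_eq3 c0 hj h1' h2'
      have : S.phi (h j') (S.wd a (h j') c0) = S.pin a (h j') c0 := rfl
      rw [this, e4]
      have : S.phi (h j'') (S.wd a (h j'') c0) = S.pin a (h j'') c0 := rfl
      rw [this]
      linear_combination (norm := abel) state_self (S.pin a (h j') c0) + state_self (S.pin a (h j) c0)
    rw [e3]
    exact tr_phi (hS.sem' hT hleg hj h1' h2' t t')

theorem step_dd {a a' : Gad} {h h' : Fin 3 → Hub} {c0 c0' : Fin k → F} {j j' : Fin 3}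
    (hT : S.Triple a h) (hT' : S.Triple a' h') (hleg : ∀ i, S.allow a i (c0 i))
    (hu : ∀ p, D.Gd p → D.bp p = a ∧ D.βp p = c0 p.1)
    (hu' : ∀ p, D.Gd p → D.bp p = a' ∧ D.βp p = c0' p.1)
    (t : Tru (h j) (S.wd a (h j) c0)) (t' : Tru (h' j') (S.wd a' (h' j') c0')) :
    S.TrPos Tru ((S.gam a + S.pin a (h j) c0) + (S.gam a' + S.pin a' (h' j') c0')) := by
  obtain ⟨p, hp⟩ := hS.good_zero (D := D)
  have e : a = a' := (hu p hp).1.symm.trans (hu' p hp).1
  subst e
  have e2 := hT'.unique hT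
  subst e2
  have e3 : c0 = c0' := by
    funext i
    obtain ⟨p, rfl, hp⟩ := D.exists_good i
    rw [← (hu p hp).2, (hu' p hp).2]
  subst e3
  by_cases hj : j = j'
  · subst hj
    rw [state_self]
    exact tr_zero
  · obtain ⟨j'', h1', h2'⟩ := fin3_third j j' hj
    have e4 : S.gam a + S.pin a (h j) c0 + (S.gam a + S.pin a (h j') c0) =
        S.gam a + S.phi (h j'') (S.wd a (h j'') c0) := by
      have e5 := hT.gam_eq3 c0 hj h1' h2'
      have : S.phi (h j'') (S.wd a (h j'') c0) = S.pin a (h j'') c0 := rfl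
      rw [this, e5]
      linear_combination (norm := abel)
        state_self (S.pin a (h j) c0) + state_self (S.pin a (h j') c0)
    rw [e4]
    exact tr_gam_phi hT (hT.mem j'') (hS.sem' hT hleg hj h1' h2' t t')

/-- The subgroup property of the true states local at one choice. -/
theorem step {s1 s2 : State k F Hub} (L1 : D.Local s1) (L2 : D.Local s2) (t1 : S.TrPos Tru s1)
    (t2 : S.TrPos Tru s2) : S.TrPos Tru (s1 + s2) := by
  have h1 := hS.toLT L1 t1
  have h2 := hS.toLT L2 t2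
  rcases h1 with rfl | ⟨a, h, hT, rfl, hu⟩ | ⟨H, c, t, rfl⟩ | ⟨a, h, c0, j, hT, hleg, hu, t, rfl⟩
  · rw [zero_add]
    exact t2
  · rcases h2 with rfl | ⟨a', h', hT', rfl, hu'⟩ | ⟨H', c', t', rfl⟩ |
      ⟨a', h', c0', j', hT', hleg', hu', t', rfl⟩
    · rw [add_zero]
      exact t1
    · exact hS.step_bb hu hu'
    · exact hS.step_bc hT hu t' L2
    · exact hS.step_bd hu hu' t'
  · rcases h2 with rfl | ⟨a', h', hT', rfl, hu'⟩ | ⟨H', c', t', rfl⟩ |
      ⟨a', h', c0', j', hT', hleg', hu', t', rfl⟩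
    · rw [add_zero]
      exact t1
    · rw [add_comm]
      exact hS.step_bc hT' hu' t L1
    · exact hS.step_cc t t' L1 L2
    · exact hS.step_cd t L1 hT' hleg' hu' t'
  · rcases h2 with rfl | ⟨a', h', hT', rfl, hu'⟩ | ⟨H', c', t', rfl⟩ |
      ⟨a', h', c0', j', hT', hleg', hu', t', rfl⟩
    · rw [add_zero]
      exact t1
    · rw [add_comm]
      exact hS.step_bd hu' hu t
    · rw [add_comm]
      exact hS.step_cd t' L2 hT hleg hu t
    · exact hS.step_dd hT hT' hleg hu hu' t t'

omit hS in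
theorem fst_add (s s' : State k F Hub) (H : Hub) : (s + s').1 H = s.1 H + s'.1 H := rfl

omit hS in
theorem one_ne : (1 : ZMod 2) ≠ 0 := one_ne_zero

/-- Adding a gadget to a true state, when both are local, the first only at `Ds`, the sum at `Dt`:
the case of a gadget. -/
theorem shift_b {Dt : Data S} {a b : Gad} {h : Fin 3 → Hub} (hT : S.Triple a h)
    (Lt : Dt.Local (S.gam a + S.gam b)) : S.TrPos Tru (S.gam a + S.gam b) := by
  by_cases e : a = b
  · subst e
    rw [state_self]
    exact tr_zero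
  rcases hS.tri_or_mono b with ⟨h', hT'⟩ | ⟨M, hM⟩
  · refine (hS.no_tri_tri Lt hT hT' e (j := 0) ?_ ?_).elim
    · intro H h1 h2
      rw [fst_add, gam_out h1, gam_in h2, zero_add]
      exact one_ne
    · intro j0 _ h2
      rw [fst_add, gam_in (hT.mem j0), gam_out h2, add_zero]
      exact one_ne
  · rw [hM.gam_eq] at Lt ⊢
    by_cases hMa : M ∈ S.hubs a
    · exact tr_gam_phi hT hMa (hS.mono_true b M hM)
    · have hne : ∀ j, h j ≠ M := fun j e' => hMa (e' ▸ hT.mem j)
      refine (hMa (hS.out_tri Lt hT (j1 := 0) (j2 := 1) (by decide) ?_ ?_ (H := M) ?_)).elim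
      · rw [fst_add, gam_in (hT.mem 0), phi_ne _ (hne 0), add_zero]
        exact one_ne
      · rw [fst_add, gam_in (hT.mem 1), phi_ne _ (hne 1), add_zero]
        exact one_ne
      · rw [fst_add, gam_out hMa, phi_self, zero_add]
        exact one_ne

theorem shift_c {Ds Dt : Data S} {H : Hub} {c : Fin k → F} {b : Gad} (t : Tru H c)
    (Ls : Ds.Local (S.phi H c)) (Lt : Dt.Local (S.phi H c + S.gam b)) :
    S.TrPos Tru (S.phi H c + S.gam b) := by
  rcases hS.tri_or_mono b with ⟨h', hT'⟩ | ⟨M, hM⟩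
  · by_cases hH : H ∈ S.hubs b
    · rw [add_comm]
      exact tr_gam_phi hT' hH t
    · have hne : ∀ j, h' j ≠ H := fun j e' => hH (e' ▸ hT'.mem j)
      refine (hH (hS.out_tri Lt hT' (j1 := 0) (j2 := 1) (by decide) ?_ ?_ (H := H) ?_)).elim
      · rw [fst_add, gam_in (hT'.mem 0), phi_ne _ (hne 0), zero_add]
        exact one_ne
      · rw [fst_add, gam_in (hT'.mem 1), phi_ne _ (hne 1), zero_add]
        exact one_ne
      · rw [fst_add, gam_out hH, phi_self, add_zero]
        exact one_ne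
  · rw [hM.gam_eq] at Lt ⊢
    by_cases e : H = M
    · subst e
      rw [hS.single hM Ls, state_self]
      exact tr_zero
    · exact hS.pair_true e Lt t (hS.mono_true b M hM)

theorem shift_d {Dt : Data S} {a b : Gad} {h : Fin 3 → Hub} {c0 : Fin k → F} {j : Fin 3}
    (hT : S.Triple a h) (hleg : ∀ i, S.allow a i (c0 i)) (t : Tru (h j) (S.wd a (h j) c0))
    (Lt : Dt.Local (S.gam a + S.pin a (h j) c0 + S.gam b)) :
    S.TrPos Tru (S.gam a + S.pin a (h j) c0 + S.gam b) := by
  have hj1 : ∀ H, H ≠ h j → (S.pin a (h j) c0).1 H = 0 := fun H hH => phi_ne _ hH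
  by_cases e : a = b
  · subst e
    have e3 : S.gam a + S.pin a (h j) c0 + S.gam a = S.pin a (h j) c0 := by
      linear_combination (norm := abel) state_self (S.gam a)
    rw [e3]
    exact tr_phi t
  rcases hS.tri_or_mono b with ⟨h', hT'⟩ | ⟨M, hM⟩
  · refine (hS.no_tri_tri Lt hT hT' e (j := j) ?_ ?_).elim
    · intro H h1 h2
      have hne : H ≠ h j := fun e' => h1 (e' ▸ hT.mem j)
      rw [fst_add, fst_add, gam_out h1, gam_in h2, hj1 H hne, zero_add, zero_add]
      exact one_ne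
    · intro j0 h1 h2
      have hne : h j0 ≠ h j := fun e' => h1 (hT.inj e')
      rw [fst_add, fst_add, gam_in (hT.mem j0), gam_out h2, hj1 _ hne, add_zero, add_zero]
      exact one_ne
  · rw [hM.gam_eq] at Lt ⊢
    by_cases hMa : M ∈ S.hubs a
    · obtain ⟨j', rfl⟩ := hT.exists_of_mem hMa
      have e1 := hS.single_pin hM hMa hleg
      have t' := hS.mono_true b _ hM
      rw [← e1] at t' ⊢
      by_cases hj : j' = j
      · subst hj
        have e3 : S.gam a + S.pin a (h j') c0 + S.phi (h j') (S.wd a (h j') c0) = S.gam a := by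
          have : S.phi (h j') (S.wd a (h j') c0) = S.pin a (h j') c0 := rfl
          rw [this]
          linear_combination (norm := abel) state_self (S.pin a (h j') c0)
        rw [e3]
        exact tr_gam a
      · obtain ⟨j'', h1', h2'⟩ := fin3_third j j' (Ne.symm hj)
        have e3 : S.gam a + S.pin a (h j) c0 + S.phi (h j') (S.wd a (h j') c0) =
            S.phi (h j'') (S.wd a (h j'') c0) := by
          have e4 := hT.gam_eq3 c0 (Ne.symm hj) h1' h2'
          have e5 : S.phi (h j') (S.wd a (h j') c0) = S.pin a (h j') c0 := rfl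
          have e6 : S.phi (h j'') (S.wd a (h j'') c0) = S.pin a (h j'') c0 := rfl
          rw [e5, e6, e4]
          linear_combination (norm := abel)
            state_self (S.pin a (h j) c0) + state_self (S.pin a (h j') c0)
        rw [e3]
        exact tr_phi (hS.sem' hT hleg (Ne.symm hj) h1' h2' t t')
    · have hne : ∀ j', h j' ≠ M := fun j' e' => hMa (e' ▸ hT.mem j')
      refine (hMa (hS.out_tri Lt hT (j1 := j + 1) (j2 := j + 2) (f33 j) ?_ ?_ (H := M) ?_)).elim
      · rw [fst_add, fst_add, gam_in (hT.mem _), hj1 _ (fun e' => f31 j (hT.inj e')),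
          phi_ne _ (hne _), add_zero, add_zero]
        exact one_ne
      · rw [fst_add, fst_add, gam_in (hT.mem _), hj1 _ (fun e' => f32 j (hT.inj e')),
          phi_ne _ (hne _), add_zero, add_zero]
        exact one_ne
      · rw [fst_add, fst_add, gam_out hMa, hj1 _ (fun e' => hne j e'.symm), phi_self, zero_add,
          zero_add]
        exact one_ne

/-- Adding a gadget to a true state, when both are local. -/
theorem shift {Ds Dt : Data S} {s : State k F Hub} {b : Gad} (ht : S.TrPos Tru s)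
    (Ls : Ds.Local s) (Lt : Dt.Local (s + S.gam b)) : S.TrPos Tru (s + S.gam b) := by
  rcases hS.toLT Ls ht with rfl | ⟨a, h, hT, rfl, _⟩ | ⟨H, c, t, rfl⟩ |
    ⟨a, h, c0, j, hT, hleg, _, t, rfl⟩
  · rw [zero_add]
    exact tr_gam b
  · exact hS.shift_b hT Lt
  · exact hS.shift_c t Ls Lt
  · exact hS.shift_d hT hleg t Lt

/-- Adding a gadget containing all hubs of a true local state. -/
theorem comp {D : Data S} {s : State k F Hub} {b : Gad} (L : D.Local s) (ht : S.TrPos Tru s)
    (hs : ∀ H, s.1 H ≠ 0 → H ∈ S.hubs b) : S.TrPos Tru (s + S.gam b) := by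
  rcases hS.toLT L ht with rfl | ⟨a, h, hT, rfl, _⟩ | ⟨H, c, t, rfl⟩ |
    ⟨a, h, c0, j, hT, hleg, _, t, rfl⟩
  · rw [zero_add]
    exact tr_gam b
  · have h0 := hs (h 0) (by rw [gam_in (hT.mem 0)]; exact one_ne)
    have h1 := hs (h 1) (by rw [gam_in (hT.mem 1)]; exact one_ne)
    have e : a = b := hS.pair a b _ _ (fun e' => by simpa using hT.inj e') (hT.mem 0) (hT.mem 1) h0 h1
    rw [e, state_self]
    exact tr_zero
  · have hH := hs H (by rw [phi_self]; exact one_ne)
    rcases hS.tri_or_mono b with ⟨h', hT'⟩ | ⟨M, hM⟩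
    · rw [add_comm]
      exact tr_gam_phi hT' hH t
    · have e := hM.eq hH
      subst e
      rw [hM.gam_eq, hS.single hM L, state_self]
      exact tr_zero
  · have hj1 : ∀ H, H ≠ h j → (S.pin a (h j) c0).1 H = 0 := fun H hH => phi_ne _ hH
    have h0 := hs (h (j + 1)) (by
      rw [fst_add, gam_in (hT.mem _), hj1 _ (fun e' => f31 j (hT.inj e')), add_zero]
      exact one_ne)
    have h1 := hs (h (j + 2)) (by
      rw [fst_add, gam_in (hT.mem _), hj1 _ (fun e' => f32 j (hT.inj e')), add_zero]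
      exact one_ne)
    have e : a = b := hS.pair a b _ _ (fun e' => f33 j (hT.inj e')) (hT.mem _) (hT.mem _) h0 h1
    subst e
    have e3 : S.gam a + S.pin a (h j) c0 + S.gam a = S.pin a (h j) c0 := by
      linear_combination (norm := abel) state_self (S.gam a)
    rw [e3]
    exact tr_phi t

/-- The passage between two different further equations, both used. -/
theorem cc5 {D D'' : Data S} {s s'' : State k F Hub} {b' b'' : Gad} (Ls : D.Local s)
    (Ls'' : D''.Local s'') (ht : S.TrPos Tru s) (e : s'' = s + S.gam b' + S.gam b'') (hne : b' ≠ b'')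
    {q q'' : Pos k xe} (hq : D''.Gd q) (hq2 : D''.bp q = b') (hq'' : D.Gd q'') (hq3 : D.bp q'' = b'') :
    S.TrPos Tru s'' := by
  have hA : S.TrPos Tru (s + S.gam b'') :=
    hS.comp Ls ht (fun H hH => by
      have := Ls.hub hq'' hH
      rwa [hq3] at this)
  have eA : s + S.gam b'' = s'' + S.gam b' := by
    rw [e]
    linear_combination (norm := abel) -(state_self (S.gam b'))
  have es : s'' = (s + S.gam b'') + S.gam b' := by
    rw [eA]
    linear_combination (norm := abel) -(state_self (S.gam b'))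
  have sup2 : ∀ H, (s + S.gam b'').1 H ≠ 0 → H ∈ S.hubs b'' := by
    intro H hH
    rw [fst_add] at hH
    by_cases h1 : s.1 H = 0
    · rw [h1, zero_add] at hH
      by_contra h2
      exact hH (gam_out h2)
    · have := Ls.hub hq'' h1
      rwa [hq3] at this
  have sup1 : ∀ H, (s + S.gam b'').1 H ≠ 0 → H ∈ S.hubs b' := by
    intro H hH
    rw [eA, fst_add] at hH
    by_cases h1 : s''.1 H = 0
    · rw [h1, zero_add] at hH
      by_contra h2
      exact hH (gam_out h2)
    · have := Ls''.hub hq h1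
      rwa [hq2] at this
  generalize s + S.gam b'' = A at *
  subst es
  rcases hA with rfl | ⟨a, rfl⟩ | ⟨H, c, t, rfl⟩ | ⟨a, h, H, c, hT, hH, t, rfl⟩
  · rw [zero_add]
    exact tr_gam b'
  · rcases hS.tri_or_mono a with ⟨h, hT⟩ | ⟨M, hM⟩
    · exfalso
      have v : ∀ j, (S.gam a).1 (h j) ≠ 0 := fun j => by
        rw [gam_in (hT.mem j)]
        exact one_ne
      apply hne
      exact hS.pair _ _ (h 0) (h 1) (fun e' => by simpa using hT.inj e') (sup1 _ (v 0)) (sup1 _ (v 1))
        (sup2 _ (v 0)) (sup2 _ (v 1))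
    · have hMb : M ∈ S.hubs b' := sup1 M (by rw [gam_in hM.mem]; exact one_ne)
      rcases hS.tri_or_mono b' with ⟨h', hT'⟩ | ⟨M', hM'⟩
      · rw [hM.gam_eq, add_comm]
        exact tr_gam_phi hT' hMb (hS.mono_true a M hM)
      · have e2 := hM'.eq hMb
        subst e2
        have : S.gam a + S.gam b' = 0 := by
          apply Ls''.eq_zero
          funext H
          rw [fst_add, gam_fst, gam_fst, hM, hM']
          exact zmod2_self' _
        rw [this]
        exact tr_zero
  · have hHb : H ∈ S.hubs b' := sup1 H (by rw [phi_self]; exact one_ne)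
    rcases hS.tri_or_mono b' with ⟨h', hT'⟩ | ⟨M', hM'⟩
    · rw [add_comm]
      exact tr_gam_phi hT' hHb t
    · have e2 := hM'.eq hHb
      subst e2
      have : S.phi H c + S.gam b' = 0 := by
        apply Ls''.eq_zero
        funext H'
        rw [fst_add, gam_fst, hM', phi_fst]
        by_cases h3 : H' = H
        · simp [h3]
          rfl
        · simp [h3]
      rw [this]
      exact tr_zero
  · exfalso
    obtain ⟨j, rfl⟩ := hT.exists_of_mem hH
    have hj1 : ∀ H, H ≠ h j → (S.phi (h j) c).1 H = 0 := fun H hH => phi_ne _ hH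
    have v1 : (S.gam a + S.phi (h j) c).1 (h (j + 1)) ≠ 0 := by
      rw [fst_add, gam_in (hT.mem _), hj1 _ (fun e' => f31 j (hT.inj e')), add_zero]
      exact one_ne
    have v2 : (S.gam a + S.phi (h j) c).1 (h (j + 2)) ≠ 0 := by
      rw [fst_add, gam_in (hT.mem _), hj1 _ (fun e' => f32 j (hT.inj e')), add_zero]
      exact one_ne
    apply hne
    exact hS.pair _ _ _ _ (fun e' => f33 j (hT.inj e')) (sup1 _ v1) (sup1 _ v2) (sup2 _ v1) (sup2 _ v2)

/-- A local state with the hubs of one gadget is the state of this gadget. -/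
theorem gam_local {D : Data S} {s : State k F Hub} {g : Gad} (L : D.Local s)
    (e : s.1 = (S.gam g).1) : s = S.gam g := by
  rcases hS.tri_or_mono g with ⟨h, hT⟩ | ⟨M, hM⟩
  · exact (hS.local_three L hT e).2
  · have e1 : s.1 = (S.phi M (S.off g M)).1 := by rw [e, hM.gam_eq]
    obtain ⟨c, hc, _⟩ := hS.local_one L e1
    subst hc
    rw [hM.gam_eq, hS.single hM L]

theorem case_tm {D : Data S} {s : State k F Hub} {g1 g2 : Gad} {h : Fin 3 → Hub} {M : Hub}
    (L : D.Local s) (hT : S.Triple g1 h) (hM : S.IsMono g2 M) (e : s.1 = (S.gam g1 + S.gam g2).1) :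
    S.TrPos Tru s := by
  rw [hM.gam_eq] at e
  by_cases hMa : M ∈ S.hubs g1
  · obtain ⟨j, rfl⟩ := hT.exists_of_mem hMa
    obtain ⟨c0, hleg, _, hs⟩ := hS.local_two L hT e
    have e1 := hS.single_pin hM hMa hleg
    have t := hS.mono_true g2 _ hM
    rw [← e1] at t
    rw [hs]
    exact tr_gam_phi hT hMa t
  · exfalso
    have hne : ∀ j', h j' ≠ M := fun j' e' => hMa (e' ▸ hT.mem j')
    apply hMa
    refine hS.out_tri L hT (j1 := 0) (j2 := 1) (by decide) ?_ ?_ (H := M) ?_
    · rw [e, fst_add, gam_in (hT.mem 0), phi_ne _ (hne 0), add_zero]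
      exact one_ne
    · rw [e, fst_add, gam_in (hT.mem 1), phi_ne _ (hne 1), add_zero]
      exact one_ne
    · rw [e, fst_add, gam_out hMa, phi_self, zero_add]
      exact one_ne

theorem case_two {D : Data S} {s : State k F Hub} {g1 g2 : Gad} (L : D.Local s)
    (e : s.1 = (S.gam g1 + S.gam g2).1) : S.TrPos Tru s := by
  rcases hS.tri_or_mono g1 with ⟨h, hT⟩ | ⟨M, hM⟩
  · rcases hS.tri_or_mono g2 with ⟨h', hT'⟩ | ⟨M', hM'⟩
    · by_cases hg : g1 = g2
      · subst hg
        have : s = 0 := by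
          apply L.eq_zero
          rw [e, state_self]
          rfl
        rw [this]
        exact tr_zero
      · refine (hS.no_tri_tri L hT hT' hg (j := 0) ?_ ?_).elim
        · intro H h1 h2
          rw [e, fst_add, gam_out h1, gam_in h2, zero_add]
          exact one_ne
        · intro j0 _ h2
          rw [e, fst_add, gam_in (hT.mem j0), gam_out h2, add_zero]
          exact one_ne
    · exact hS.case_tm L hT hM' e
  · rcases hS.tri_or_mono g2 with ⟨h', hT'⟩ | ⟨M', hM'⟩
    · rw [add_comm] at e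
      exact hS.case_tm L hT' hM e
    · by_cases hMM : M = M'
      · subst hMM
        have : s = 0 := by
          apply L.eq_zero
          rw [e]
          funext H
          rw [fst_add, gam_fst, gam_fst, hM, hM']
          exact zmod2_self' _
        rw [this]
        exact tr_zero
      · rw [hM.gam_eq, hM'.gam_eq] at e
        obtain ⟨a, h, j1, j2, j3, c0, hT, rfl, rfl, hj, h13, h23, hleg, hu, hs⟩ :=
          hS.two_struct L hMM e
        have m1 : h j1 ∈ S.hubs a := hT.mem j1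
        have m2 : h j2 ∈ S.hubs a := hT.mem j2
        have t1 := hS.mono_true g1 _ hM
        have t2 := hS.mono_true g2 _ hM'
        rw [← hS.single_pin hM m1 hleg] at t1
        rw [← hS.single_pin hM' m2 hleg] at t2
        rw [hs]
        exact tr_gam_phi hT (hT.mem j3) (hS.sem' hT hleg hj h13 h23 t1 t2)

/-- A local state whose hubs are a combination of at most two gadgets is true. -/
theorem caseA {D : Data S} {s : State k F Hub} {g1 g2 : Gad} {τ1 τ2 : ZMod 2} (L : D.Local s)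
    (e : ∀ H, s.1 H = τ1 * (S.gam g1).1 H + τ2 * (S.gam g2).1 H) : S.TrPos Tru s := by
  rcases zmod2_cases' τ1 with rfl | rfl <;> rcases zmod2_cases' τ2 with rfl | rfl
  · have : s = 0 := by
      apply L.eq_zero
      funext H
      rw [e]
      simp
    rw [this]
    exact tr_zero
  · rw [hS.gam_local L (g := g2) (by
      funext H
      rw [e]
      simp)]
    exact tr_gam _
  · rw [hS.gam_local L (g := g1) (by
      funext H
      rw [e]
      simp)]
    exact tr_gam _
  · exact hS.case_two L (by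
      funext H
      rw [e, one_mul, one_mul]
      rfl)

end Nice

end Vale.Agent.P310y
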