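import Vale.Agent.P310y.Read

set_option linter.unusedSectionVars false
set_option linter.unusedVariables false

namespace Vale.Agent.P310y

open Function

open scoped Classical

variable {k xe : ℕ} {F Hub Gad : Type} [AddCommGroup F] [Module (ZMod 2) F] [Fintype F] [Fintype Hub]
  [Fintype Gad]

namespace GS

variable (S : GS k xe F Hub Gad)

/-- The values at hubs of a set of gadgets. -/
noncomputable def hs (U : Finset Gad) (H : Hub) : ZMod 2 := ∑ b ∈ U, if H ∈ S.hubs b then 1 else 0

variable {S}

/-- The indicator of a set of gadgets. -/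
noncomputable def ind (b : Gad) (U : Finset Gad) : ZMod 2 := if b ∈ U then 1 else 0

theorem ind_symmDiff (b : Gad) (U U' : Finset Gad) :
    ind b (symmDiff U U') = ind b U + ind b U' := by
  unfold ind
  by_cases h1 : b ∈ U <;> by_cases h2 : b ∈ U' <;> simp [Finset.mem_symmDiff, h1, h2]
  rfl

theorem hs_eq (U : Finset Gad) (H : Hub) :
    S.hs U H = ∑ b, ind b U * (if H ∈ S.hubs b then 1 else 0) := by
  unfold hs ind
  have e : ∀ b, (if b ∈ U then (1 : ZMod 2) else 0) * (if H ∈ S.hubs b then 1 else 0) =
      if b ∈ U then (if H ∈ S.hubs b then 1 else 0) else 0 := by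
    intro b
    split_ifs <;> simp
  simp only [e]
  rw [Finset.sum_ite_mem, Finset.univ_inter]

theorem hs_symmDiff (U U' : Finset Gad) (H : Hub) :
    S.hs (symmDiff U U') H = S.hs U H + S.hs U' H := by
  simp only [hs_eq, ind_symmDiff, add_mul, Finset.sum_add_distrib]

theorem card_sd (U U' : Finset Gad) : (symmDiff U U').card ≤ U.card + U'.card := by
  have h1 : symmDiff U U' ⊆ U ∪ U' := by
    intro b hb
    rw [Finset.mem_symmDiff] at hb
    rw [Finset.mem_union]
    rcases hb with h | h
    · exact Or.inl h.1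
    · exact Or.inr h.1
  exact (Finset.card_le_card h1).trans (Finset.card_union_le _ _)

end GS

/-- The twist and the delay line. -/
structure Tw (S : GS k xe F Hub Gad) (Tru : Hub → (Fin k → F) → Prop) (Dl : Hub → Prop) (bs : Gad)
    (Hs : Hub) : Prop where
  star : ∀ b, Hs ∈ S.hubs b → b = S.twist ∨ b = bs
  twist_star : Hs ∈ S.hubs S.twist
  bs_star : Hs ∈ S.hubs bs
  ne : S.twist ≠ bs
  key : ∀ (X : Finset Gad) (R : Hub → ZMod 2), X.card ≤ 3 * (2 * k + xe + 3) → (∀ H, Dl H → R H = 0) →
    (∀ H, R H = S.hs X H) → bs ∉ X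
  tru_dl : ∀ H c, Tru H c → ¬ Dl H

namespace GS

variable (S : GS k xe F Hub Gad) (Tru : Hub → (Fin k → F) → Prop) (bs : Gad) (Hs : Hub) (p0 : Pos k xe)

/-- The value of a derived equation, given by a small representation. -/
def Wit (v : Vec k xe F Hub Gad) (ρ : ZMod 2) : Prop :=
  ∃ (R : Hub → ZMod 2) (U : Finset Gad), (R = 0 ∨ ∃ H c, Tru H c ∧ R = (S.phi H c).1) ∧
    U.card ≤ 2 * k + xe + 3 ∧ (∀ H, S.rd v p0 H = R H + S.hs U H) ∧ ρ = S.rd v p0 Hs + ind bs U

/-- The readings of a vector at a choice. -/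
def IsRead (D : Data S) (v : Vec k xe F Hub Gad) (s : State k F Hub) : Prop :=
  s = S.st p0 v ∨ ∃ b', D.extra = some (GItem.h b') ∧ s = S.st p0 v + S.gam b'

/-- All local readings of a vector are true. -/
def Tt (v : Vec k xe F Hub Gad) : Prop :=
  ∀ D : Data S, S.Cov D v → ∀ s, D.Local s → S.IsRead p0 D v s → S.TrPos Tru s

/-- The derived equations of the duplicator. -/
def Good (v : Vec k xe F Hub Gad) (ρ : ZMod 2) : Prop :=
  S.Inv v ∧ S.Tt Tru p0 v ∧ S.Wit Tru bs Hs p0 v ρ

/-- Support inside the variables of a set of equations. -/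
def SupT (T : Finset (GItem S)) (v : Vec k xe F Hub Gad) : Prop :=
  ∀ d, v d ≠ 0 → ∃ c ∈ T, d ∈ S.gvars c

end GS

namespace Nice

variable {S : GS k xe F Hub Gad} {Tru : Hub → (Fin k → F) → Prop} {Dl : Hub → Prop} {bs : Gad}
  {Hs : Hub} (p0 : Pos k xe)

open GS

/-- The passage of truth between two choices. -/
theorem transfer (hS : Nice S Tru) {D D'' : Data S} {v : Vec k xe F Hub Gad} {s s'' : State k F Hub}
    (hinv : S.Inv v) (hc : S.Cov D v) (hc'' : S.Cov D'' v) (L : D.Local s) (L'' : D''.Local s'')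
    (r : S.IsRead p0 D v s) (r'' : S.IsRead p0 D'' v s'') (t : S.TrPos Tru s) :
    S.TrPos Tru s'' := by
  rcases r with rfl | ⟨b', he, rfl⟩ <;> rcases r'' with rfl | ⟨b'', he'', rfl⟩
  · exact t
  · exact hS.shift t L L''
  · have e : S.st p0 v = S.st p0 v + S.gam b' + S.gam b' := by
      linear_combination (norm := abel) -(state_self (S.gam b'))
    have L2 : D''.Local (S.st p0 v + S.gam b' + S.gam b') := by rwa [← e]
    have := hS.shift t L L2
    rwa [← e] at this
  · by_cases hb : b' = b''
    · subst hb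
      exact t
    · have e : S.st p0 v = S.st p0 v + S.gam b' + S.gam b' := by
        linear_combination (norm := abel) -(state_self (S.gam b'))
      rcases hS.reading hinv p0 hc with h1 | ⟨b0, he0, _, q, hq1, hq2⟩
      · have L2 : D.Local (S.st p0 v + S.gam b' + S.gam b') := by rwa [← e]
        have t2 := hS.shift t L L2
        rw [← e] at t2
        exact hS.shift t2 h1 L''
      · have e0 : b0 = b' := by
          rw [he] at he0
          have := Option.some.inj he0
          injection this with h3
          exact h3.symm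
        subst e0
        rcases hS.reading hinv p0 hc'' with h1 | ⟨b1, he1, _, q'', hq1'', hq2''⟩
        · have L2 : D''.Local (S.st p0 v + S.gam b0 + S.gam b0) := by rwa [← e]
          have t2 := hS.shift t L L2
          rw [← e] at t2
          exact hS.shift t2 h1 L''
        · have e1 : b1 = b'' := by
            rw [he''] at he1
            have := Option.some.inj he1
            injection this with h3
            exact h3.symm
          subst e1
          have good1 : ∀ p, D.Gd p := by
            intro p b β h e'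
            rw [he] at e'
            simp at e'
          have good2 : ∀ p, D''.Gd p := by
            intro p b β h e'
            rw [he''] at e'
            simp at e'
          have e2 : D''.bp q = b0 := by
            rcases cov_y hc'' (good2 q) hq2 with h3 | h3
            · exact h3.symm
            · rw [he''] at h3
              have := Option.some.inj h3
              injection this with h4
              exact (hb h4.symm).elim
          have e3 : D.bp q'' = b1 := by
            rcases cov_y hc (good1 q'') hq2'' with h3 | h3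
            · exact h3.symm
            · rw [he] at h3
              have := Option.some.inj h3
              injection this with h4
              exact (hb h4).elim
          refine hS.cc5 L L'' t ?_ hb (good2 q) e2 (good1 q'') e3
          linear_combination (norm := abel) -(state_self (S.gam b0))

/-- The witness from a true reading. -/
theorem wit_of_tr {s : State k F Hub} (t : S.TrPos Tru s) :
    ∃ (R : Hub → ZMod 2) (U : Finset Gad), (R = 0 ∨ ∃ H c, Tru H c ∧ R = (S.phi H c).1) ∧
      U.card ≤ 1 ∧ ∀ H, s.1 H = R H + S.hs U H := by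
  rcases t with rfl | ⟨a, rfl⟩ | ⟨H, c, t, rfl⟩ | ⟨a, h, H, c, hT, hH, t, rfl⟩
  · exact ⟨0, ∅, Or.inl rfl, by simp, fun H => by simp [hs]⟩
  · refine ⟨0, {a}, Or.inl rfl, by simp, fun H => ?_⟩
    rw [gam_fst]
    simp only [hs, Finset.sum_singleton, Pi.zero_apply, zero_add]
  · refine ⟨_, ∅, Or.inr ⟨H, c, t, rfl⟩, by simp, fun H' => ?_⟩
    simp [hs]
  · refine ⟨_, {a}, Or.inr ⟨H, c, t, rfl⟩, by simp, fun H' => ?_⟩
    rw [fst_add, gam_fst]
    simp only [hs, Finset.sum_singleton]
    rw [add_comm]

variable (hS : Nice S Tru) (hW : Tw S Tru Dl bs Hs)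

/-- The right side is determined by the representation. -/
theorem rho_key (hW : Tw S Tru Dl bs Hs) {R R1 R2 : Hub → ZMod 2} {U U1 U2 : Finset Gad}
    (hR : R = 0 ∨ ∃ H c, Tru H c ∧ R = (S.phi H c).1)
    (hR1 : R1 = 0 ∨ ∃ H c, Tru H c ∧ R1 = (S.phi H c).1)
    (hR2 : R2 = 0 ∨ ∃ H c, Tru H c ∧ R2 = (S.phi H c).1)
    (c : U.card ≤ 2 * k + xe + 3) (c1 : U1.card ≤ 2 * k + xe + 3) (c2 : U2.card ≤ 2 * k + xe + 3)
    (e : ∀ H, R H + S.hs U H = (R1 H + S.hs U1 H) + (R2 H + S.hs U2 H)) :
    ind bs U = ind bs U1 + ind bs U2 := by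
  have van : ∀ R' : Hub → ZMod 2, (R' = 0 ∨ ∃ H c, Tru H c ∧ R' = (S.phi H c).1) →
      ∀ H, Dl H → R' H = 0 := by
    rintro R' (rfl | ⟨H0, c0, t, rfl⟩) H hH
    · rfl
    · apply phi_ne
      rintro rfl
      exact hW.tru_dl _ _ t hH
  let X := symmDiff U (symmDiff U1 U2)
  have hX : ∀ H, S.hs X H = S.hs U H + (S.hs U1 H + S.hs U2 H) := by
    intro H
    rw [hs_symmDiff, hs_symmDiff]
  have key := hW.key X (fun H => R H + (R1 H + R2 H)) (by
      have h1 := card_sd U (symmDiff U1 U2)
      have h2 := card_sd U1 U2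
      show (symmDiff U (symmDiff U1 U2)).card ≤ _
      omega)
    (by
      intro H hH
      simp only [van R hR H hH, van R1 hR1 H hH, van R2 hR2 H hH]
      simp)
    (by
      intro H
      rw [hX]
      have := e H
      generalize R H = x1 at *
      generalize R1 H = x2 at *
      generalize R2 H = x3 at *
      generalize S.hs U H = x4 at *
      generalize S.hs U1 H = x5 at *
      generalize S.hs U2 H = x6 at *
      revert x1 x2 x3 x4 x5 x6
      decide)
  have h3 : ind bs X = 0 := by
    unfold ind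
    rw [if_neg key]
  rw [ind_symmDiff, ind_symmDiff] at h3
  generalize ind bs U = a at *
  generalize ind bs U1 = b at *
  generalize ind bs U2 = c at *
  revert a b c
  decide

/-- The witness of a sum. -/
theorem wit_final (hW : Tw S Tru Dl bs Hs) {v1 v2 : Vec k xe F Hub Gad} {ρ1 ρ2 : ZMod 2}
    (w1 : S.Wit Tru bs Hs p0 v1 ρ1) (w2 : S.Wit Tru bs Hs p0 v2 ρ2) {R : Hub → ZMod 2}
    {U : Finset Gad} (hR : R = 0 ∨ ∃ H c, Tru H c ∧ R = (S.phi H c).1) (hU : U.card ≤ 2 * k + xe + 3)
    (e : ∀ H, S.rd (v1 + v2) p0 H = R H + S.hs U H) :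
    S.Wit Tru bs Hs p0 (v1 + v2) (ρ1 + ρ2) := by
  obtain ⟨R1, U1, hR1, c1, e1, r1⟩ := w1
  obtain ⟨R2, U2, hR2, c2, e2, r2⟩ := w2
  refine ⟨R, U, hR, hU, e, ?_⟩
  have key := rho_key hW hR hR1 hR2 hU c1 c2 (fun H => by
    rw [← e, ← e1, ← e2, rd_add])
  rw [r1, r2, rd_add, key]
  abel

omit [Fintype F] [Fintype Hub] in
theorem supT_add {T : Finset (GItem S)} {v w : Vec k xe F Hub Gad} (hv : S.SupT T v) (hw : S.SupT T w) :
    S.SupT T (v + w) := by
  intro d hd
  by_cases h1 : v d = 0
  · apply hw d
    intro h2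
    apply hd
    simp [h1, h2]
  · exact hv d h1

theorem rd_tokens {v : Vec k xe F Hub Gad} {p : Pos k xe} (hx : ∀ H α, v (xv p H α) = 0) (H : Hub) :
    S.rd v p H = ∑ g, if H ∈ S.hubs g then v (yv g p) else 0 := by
  have : ∑ α, v (xv p H α) = 0 := Finset.sum_eq_zero (fun α _ => hx H α)
  rw [rd, this, zero_add]

/-- The case of a position without equation `e`. -/
theorem closure_A (hS : Nice S Tru) (hW : Tw S Tru Dl bs Hs) {v1 v2 : Vec k xe F Hub Gad}
    {ρ1 ρ2 : ZMod 2} (g1 : S.Good Tru bs Hs p0 v1 ρ1) (g2 : S.Good Tru bs Hs p0 v2 ρ2)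
    {T : Finset (GItem S)} (hT : T.card ≤ 2 * k + xe + 1) (s1 : S.SupT T v1) (s2 : S.SupT T v2)
    {p : Pos k xe} (hno : ∀ c ∈ T, ∀ b β h, c ≠ GItem.e p b β h) :
    S.Good Tru bs Hs p0 (v1 + v2) (ρ1 + ρ2) := by
  have hinv : S.Inv (v1 + v2) := g1.1.add g2.1
  have hsup : S.SupT T (v1 + v2) := supT_add s1 s2
  set v := v1 + v2 with hv
  have hx : ∀ H α, v (xv p H α) = 0 := by
    intro H α
    by_contra h
    obtain ⟨c, hc, hd⟩ := hsup _ h
    cases c with
    | e q b β hb =>
      rcases mem_gvars_e.1 hd with h1 | ⟨H', _, h2⟩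
      · exact xv_ne_yv h1
      · obtain ⟨rfl, _, _⟩ := xv_inj h2
        exact hno _ hc _ _ _ rfl
    | h b =>
      obtain ⟨_, h1⟩ := mem_gvars_h.1 hd
      exact xv_ne_yv h1
  have hy : ∀ g, v (yv g p) ≠ 0 → GItem.h g ∈ T := by
    intro g h
    obtain ⟨c, hc, hd⟩ := hsup _ h
    cases c with
    | e q b β hb =>
      rcases mem_gvars_e.1 hd with h1 | ⟨H', _, h2⟩
      · obtain ⟨_, rfl⟩ := yv_inj h1
        exact (hno _ hc _ _ _ rfl).elim
      · exact (xv_ne_yv h2.symm).elim
    | h b =>
      obtain ⟨_, h1⟩ := mem_gvars_h.1 hd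
      obtain ⟨rfl, _⟩ := yv_inj h1
      exact hc
  refine ⟨hinv, ?_, ?_⟩
  · -- truth of the readings
    intro D hc s L r
    have ht : ∃ g2, (∀ g, v (yv g p) ≠ 0 → g = D.bp p ∨ g = g2) ∧
        ∀ b', D.extra = some (GItem.h b') → g2 = b' := by
      cases he : D.extra with
      | none =>
        refine ⟨D.bp p, ?_, fun b' h => by simp at h⟩
        intro g h
        rcases hc _ h with ⟨q, hq⟩ | ⟨c, he', hq⟩
        · rcases mem_gvars_e.1 hq with h1 | ⟨H', _, h2⟩
          · obtain ⟨rfl, rfl⟩ := yv_inj h1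
            exact Or.inl rfl
          · exact (xv_ne_yv h2.symm).elim
        · rw [he] at he'
          simp at he'
      | some c0 =>
        obtain ⟨g2, hg2, hg3⟩ : ∃ g2, (∀ d, d ∈ S.gvars c0 → ∀ g, d = yv g p → g = g2) ∧
            ∀ b', c0 = GItem.h b' → g2 = b' := by
          cases c0 with
          | e q b β hb =>
            refine ⟨b, ?_, fun b' h => by simp at h⟩
            intro d hd g hg
            subst hg
            rcases mem_gvars_e.1 hd with h1 | ⟨H', _, h2⟩
            · exact (yv_inj h1).1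
            · exact (xv_ne_yv h2.symm).elim
          | h b =>
            refine ⟨b, ?_, fun b' h => by injection h⟩
            intro d hd g hg
            subst hg
            obtain ⟨_, h1⟩ := mem_gvars_h.1 hd
            exact (yv_inj h1).1
        refine ⟨g2, ?_, ?_⟩
        · intro g h
          rcases hc _ h with ⟨q, hq⟩ | ⟨c, he', hq⟩
          · rcases mem_gvars_e.1 hq with h1 | ⟨H', _, h2⟩
            · obtain ⟨rfl, rfl⟩ := yv_inj h1
              exact Or.inl rfl
            · exact (xv_ne_yv h2.symm).elim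
          · right
            rw [he] at he'
            have e2 := Option.some.inj he'
            subst e2
            exact hg2 _ hq g rfl
        · intro b' h
          exact hg3 b' (Option.some.inj h)
    obtain ⟨g2, hg2, hg3⟩ := ht
    -- the values
    obtain ⟨τ1, τ2, hτ⟩ : ∃ τ1 τ2 : ZMod 2, ∀ H, (S.st p0 v).1 H =
        τ1 * (S.gam (D.bp p)).1 H + τ2 * (S.gam g2).1 H := by
      by_cases e : D.bp p = g2
      · refine ⟨v (yv g2 p), 0, fun H => ?_⟩
        rw [hinv.st_fst p0 p, rd_tokens hx, gam_fst, Finset.sum_eq_single g2, e]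
        · split_ifs <;> simp
        · intro g _ hg
          have : v (yv g p) = 0 := by
            by_contra h3
            rcases hg2 g h3 with h4 | h4
            · rw [e] at h4
              exact hg h4
            · exact hg h4
          simp [this]
        · intro h3
          exact (h3 (Finset.mem_univ _)).elim
      · refine ⟨v (yv (D.bp p) p), v (yv g2 p), fun H => ?_⟩
        rw [hinv.st_fst p0 p, rd_tokens hx, gam_fst, gam_fst, Fintype.sum_eq_add _ _ e]
        · split_ifs <;> simp
        · rintro g ⟨h3, h4⟩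
          have : v (yv g p) = 0 := by
            by_contra h5
            rcases hg2 g h5 with h6 | h6
            · exact h3 h6
            · exact h4 h6
          simp [this]
    rcases r with rfl | ⟨b', he, rfl⟩
    · exact hS.caseA L hτ
    · have e := hg3 b' he
      subst e
      refine hS.caseA (g1 := D.bp p) (g2 := g2) (τ1 := τ1) (τ2 := τ2 + 1) L (fun H => ?_)
      rw [Nice.fst_add, hτ, add_mul, one_mul, add_assoc]
  · -- the witness
    let U : Finset Gad := Finset.univ.filter (fun g => v (yv g p) ≠ 0)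
    refine wit_final p0 hW g1.2.2 g2.2.2 (R := 0) (U := U) (Or.inl rfl) ?_ ?_
    · have h1 : U.card ≤ T.card := by
        apply Finset.card_le_card_of_injOn (fun g => GItem.h g)
        · intro g hg
          exact hy g (Finset.mem_filter.1 hg).2
        · intro g _ g' _ e
          injection e
      omega
    · intro H
      rw [hinv.1 p0 p, rd_tokens hx]
      simp only [Pi.zero_apply, zero_add, hs]
      rw [Finset.sum_filter]
      apply Finset.sum_congr rfl
      intro g _
      by_cases h1 : v (yv g p) = 0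
      · simp [h1]
      · have h2 := zmod2_ne0' h1
        simp [h2]

/-- A good equation has a true reading at a choice covering it. -/
theorem read_true (hS : Nice S Tru) {v : Vec k xe F Hub Gad} {ρ : ZMod 2}
    (g : S.Good Tru bs Hs p0 v ρ) {D : Data S} (hc : S.Cov D v) :
    ∃ s, D.Local s ∧ S.IsRead p0 D v s ∧ S.TrPos Tru s := by
  rcases hS.reading g.1 p0 hc with h | ⟨b', he, h, _⟩
  · exact ⟨_, h, Or.inl rfl, g.2.1 D hc _ h (Or.inl rfl)⟩
  · exact ⟨_, h, Or.inr ⟨b', he, rfl⟩, g.2.1 D hc _ h (Or.inr ⟨b', he, rfl⟩)⟩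

theorem IsRead.add {D : Data S} {v1 v2 : Vec k xe F Hub Gad} {s1 s2 : State k F Hub}
    (r1 : S.IsRead p0 D v1 s1) (r2 : S.IsRead p0 D v2 s2) : S.IsRead p0 D (v1 + v2) (s1 + s2) := by
  rcases r1 with rfl | ⟨b1, he1, rfl⟩ <;> rcases r2 with rfl | ⟨b2, he2, rfl⟩
  · exact Or.inl (st_add p0 v1 v2).symm
  · refine Or.inr ⟨b2, he2, ?_⟩
    rw [st_add]
    abel
  · refine Or.inr ⟨b1, he1, ?_⟩
    rw [st_add]
    abel
  · have e : b1 = b2 := by
      rw [he1] at he2
      have := Option.some.inj he2
      injection this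
    subst e
    left
    rw [st_add]
    linear_combination (norm := abel) state_self (S.gam b1)

/-- The case of a set of equations containing one at each position. -/
theorem closure_B (hS : Nice S Tru) (hW : Tw S Tru Dl bs Hs) {v1 v2 : Vec k xe F Hub Gad}
    {ρ1 ρ2 : ZMod 2} (g1 : S.Good Tru bs Hs p0 v1 ρ1) (g2 : S.Good Tru bs Hs p0 v2 ρ2)
    {T : Finset (GItem S)} (hT : T.card ≤ 2 * k + xe + 1) (s1 : S.SupT T v1) (s2 : S.SupT T v2)
    (hB : ∀ p : Pos k xe, ∃ c ∈ T, ∃ b β h, c = GItem.e p b β h) :
    S.Good Tru bs Hs p0 (v1 + v2) (ρ1 + ρ2) := by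
  choose cc hcc b β h hee using hB
  let I : Finset (GItem S) := Finset.univ.image (fun p => GItem.e p (b p) (β p) (h p))
  have hIT : I ⊆ T := by
    intro c hc
    obtain ⟨p, _, rfl⟩ := Finset.mem_image.1 hc
    rw [← hee p]
    exact hcc p
  have hIcard : I.card = 2 * k + xe := by
    rw [Finset.card_image_of_injective]
    · rw [Finset.card_univ]
      exact Pos.card_eq hS.pos
    · intro p p' e
      injection e
  have hrest : (T \ I).card ≤ 1 := by
    rw [Finset.card_sdiff_of_subset hIT]
    omega
  obtain ⟨ex, hex⟩ : ∃ ex : Option (GItem S), ∀ c ∈ T, c ∉ I → ex = some c := by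
    by_cases hne : (T \ I).Nonempty
    · obtain ⟨c0, hc0⟩ := hne
      refine ⟨some c0, fun c hc hcI => ?_⟩
      have : c ∈ T \ I := Finset.mem_sdiff.2 ⟨hc, hcI⟩
      rw [Finset.card_le_one.1 hrest c0 hc0 c this]
    · refine ⟨none, fun c hc hcI => ?_⟩
      exact (hne ⟨c, Finset.mem_sdiff.2 ⟨hc, hcI⟩⟩).elim
  let D : Data S := ⟨b, β, h, ex⟩
  have hcov : ∀ v : Vec k xe F Hub Gad, S.SupT T v → S.Cov D v := by
    intro v hv d hd
    obtain ⟨c, hc, hdc⟩ := hv d hd
    by_cases hcI : c ∈ I
    · obtain ⟨p, _, rfl⟩ := Finset.mem_image.1 hcI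
      exact Or.inl ⟨p, hdc⟩
    · exact Or.inr ⟨c, hex c hc hcI, hdc⟩
  obtain ⟨x1, L1, r1, t1⟩ := read_true p0 hS g1 (hcov v1 s1)
  obtain ⟨x2, L2, r2, t2⟩ := read_true p0 hS g2 (hcov v2 s2)
  have L := L1.add L2
  have r := IsRead.add p0 r1 r2
  have t := hS.step L1 L2 t1 t2
  have hinv : S.Inv (v1 + v2) := g1.1.add g2.1
  have hc := hcov _ (supT_add s1 s2)
  refine ⟨hinv, ?_, ?_⟩
  · intro D'' hc'' s'' L'' r''
    exact transfer p0 hS hinv hc hc'' L L'' r r'' t
  · obtain ⟨R, U, hR, hU, e⟩ := wit_of_tr t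
    rcases r with r | ⟨b', _, r⟩
    · refine wit_final p0 hW g1.2.2 g2.2.2 (U := U) hR (by omega) (fun H => ?_)
      rw [← e, r]
      rfl
    · refine wit_final p0 hW g1.2.2 g2.2.2 (U := symmDiff U {b'}) hR ?_ (fun H => ?_)
      · have := card_sd U {b'}
        simp only [Finset.card_singleton] at this
        omega
      · rw [hs_symmDiff, ← add_assoc, ← e, r]
        have e2 : S.hs {b'} H = (S.gam b').1 H := by
          rw [gam_fst]
          simp only [hs, Finset.sum_singleton]
        rw [e2, fst_add, add_assoc]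
        have e3 : (S.gam b').1 H + (S.gam b').1 H = 0 := zmod2_self' _
        rw [e3, add_zero]
        rfl

/-- The closure of good equations under sums inside a small set of equations. -/
theorem closure (hS : Nice S Tru) (hW : Tw S Tru Dl bs Hs) {v1 v2 : Vec k xe F Hub Gad}
    {ρ1 ρ2 : ZMod 2} (g1 : S.Good Tru bs Hs p0 v1 ρ1) (g2 : S.Good Tru bs Hs p0 v2 ρ2)
    {T : Finset (GItem S)} (hT : T.card ≤ 2 * k + xe + 1) (s1 : S.SupT T v1) (s2 : S.SupT T v2) :
    S.Good Tru bs Hs p0 (v1 + v2) (ρ1 + ρ2) := by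
  by_cases hB : ∀ p : Pos k xe, ∃ c ∈ T, ∃ b β h, c = GItem.e p b β h
  · exact closure_B p0 hS hW g1 g2 hT s1 s2 hB
  · have hB' : ∃ p : Pos k xe, ∀ c ∈ T, ∀ b β h, c ≠ GItem.e p b β h := by
      by_contra h'
      apply hB
      intro p
      by_contra h''
      apply h'
      refine ⟨p, ?_⟩
      intro c hc b β h e
      exact h'' ⟨c, hc, b, β, h, e⟩
    obtain ⟨p, hp⟩ := hB'
    exact closure_A p0 hS hW g1 g2 hT s1 s2 hp

/-- No contradiction is good. -/
theorem good_no (hW : Tw S Tru Dl bs Hs) : ¬ S.Good Tru bs Hs p0 0 1 := by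
  rintro ⟨_, _, R, U, hR, hU, e, r⟩
  have hrd0 : ∀ H, S.rd (0 : Vec k xe F Hub Gad) p0 H = 0 := by
    intro H
    simp [rd]
  have key := hW.key U R (by omega) (by
    rcases hR with rfl | ⟨H0, c0, t, rfl⟩
    · intro H _
      rfl
    · intro H hH
      apply phi_ne
      rintro rfl
      exact hW.tru_dl _ _ t hH) (by
    intro H
    have := e H
    rw [hrd0] at this
    generalize R H = a at *
    generalize S.hs U H = b at *
    revert a b
    decide)
  rw [hrd0] at r
  unfold ind at r
  rw [if_neg key] at r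
  simp at r

/-- The vector of an equation. -/
noncomputable def vc (c : GItem S) : Vec k xe F Hub Gad := fun d => if d ∈ S.gvars c then 1 else 0

/-- The equations `h`. -/
theorem good_h (hS : Nice S Tru) (hW : Tw S Tru Dl bs Hs) (b : Gad) :
    S.Good Tru bs Hs p0 (vc (S := S) (GItem.h b)) (S.gtw (GItem.h b)) := by
  set v : Vec k xe F Hub Gad := vc (S := S) (GItem.h b) with hv
  have hx : ∀ q H α, v (xv q H α) = 0 := by
    intro q H α
    simp only [hv, vc]
    rw [if_neg]
    intro h
    obtain ⟨_, h1⟩ := mem_gvars_h.1 h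
    exact xv_ne_yv h1
  have hy : ∀ g q, v (yv g q) = if g = b then 1 else 0 := by
    intro g q
    simp only [hv, vc]
    by_cases e : g = b
    · subst e
      rw [if_pos rfl, if_pos]
      exact mem_gvars_h.2 ⟨q, rfl⟩
    · rw [if_neg e, if_neg]
      intro h
      obtain ⟨_, h1⟩ := mem_gvars_h.1 h
      exact e (yv_inj h1).1
  have hrd : ∀ q H, S.rd v q H = (S.gam b).1 H := by
    intro q H
    rw [rd_tokens (fun H α => hx q H α), Finset.sum_eq_single b, hy, if_pos rfl, gam_fst]
    · intro g _ hg
      rw [hy, if_neg hg]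
      simp
    · intro h
      exact (h (Finset.mem_univ _)).elim
  have hkd : ∀ q t, S.kd v q t = (S.gam b).2 t q.1 := by
    intro q t
    have e1 : ∑ H, (if S.ty H ≠ t then ∑ α, v (xv q H α) • α else 0) = 0 := by
      apply Finset.sum_eq_zero
      intro H _
      have : ∑ α, v (xv q H α) • α = 0 :=
        Finset.sum_eq_zero (fun α _ => by rw [hx, zero_smul])
      rw [this]
      simp
    rw [kd, e1, zero_add, Finset.sum_eq_single b, hy, if_pos rfl, one_smul]
    · intro g _ hg
      rw [hy, if_neg hg, zero_smul]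
    · intro h
      exact (h (Finset.mem_univ _)).elim
  have hst : S.st p0 v = S.gam b := by
    apply Prod.ext
    · funext H
      exact hrd p0 H
    · funext t i
      exact hkd (Pos.pl i) t
  refine ⟨⟨fun p p' H => by rw [hrd, hrd], fun p p' t e => by rw [hkd, hkd, e]⟩, ?_, ?_⟩
  · rintro D _ s L (rfl | ⟨b', _, rfl⟩)
    · rw [hst]
      exact tr_gam b
    · rw [hst] at L ⊢
      exact hS.case_two L rfl
  · refine ⟨0, {b}, Or.inl rfl, by simp, fun H => ?_, ?_⟩
    · rw [hrd, gam_fst]
      simp only [hs, Finset.sum_singleton, Pi.zero_apply, zero_add]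
    · rw [hrd, gam_fst]
      simp only [gtw, ind, Finset.mem_singleton]
      by_cases e1 : b = S.twist
      · subst e1
        rw [if_pos rfl, if_pos hW.twist_star, if_neg (fun e => hW.ne e.symm), add_zero]
      · by_cases e2 : b = bs
        · subst e2
          rw [if_neg e1, if_pos hW.bs_star, if_pos rfl]
          rfl
        · have : Hs ∉ S.hubs b := fun h => by
            rcases hW.star b h with h1 | h1
            · exact e1 h1
            · exact e2 h1
          rw [if_neg e1, if_neg this, if_neg (fun e => e2 e.symm), add_zero]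

/-- The equations `e`. -/
theorem good_e (hS : Nice S Tru) (p : Pos k xe) (b : Gad) (β : F) (hb : S.allow b p.1 β) (bs' : Gad)
    (Hs' : Hub) : S.Good Tru bs' Hs' p0 (vc (GItem.e p b β hb)) (S.gtw (GItem.e p b β hb)) := by
  set v : Vec k xe F Hub Gad := vc (GItem.e p b β hb) with hv
  have hx : ∀ q H α, v (xv q H α) ≠ 0 → q = p ∧ H ∈ S.hubs b ∧ α = β + S.off b H p.1 := by
    intro q H α h
    simp only [hv, vc] at h
    have h1 : xv q H α ∈ S.gvars (GItem.e p b β hb) := by
      by_contra h2
      exact h (if_neg h2)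
    rcases mem_gvars_e.1 h1 with h2 | ⟨H', h3, h2⟩
    · exact (xv_ne_yv h2).elim
    · obtain ⟨rfl, rfl, rfl⟩ := xv_inj h2
      exact ⟨rfl, h3, rfl⟩
  have hx1 : ∀ H, H ∈ S.hubs b → v (xv p H (β + S.off b H p.1)) = 1 := by
    intro H hH
    simp only [hv, vc]
    rw [if_pos]
    exact mem_gvars_e.2 (Or.inr ⟨H, hH, rfl⟩)
  have hy : ∀ g q, v (yv g q) ≠ 0 → g = b ∧ q = p := by
    intro g q h
    simp only [hv, vc] at h
    have h1 : yv g q ∈ S.gvars (GItem.e p b β hb) := by
      by_contra h2
      exact h (if_neg h2)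
    rcases mem_gvars_e.1 h1 with h2 | ⟨H', h3, h2⟩
    · exact yv_inj h2
    · exact (xv_ne_yv h2.symm).elim
  have hy1 : v (yv b p) = 1 := by
    simp only [hv, vc]
    rw [if_pos]
    exact mem_gvars_e.2 (Or.inl rfl)
  have hrd : ∀ q H, S.rd v q H = 0 := by
    intro q H
    by_cases hq : q = p
    · subst hq
      have e1 : ∑ α, v (xv q H α) = if H ∈ S.hubs b then 1 else 0 := by
        split_ifs with hH
        · rw [Finset.sum_eq_single (β + S.off b H q.1), hx1 H hH]
          · intro α _ hα
            by_contra h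
            exact hα (hx _ _ _ h).2.2
          · intro h
            exact (h (Finset.mem_univ _)).elim
        · apply Finset.sum_eq_zero
          intro α _
          by_contra h
          exact hH (hx _ _ _ h).2.1
      have e2 : (∑ g, if H ∈ S.hubs g then v (yv g q) else 0) = if H ∈ S.hubs b then 1 else 0 := by
        rw [Finset.sum_eq_single b, hy1]
        · intro g _ hg
          have : v (yv g q) = 0 := by
            by_contra h
            exact hg (hy _ _ h).1
          simp [this]
        · intro h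
          exact (h (Finset.mem_univ _)).elim
      rw [rd, e1, e2]
      exact zmod2_self' _
    · have e1 : ∑ α, v (xv q H α) = 0 := by
        apply Finset.sum_eq_zero
        intro α _
        by_contra h
        exact hq (hx _ _ _ h).1
      have e2 : (∑ g, if H ∈ S.hubs g then v (yv g q) else 0) = 0 := by
        apply Finset.sum_eq_zero
        intro g _
        have : v (yv g q) = 0 := by
          by_contra h
          exact hq (hy _ _ h).2
        simp [this]
      rw [rd, e1, e2, add_zero]
  have hkd : ∀ q t, S.kd v q t = 0 := by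
    intro q t
    by_cases hq : q = p
    · subst hq
      have h1 := hS.LA_of_read (v := v) (p := q) (b := b) (β := β)
        (s := (fun H => S.rd v q H, fun t i => S.kd v q t)) (fun H => rfl) (fun t => rfl) hb
        (fun H α h => (hx _ _ _ h).2) (fun g h => (hy _ _ h).1)
      have h2 := h1.2 t
      simp only [hrd, zero_smul] at h2
      rw [h2]
      simp
    · have e1 : ∑ H, (if S.ty H ≠ t then ∑ α, v (xv q H α) • α else 0) = 0 := by
        apply Finset.sum_eq_zero
        intro H _
        have : ∑ α, v (xv q H α) • α = 0 := by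
          apply Finset.sum_eq_zero
          intro α _
          have : v (xv q H α) = 0 := by
            by_contra h
            exact hq (hx _ _ _ h).1
          rw [this, zero_smul]
        rw [this]
        simp
      have e2 : ∑ g, v (yv g q) • (S.gam g).2 t q.1 = 0 := by
        apply Finset.sum_eq_zero
        intro g _
        have : v (yv g q) = 0 := by
          by_contra h
          exact hq (hy _ _ h).2
        rw [this, zero_smul]
      rw [kd, e1, e2, add_zero]
  have hst : S.st p0 v = 0 := by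
    apply Prod.ext
    · funext H
      exact hrd p0 H
    · funext t i
      exact hkd (Pos.pl i) t
  refine ⟨⟨fun p p' H => by rw [hrd, hrd], fun p p' t e => by rw [hkd, hkd]⟩, ?_, ?_⟩
  · rintro D _ s L (rfl | ⟨b', _, rfl⟩)
    · rw [hst]
      exact tr_zero
    · rw [hst, zero_add]
      exact tr_gam b'
  · refine ⟨0, ∅, Or.inl rfl, by simp, fun H => ?_, ?_⟩
    · rw [hrd]
      simp [hs]
    · rw [hrd]
      simp [gtw, ind]

end Nice

end Vale.Agent.P310y
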