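import Vale.Agent.P310y.Defs

/-!
# Alternating word programs, and the gadget system of a program

A program has `q` states and `n` rules and works on words of `k` letters from a finite group `F` of
exponent `2`. A rule `r` says: state `par r` accepts the word `c`, if each letter `c i` passes the
test `guard r i`, state `ch1 r` accepts `c + δ1 r`, and state `ch2 r` accepts `c + δ2 r`.
State `acc` accepts the word `cB`. The question is whether state `s0` accepts the word `c0`.
-/

namespace Vale.Agent.P310y

open Function

open scoped Classical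

variable {k xe q n : ℕ} {F : Type}

/-- The tags of the hubs: original states, copies of states, children of rules, rules, the base
and the delay line. -/
inductive Tag (q n k xe : ℕ) : Type
  | orig (t : Fin q) : Tag q n k xe
  | cp (t : Fin q) (i : Fin (2 * n + 3)) : Tag q n k xe
  | use (r : Fin (n + 1)) (s : Bool) : Tag q n k xe
  | prv (r : Fin n) : Tag q n k xe
  | base : Tag q n k xe
  | dly (j : Fin (6 * k + 3 * xe + 12)) : Tag q n k xe

/-- The kinds of gadgets with three hubs. -/
inductive Lam (q n k xe : ℕ) : Type
  | orR (r : Fin n) : Lam q n k xe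
  | andR (r : Fin n) : Lam q n k xe
  | cz (t : Fin q) : Lam q n k xe
  | cs (t : Fin q) (i : Fin (2 * n + 2)) : Lam q n k xe
  | us (r : Fin (n + 1)) (s : Bool) : Lam q n k xe
  | bas : Lam q n k xe
  | del (j : Fin (6 * k + 3 * xe + 11)) : Lam q n k xe
  | las : Lam q n k xe

/-- The gadgets: three for each kind, one for each type on the base, and the twisted one. -/
inductive Gad (q n k xe : ℕ) : Type
  | tri (l : Lam q n k xe) (τ : Fin 3) : Gad q n k xe
  | mono (τ : Fin 3) : Gad q n k xe
  | tw : Gad q n k xe

instance instFiniteTag : Finite (Tag q n k xe) :=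
  Finite.of_injective
    (fun x : Tag q n k xe => match x with
      | .orig t => (Sum.inl t : Fin q ⊕ (Fin q × Fin (2 * n + 3)) ⊕ (Fin (n + 1) × Bool) ⊕ Fin n ⊕
          Unit ⊕ Fin (6 * k + 3 * xe + 12))
      | .cp t i => Sum.inr (Sum.inl (t, i))
      | .use r s => Sum.inr (Sum.inr (Sum.inl (r, s)))
      | .prv r => Sum.inr (Sum.inr (Sum.inr (Sum.inl r)))
      | .base => Sum.inr (Sum.inr (Sum.inr (Sum.inr (Sum.inl ()))))
      | .dly j => Sum.inr (Sum.inr (Sum.inr (Sum.inr (Sum.inr j)))))
    (by
      intro x y h
      cases x <;> cases y <;> simp_all)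

instance instFiniteLam : Finite (Lam q n k xe) :=
  Finite.of_injective
    (fun x : Lam q n k xe => match x with
      | .orR r => (Sum.inl r : Fin n ⊕ Fin n ⊕ Fin q ⊕ (Fin q × Fin (2 * n + 2)) ⊕
          (Fin (n + 1) × Bool) ⊕ Unit ⊕ Fin (6 * k + 3 * xe + 11) ⊕ Unit)
      | .andR r => Sum.inr (Sum.inl r)
      | .cz t => Sum.inr (Sum.inr (Sum.inl t))
      | .cs t i => Sum.inr (Sum.inr (Sum.inr (Sum.inl (t, i))))
      | .us r s => Sum.inr (Sum.inr (Sum.inr (Sum.inr (Sum.inl (r, s)))))
      | .bas => Sum.inr (Sum.inr (Sum.inr (Sum.inr (Sum.inr (Sum.inl ())))))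
      | .del j => Sum.inr (Sum.inr (Sum.inr (Sum.inr (Sum.inr (Sum.inr (Sum.inl j))))))
      | .las => Sum.inr (Sum.inr (Sum.inr (Sum.inr (Sum.inr (Sum.inr (Sum.inr ())))))))
    (by
      intro x y h
      cases x <;> cases y <;> simp_all)

noncomputable instance instFintypeLam : Fintype (Lam q n k xe) := Fintype.ofFinite _

instance instFiniteGad : Finite (Gad q n k xe) :=
  Finite.of_injective
    (fun x : Gad q n k xe => match x with
      | .tri l τ => (Sum.inl (l, τ) : (Lam q n k xe × Fin 3) ⊕ Fin 3 ⊕ Unit)
      | .mono τ => Sum.inr (Sum.inl τ)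
      | .tw => Sum.inr (Sum.inr ()))
    (by
      intro x y h
      cases x <;> cases y <;> simp_all)

noncomputable instance instFintypeGad : Fintype (Gad q n k xe) := Fintype.ofFinite _

noncomputable instance instFintypeTag : Fintype (Tag q n k xe) := Fintype.ofFinite _

/-- An alternating word program with words of `k` letters from `F`, `q` states and `n` rules. -/
structure Prog (k xe q n : ℕ) (F : Type) where
  par : Fin n → Fin q
  ch1 : Fin n → Fin q
  ch2 : Fin n → Fin q
  guard : Fin n → Fin k → F → Prop
  δ1 : Fin n → Fin k → F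
  δ2 : Fin n → Fin k → F
  acc : Fin q
  cB : Fin k → F
  s0 : Fin q
  c0 : Fin k → F
  cd : (Pos k xe × Gad q n k xe × F) ⊕ Gad q n k xe → ℕ
  cd_inj : Function.Injective cd
  gap : ℕ

/-- Acceptance: the least relation with the rules of the program. -/
inductive Prog.Acc [Add F] (P : Prog k xe q n F) : Fin q → (Fin k → F) → Prop
  | base : Prog.Acc P P.acc P.cB
  | step (r : Fin n) (c : Fin k → F) : (∀ i, P.guard r i (c i)) →
      Prog.Acc P (P.ch1 r) (fun i => c i + P.δ1 r i) →
      Prog.Acc P (P.ch2 r) (fun i => c i + P.δ2 r i) →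
      Prog.Acc P (P.par r) c

/-- The number of a copy used by a child of a rule. -/
def idx (r : Fin (n + 1)) (s : Bool) : Fin (2 * n + 3) :=
  ⟨2 * r.val + (if s then 1 else 0) + 1, by
    have := r.isLt
    split_ifs <;> omega⟩

namespace Prog

variable (P : Prog k xe q n F)

/-- The state of a child of a rule; the last rule has the start state for its children. -/
def src (r : Fin (n + 1)) (s : Bool) : Fin q :=
  if h : r.val < n then (if s then P.ch2 ⟨r.val, h⟩ else P.ch1 ⟨r.val, h⟩) else P.s0

/-- The first tag of a kind of gadgets. -/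
def tA : Lam q n k xe → Tag q n k xe
  | .orR r => .orig (P.par r)
  | .andR r => .prv r
  | .cz t => .cp t ⟨0, by omega⟩
  | .cs t i => .cp t i.succ
  | .us r s => .use r s
  | .bas => .orig P.acc
  | .del j => .dly j.castSucc
  | .las => .dly (Fin.last _)

/-- The second tag of a kind of gadgets. -/
def tB : Lam q n k xe → Tag q n k xe
  | .orR r => .prv r
  | .andR r => .use r.castSucc false
  | .cz t => .orig t
  | .cs t i => .cp t i.castSucc
  | .us r s => .orig (P.src r s)
  | .bas => .base
  | .del j => .dly j.succ
  | .las => .use (Fin.last n) false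

/-- The third tag of a kind of gadgets. -/
def tC : Lam q n k xe → Tag q n k xe
  | .orR r => .prv r
  | .andR r => .use r.castSucc true
  | .cz t => .orig t
  | .cs t i => .cp t i.castSucc
  | .us r s => .cp (P.src r s) (idx r s)
  | .bas => .base
  | .del j => .dly j.succ
  | .las => .use (Fin.last n) true

/-- The tags in cyclic order. -/
def slotTag (l : Lam q n k xe) : Fin 3 → Tag q n k xe := ![P.tA l, P.tC l, P.tB l]

variable [AddCommGroup F]

/-- The offset of the second tag. -/
def oB : Lam q n k xe → Fin k → F
  | .andR r => P.δ1 r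
  | _ => 0

/-- The offset of the third tag. -/
def oC : Lam q n k xe → Fin k → F
  | .andR r => P.δ2 r
  | _ => 0

/-- The offsets in cyclic order. -/
def slotOff (l : Lam q n k xe) : Fin 3 → Fin k → F := ![0, P.oC l, P.oB l]

/-- The allowed letters of a kind of gadgets. -/
def lamAllow : Lam q n k xe → Fin k → F → Prop
  | .andR r, i, β => P.guard r i β
  | .bas, i, β => β = P.cB i
  | .del _, i, β => β = P.c0 i
  | .las, i, β => β = P.c0 i
  | _, _, _ => True

/-- The gadget system of a program: hubs are a type with a tag; the gadget `tri l τ` has the hub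
`(j, slotTag l (j - τ))` of each type `j`, with the offset `slotOff l (j - τ)`; `mono τ` has the one hub
`(τ, base)` with offset `cB`; `tw` has the one hub `(0, dly 0)` with offset `c0`. -/
noncomputable def gs : GS k xe F (Fin 3 × Tag q n k xe) (Gad q n k xe) where
  ty H := H.1
  hubs
    | .tri l τ => Finset.univ.image fun j => (j, P.slotTag l (j - τ))
    | .mono τ => {(τ, Tag.base)}
    | .tw => {(0, Tag.dly ⟨0, by omega⟩)}
  off
    | .tri l τ => fun H => P.slotOff l (H.1 - τ)
    | .mono _ => fun _ => P.cB
    | .tw => fun _ => P.c0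
  allow
    | .tri l _ => P.lamAllow l
    | .mono _ => fun _ β => β = 0
    | .tw => fun _ β => β = 0
  twist := .tw
  cd := P.cd
  cd_inj := P.cd_inj
  gap := P.gap

end Prog

end Vale.Agent.P310y
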