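import Vale.Agent.P310y.Forms

set_option linter.unusedSectionVars false
set_option linter.unusedVariables false

namespace Vale.Agent.P310y

open Function

open scoped Classical

variable {k xe : ℕ} {F Hub Gad : Type} [AddCommGroup F] [Module (ZMod 2) F] [Fintype F] [Fintype Hub]
  [Fintype Gad]

namespace GS

variable (S : GS k xe F Hub Gad)

/-- A vector on the variables. -/
abbrev Vec (k xe : ℕ) (F Hub Gad : Type) : Type := GVar k xe F Hub Gad → ZMod 2

/-- The reading of a vector at a position and a hub. -/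
noncomputable def rd (v : Vec k xe F Hub Gad) (p : Pos k xe) (H : Hub) : ZMod 2 :=
  ∑ α, v (xv p H α) + ∑ b, if H ∈ S.hubs b then v (yv b p) else 0

/-- The word read at a position for a type. -/
noncomputable def kd (v : Vec k xe F Hub Gad) (p : Pos k xe) (t : Fin 3) : F :=
  ∑ H, (if S.ty H ≠ t then ∑ α, v (xv p H α) • α else 0) + ∑ b, v (yv b p) • (S.gam b).2 t p.1

/-- The state of a vector, read at the position `p0` and at the first copies. -/
noncomputable def st (p0 : Pos k xe) (v : Vec k xe F Hub Gad) : State k F Hub :=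
  (fun H => S.rd v p0 H, fun t i => S.kd v (Pos.pl i) t)

/-- The invariance of a vector. -/
def Inv (v : Vec k xe F Hub Gad) : Prop :=
  (∀ p p' H, S.rd v p H = S.rd v p' H) ∧ ∀ p p' t, p.1 = p'.1 → S.kd v p t = S.kd v p' t

/-- All variables of a vector are in the equations of a choice. -/
def Cov (D : Data S) (v : Vec k xe F Hub Gad) : Prop :=
  ∀ d, v d ≠ 0 → (∃ p, d ∈ S.gvars (GItem.e p (D.bp p) (D.βp p) (D.ok p))) ∨
    ∃ c, D.extra = some c ∧ d ∈ S.gvars c

variable {S}

theorem rd_add (v w : Vec k xe F Hub Gad) (p : Pos k xe) (H : Hub) :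
    S.rd (v + w) p H = S.rd v p H + S.rd w p H := by
  simp only [rd, Pi.add_apply, Finset.sum_add_distrib]
  have e : ∀ b, (if H ∈ S.hubs b then v (yv b p) + w (yv b p) else 0) =
      (if H ∈ S.hubs b then v (yv b p) else 0) + (if H ∈ S.hubs b then w (yv b p) else 0) := by
    intro b
    split_ifs <;> simp
  simp only [e, Finset.sum_add_distrib]
  abel

theorem kd_add (v w : Vec k xe F Hub Gad) (p : Pos k xe) (t : Fin 3) :
    S.kd (v + w) p t = S.kd v p t + S.kd w p t := by
  simp only [kd, Pi.add_apply, add_smul, Finset.sum_add_distrib]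
  have e : ∀ H, (if S.ty H ≠ t then ∑ α, v (xv p H α) • α + ∑ α, w (xv p H α) • α else 0) =
      (if S.ty H ≠ t then ∑ α, v (xv p H α) • α else 0) +
        (if S.ty H ≠ t then ∑ α, w (xv p H α) • α else 0) := by
    intro H
    split_ifs <;> simp
  simp only [e, Finset.sum_add_distrib]
  abel

theorem st_add (p0 : Pos k xe) (v w : Vec k xe F Hub Gad) : S.st p0 (v + w) = S.st p0 v + S.st p0 w := by
  apply Prod.ext
  · funext H
    exact rd_add v w p0 H
  · funext t i
    exact kd_add v w (Pos.pl i) t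

theorem Inv.add {v w : Vec k xe F Hub Gad} (hv : S.Inv v) (hw : S.Inv w) : S.Inv (v + w) := by
  constructor
  · intro p p' H
    rw [rd_add, rd_add, hv.1 p p', hw.1 p p']
  · intro p p' t e
    rw [kd_add, kd_add, hv.2 p p' t e, hw.2 p p' t e]

theorem Inv.st_fst {v : Vec k xe F Hub Gad} (hv : S.Inv v) (p0 p : Pos k xe) (H : Hub) :
    (S.st p0 v).1 H = S.rd v p H := hv.1 p0 p H

theorem Inv.st_snd {v : Vec k xe F Hub Gad} (hv : S.Inv v) (p0 p : Pos k xe) (t : Fin 3) :
    (S.st p0 v).2 t p.1 = S.kd v p t := by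
  exact hv.2 (Pos.pl p.1) p t rfl

omit [Module (ZMod 2) F] [Fintype F] [Fintype Hub] in
theorem mem_gvars_e {p : Pos k xe} {b : Gad} {β : F} {h : S.allow b p.1 β} {d : GVar k xe F Hub Gad} :
    d ∈ S.gvars (GItem.e p b β h) ↔ d = yv b p ∨ ∃ H ∈ S.hubs b, d = xv p H (β + S.off b H p.1) := by
  simp only [gvars, Finset.mem_insert, Finset.mem_image]
  constructor
  · rintro (h1 | ⟨H, h1, rfl⟩)
    · exact Or.inl h1
    · exact Or.inr ⟨H, h1, rfl⟩
  · rintro (h1 | ⟨H, h1, rfl⟩)
    · exact Or.inl h1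
    · exact Or.inr ⟨H, h1, rfl⟩

omit [Module (ZMod 2) F] [Fintype F] [Fintype Hub] in
theorem mem_gvars_h {b : Gad} {d : GVar k xe F Hub Gad} :
    d ∈ S.gvars (GItem.h b) ↔ ∃ p, d = yv b p := by
  simp only [gvars, Finset.mem_image, Finset.mem_univ, true_and]
  constructor
  · rintro ⟨p, rfl⟩
    exact ⟨p, rfl⟩
  · rintro ⟨p, rfl⟩
    exact ⟨p, rfl⟩

omit [AddCommGroup F] [Module (ZMod 2) F] [Fintype F] [Fintype Hub] [Fintype Gad] in
theorem xv_inj {p p' : Pos k xe} {H H' : Hub} {α α' : F} {G : Type}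
    (h : (xv p H α : GVar k xe F Hub G) = xv p' H' α') : p = p' ∧ H = H' ∧ α = α' := by
  have := Sum.inl.inj h
  simpa using this

omit [AddCommGroup F] [Module (ZMod 2) F] [Fintype F] [Fintype Hub] [Fintype Gad] in
theorem yv_inj {p p' : Pos k xe} {b b' : Gad} {H : Type}
    (h : (yv b p : GVar k xe F H Gad) = yv b' p') : b = b' ∧ p = p' := by
  have := Sum.inr.inj h
  simpa using this

omit [AddCommGroup F] [Module (ZMod 2) F] [Fintype F] [Fintype Hub] [Fintype Gad] in
theorem xv_ne_yv {p p' : Pos k xe} {H : Hub} {α : F} {b : Gad} :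
    (xv p H α : GVar k xe F Hub Gad) ≠ yv b p' := fun h => by
  simp [xv, yv] at h

variable {D : Data S} {v : Vec k xe F Hub Gad}

omit [Module (ZMod 2) F] [Fintype F] [Fintype Hub] in
/-- The variables of a covered vector at a good position. -/
theorem cov_x (hc : S.Cov D v) {p : Pos k xe} (hp : D.Gd p) {H : Hub} {α : F} (h : v (xv p H α) ≠ 0) :
    H ∈ S.hubs (D.bp p) ∧ α = D.βp p + S.off (D.bp p) H p.1 := by
  rcases hc _ h with ⟨q, hq⟩ | ⟨c, he, hq⟩
  · rcases mem_gvars_e.1 hq with h1 | ⟨H', h1, h2⟩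
    · exact (xv_ne_yv h1).elim
    · obtain ⟨rfl, rfl, rfl⟩ := xv_inj h2
      exact ⟨h1, rfl⟩
  · cases c with
    | e q b β hb =>
      rcases mem_gvars_e.1 hq with h1 | ⟨H', h1, h2⟩
      · exact (xv_ne_yv h1).elim
      · obtain ⟨rfl, rfl, rfl⟩ := xv_inj h2
        exact (hp _ _ _ he).elim
    | h b =>
      obtain ⟨p', h1⟩ := mem_gvars_h.1 hq
      exact (xv_ne_yv h1).elim

omit [Module (ZMod 2) F] [Fintype F] [Fintype Hub] in
theorem cov_y (hc : S.Cov D v) {p : Pos k xe} (hp : D.Gd p) {g : Gad} (h : v (yv g p) ≠ 0) :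
    g = D.bp p ∨ D.extra = some (GItem.h g) := by
  rcases hc _ h with ⟨q, hq⟩ | ⟨c, he, hq⟩
  · rcases mem_gvars_e.1 hq with h1 | ⟨H', h1, h2⟩
    · obtain ⟨rfl, rfl⟩ := yv_inj h1
      exact Or.inl rfl
    · exact (xv_ne_yv h2.symm).elim
  · cases c with
    | e q b β hb =>
      rcases mem_gvars_e.1 hq with h1 | ⟨H', h1, h2⟩
      · obtain ⟨rfl, rfl⟩ := yv_inj h1
        exact (hp _ _ _ he).elim
      · exact (xv_ne_yv h2.symm).elim
    | h b =>
      obtain ⟨p', h1⟩ := mem_gvars_h.1 hq
      obtain ⟨rfl, rfl⟩ := yv_inj h1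
      exact Or.inr he

end GS

namespace Nice

variable {S : GS k xe F Hub Gad} {Tru : Hub → (Fin k → F) → Prop} (hS : Nice S Tru)
include hS

open GS

theorem bal {b : Gad} {β : F} {i : Fin k} (hb : S.allow b i β) (t : Fin 3) :
    ∑ H ∈ S.hubs b, (if S.ty H ≠ t then β else 0) = 0 := by
  rcases hS.tri_or_mono b with ⟨h, hT⟩ | ⟨M, hM⟩
  · exact hT.balance β t
  · rw [hM, Finset.sum_singleton, hS.mono_allow b M i β hM hb]
    simp

/-- The local condition read from a vector with one gadget at a position. -/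
theorem LA_of_read {v : Vec k xe F Hub Gad} {p : Pos k xe} {b : Gad} {β : F} {s : State k F Hub}
    (hs1 : ∀ H, s.1 H = S.rd v p H) (hs2 : ∀ t, s.2 t p.1 = S.kd v p t)
    (hb : S.allow b p.1 β)
    (hx : ∀ H α, v (xv p H α) ≠ 0 → H ∈ S.hubs b ∧ α = β + S.off b H p.1)
    (hy : ∀ g, v (yv g p) ≠ 0 → g = b) : S.LA b β p.1 s := by
  set a : Hub → ZMod 2 := fun H => v (xv p H (β + S.off b H p.1)) with ha
  set τ : ZMod 2 := v (yv b p) with hτ
  have ha0 : ∀ H, H ∉ S.hubs b → a H = 0 := by
    intro H hH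
    by_contra h
    exact hH (hx H _ h).1
  have sumx : ∀ H, ∑ α, v (xv p H α) = a H := by
    intro H
    apply Finset.sum_eq_single
    · intro α _ hα
      by_contra h
      exact hα (hx H α h).2
    · intro h
      exact (h (Finset.mem_univ _)).elim
  have sumxs : ∀ H, ∑ α, v (xv p H α) • α = a H • (β + S.off b H p.1) := by
    intro H
    apply Finset.sum_eq_single
    · intro α _ hα
      have : v (xv p H α) = 0 := by
        by_contra h
        exact hα (hx H α h).2
      rw [this, zero_smul]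
    · intro h
      exact (h (Finset.mem_univ _)).elim
  have sumy : ∀ H, (∑ g, if H ∈ S.hubs g then v (yv g p) else 0) = if H ∈ S.hubs b then τ else 0 := by
    intro H
    apply Finset.sum_eq_single
    · intro g _ hg
      have : v (yv g p) = 0 := by
        by_contra h
        exact hg (hy g h)
      simp [this]
    · intro h
      exact (h (Finset.mem_univ _)).elim
  have sumys : ∀ t, ∑ g, v (yv g p) • (S.gam g).2 t p.1 = τ • (S.gam b).2 t p.1 := by
    intro t
    apply Finset.sum_eq_single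
    · intro g _ hg
      have : v (yv g p) = 0 := by
        by_contra h
        exact hg (hy g h)
      rw [this, zero_smul]
    · intro h
      exact (h (Finset.mem_univ _)).elim
  have hrd : ∀ H, s.1 H = a H + if H ∈ S.hubs b then τ else 0 := by
    intro H
    rw [hs1, rd, sumx, sumy]
  constructor
  · intro H hH
    by_contra h
    apply hH
    rw [hrd, ha0 H h, if_neg h, add_zero]
  · intro t
    rw [hs2, kd, sumys]
    simp only [sumxs]
    have e1 : ∑ H, (if S.ty H ≠ t then a H • (β + S.off b H p.1) else 0) =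
        ∑ H ∈ S.hubs b, (if S.ty H ≠ t then a H • (β + S.off b H p.1) else 0) := by
      symm
      apply Finset.sum_subset (Finset.subset_univ _)
      intro H _ hH
      rw [ha0 H hH, zero_smul]
      simp
    rw [e1, gam_snd]
    have e2 : ∀ H ∈ S.hubs b, (if S.ty H ≠ t then s.1 H • (β + S.off b H p.1) else 0) =
        (if S.ty H ≠ t then a H • (β + S.off b H p.1) else 0) +
        (τ • (if S.ty H ≠ t then β else 0) + τ • (if S.ty H ≠ t then S.off b H p.1 else 0)) := by
      intro H hH
      rw [hrd, if_pos hH]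
      split_ifs
      · rw [add_smul, smul_add τ]
      · simp
    rw [Finset.sum_congr rfl e2, Finset.sum_add_distrib, Finset.sum_add_distrib, ← Finset.smul_sum,
      ← Finset.smul_sum, hS.bal hb t]
    simp

/-- The local condition at a position, with one more token. -/
theorem LA_of_read2 {v : Vec k xe F Hub Gad} {p : Pos k xe} {b b' : Gad} {β : F}
    (hb : S.allow b p.1 β) (hne : b' ≠ b)
    (hx : ∀ H α, v (xv p H α) ≠ 0 → H ∈ S.hubs b ∧ α = β + S.off b H p.1)
    (hy : ∀ g, v (yv g p) ≠ 0 → g = b ∨ g = b') {s : State k F Hub}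
    (hs1 : ∀ H, s.1 H = S.rd v p H) (hs2 : ∀ t, s.2 t p.1 = S.kd v p t)
    (hτ : v (yv b' p) = 1) : S.LA b β p.1 (s + S.gam b') := by
  -- remove the token
  let w : Vec k xe F Hub Gad := Pi.single (yv b' p) 1
  have hw : ∀ d, d ≠ yv b' p → w d = 0 := fun d hd => by simp [w, hd]
  have hw1 : w (yv b' p) = 1 := by simp [w]
  have hrdw : ∀ H, S.rd w p H = (S.gam b').1 H := by
    intro H
    have e1 : ∑ α, w (xv p H α) = 0 :=
      Finset.sum_eq_zero (fun α _ => hw _ xv_ne_yv)
    have e2 : (∑ g, if H ∈ S.hubs g then w (yv g p) else 0) = if H ∈ S.hubs b' then 1 else 0 := by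
      rw [Finset.sum_eq_single b']
      · rw [hw1]
      · intro g _ hg
        rw [hw _ (fun e => hg (yv_inj e).1)]
        simp
      · intro h
        exact (h (Finset.mem_univ _)).elim
    rw [rd, e1, e2, zero_add, gam_fst]
  have hkdw : ∀ t, S.kd w p t = (S.gam b').2 t p.1 := by
    intro t
    have e1 : ∑ H, (if S.ty H ≠ t then ∑ α, w (xv p H α) • α else 0) = 0 := by
      apply Finset.sum_eq_zero
      intro H _
      have : ∑ α, w (xv p H α) • α = 0 :=
        Finset.sum_eq_zero (fun α _ => by rw [hw _ xv_ne_yv, zero_smul])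
      rw [this]
      simp
    have e2 : ∑ g, w (yv g p) • (S.gam g).2 t p.1 = (S.gam b').2 t p.1 := by
      rw [Finset.sum_eq_single b']
      · rw [hw1, one_smul]
      · intro g _ hg
        rw [hw _ (fun e => hg (yv_inj e).1), zero_smul]
      · intro h
        exact (h (Finset.mem_univ _)).elim
    rw [kd, e1, e2, zero_add]
  apply hS.LA_of_read (v := v + w) _ _ hb
  · intro H α h
    apply hx
    rw [Pi.add_apply, hw _ xv_ne_yv, add_zero] at h
    exact h
  · intro g h
    rw [Pi.add_apply] at h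
    by_cases eg : g = b'
    · subst eg
      rw [hτ, hw1] at h
      exact (h (zmod2_self' 1)).elim
    · rw [hw _ (fun e => eg (yv_inj e).1), add_zero] at h
      rcases hy g h with h1 | h1
      · exact h1
      · exact (eg h1).elim
  · intro H
    rw [rd_add, hrdw, ← hs1]
    rfl
  · intro t
    rw [kd_add, hkdw, ← hs2]
    rfl

variable {D : Data S} {v : Vec k xe F Hub Gad}

/-- The dichotomy at a position. -/
theorem at_pos (hinv : S.Inv v) (p0 : Pos k xe) (hc : S.Cov D v) {p : Pos k xe} (hp : D.Gd p)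
    {b' : Gad} (he : D.extra = some (GItem.h b')) :
    S.LA (D.bp p) (D.βp p) p.1 (S.st p0 v) ∨
      (S.LA (D.bp p) (D.βp p) p.1 (S.st p0 v + S.gam b') ∧ v (yv b' p) ≠ 0 ∧ D.bp p ≠ b') := by
  have hx := fun H α h => cov_x (v := v) hc hp (H := H) (α := α) h
  have hy : ∀ g, v (yv g p) ≠ 0 → g = D.bp p ∨ g = b' := by
    intro g h
    rcases cov_y hc hp h with h1 | h1
    · exact Or.inl h1
    · right
      rw [he] at h1
      have h2 := Option.some.inj h1
      injection h2 with h3
      exact h3.symm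
  by_cases h1 : D.bp p ≠ b' ∧ v (yv b' p) ≠ 0
  · right
    refine ⟨hS.LA_of_read2 (D.ok p) h1.1.symm hx hy (fun H => hinv.st_fst p0 p H)
      (fun t => hinv.st_snd p0 p t) (zmod2_ne0' h1.2), h1.2, h1.1⟩
  · left
    apply hS.LA_of_read (fun H => hinv.st_fst p0 p H) (fun t => hinv.st_snd p0 p t) (D.ok p) hx
    intro g h
    rcases hy g h with h2 | h2
    · exact h2
    · subst h2
      by_contra h3
      exact h1 ⟨fun e => h3 e.symm, h⟩

/-- The reading of a covered invariant vector. -/
theorem reading (hinv : S.Inv v) (p0 : Pos k xe) (hc : S.Cov D v) :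
    D.Local (S.st p0 v) ∨ ∃ b', D.extra = some (GItem.h b') ∧ D.Local (S.st p0 v + S.gam b') ∧
      ∃ q, D.bp q ≠ b' ∧ v (yv b' q) ≠ 0 := by
  by_cases he : ∃ b', D.extra = some (GItem.h b')
  swap
  · left
    intro p hp
    have hx := fun H α h => cov_x (v := v) hc hp (H := H) (α := α) h
    apply hS.LA_of_read (fun H => hinv.st_fst p0 p H) (fun t => hinv.st_snd p0 p t) (D.ok p) hx
    intro g h
    rcases cov_y hc hp h with h2 | h2
    · exact h2
    · exact (he ⟨g, h2⟩).elim
  obtain ⟨b', he⟩ := he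
  have hgood : ∀ p, D.Gd p := by
    intro p b β h e
    rw [he] at e
    simp at e
  have hat := fun p => hS.at_pos hinv p0 hc (hgood p) he
  by_cases hq : ∃ q, S.LA (D.bp q) (D.βp q) q.1 (S.st p0 v + S.gam b') ∧ v (yv b' q) ≠ 0 ∧ D.bp q ≠ b' ∧
      ¬ S.LA (D.bp q) (D.βp q) q.1 (S.st p0 v)
  swap
  · left
    intro p _
    rcases hat p with h | h
    · exact h
    · by_contra h3
      exact hq ⟨p, h.1, h.2.1, h.2.2, h3⟩
  obtain ⟨q0, hq1, hq2, hq3, hq4⟩ := hq
  have hgamself : ∀ p, D.bp p = b' → S.LA (D.bp p) (D.βp p) p.1 (S.gam b') := by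
    intro p hp
    have := hS.LA_gam (D.ok p)
    rwa [hp] at this ⊢
  rcases hS.tri_or_mono b' with ⟨h, hT⟩ | ⟨M, hM⟩
  · right
    refine ⟨b', he, ?_, q0, hq3, hq2⟩
    intro p _
    rcases hat p with h1 | h1
    · by_cases e : D.bp p = b'
      · exact h1.add (hgamself p e)
      · exfalso
        -- three hubs in two other gadgets
        have key : ∀ j, h j ∈ S.hubs (D.bp p) ∨ h j ∈ S.hubs (D.bp q0) := by
          intro j
          by_cases h2 : (S.st p0 v).1 (h j) = 0
          · right
            apply hq1.1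
            rw [Nice.fst_add, h2, gam_in (hT.mem j), zero_add]
            exact one_ne_zero
          · left
            exact h1.1 _ h2
        have key2 : ∀ j j', j ≠ j' → h j ∈ S.hubs (D.bp p) → h j' ∈ S.hubs (D.bp p) → False := by
          intro j j' hj h3 h4
          exact e (hS.pair _ _ _ _ (fun e' => hj (hT.inj e')) h3 h4 (hT.mem j) (hT.mem j'))
        have key3 : ∀ j j', j ≠ j' → h j ∈ S.hubs (D.bp q0) → h j' ∈ S.hubs (D.bp q0) → False := by
          intro j j' hj h3 h4
          exact hq3 (hS.pair _ _ _ _ (fun e' => hj (hT.inj e')) h3 h4 (hT.mem j) (hT.mem j'))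
        rcases key 0 with a0 | a0 <;> rcases key 1 with a1 | a1 <;> rcases key 2 with a2 | a2
        · exact key2 0 1 (by decide) a0 a1
        · exact key2 0 1 (by decide) a0 a1
        · exact key2 0 2 (by decide) a0 a2
        · exact key3 1 2 (by decide) a1 a2
        · exact key2 1 2 (by decide) a1 a2
        · exact key3 0 2 (by decide) a0 a2
        · exact key3 0 1 (by decide) a0 a1
        · exact key3 0 1 (by decide) a0 a1
    · exact h1.1
  · -- a gadget with one hub
    have hgamM : ∀ p, M ∈ S.hubs (D.bp p) → S.LA (D.bp p) (D.βp p) p.1 (S.gam b') := by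
      intro p hp
      rw [hM.gam_eq]
      apply LA_phi hp
      exact (hS.mono_single b' M (D.bp p) p.1 (D.βp p) hM hp (D.ok p)).symm
    have hboth : ∀ p, M ∈ S.hubs (D.bp p) → S.LA (D.bp p) (D.βp p) p.1 (S.st p0 v) := by
      intro p hp
      rcases hat p with h1 | h1
      · exact h1
      · have := h1.1.add (hgamM p hp)
        rwa [add_assoc, state_self, add_zero] at this
    -- the value at the hub
    have hMq0 : M ∉ S.hubs (D.bp q0) := fun hm => hq4 (hboth q0 hm)
    rcases zmod2_cases' ((S.st p0 v).1 M) with h0 | h0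
    · exfalso
      apply hq4
      apply hboth
      apply hq1.1
      rw [Nice.fst_add, h0, gam_in hM.mem, zero_add]
      exact one_ne_zero
    · right
      refine ⟨b', he, ?_, q0, hq3, hq2⟩
      intro p _
      rcases hat p with h1 | h1
      · have hm : M ∈ S.hubs (D.bp p) := h1.1 M (by rw [h0]; exact one_ne_zero)
        exact h1.add (hgamM p hm)
      · exact h1.1

end Nice

end Vale.Agent.P310y
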